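import Vale.Agent.P256.H465.StepIIK

/-! Comparison of the coordinates of two frames with bases `f` and `f_c`, `f = k z + μ f_c`. -/

set_option linter.all false

namespace Vale.Agent.P256.H186

open Filter Topology Matrix Vale.Agent.P256 Vale.Agent.P256.H326 Vale.Agent.P256.H387

variable {e z f w : Fin 4 → ℝ}

theorem frame_det (h : LinearIndependent ℝ ![z, e, f, w]) :
    IsUnit ((Matrix.of ![z, e, f, w])ᵀ).det := by
  rw [Matrix.det_transpose, ← Matrix.isUnit_iff_isUnit_det]
  exact Matrix.linearIndependent_rows_iff_isUnit.1 h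

theorem frame_mul (c : Fin 4 → ℝ) : (Matrix.of ![z, e, f, w])ᵀ *ᵥ c =
    c 0 • z + c 1 • e + c 2 • f + c 3 • w := by
  funext i
  simp only [Matrix.mulVec, dotProduct, Matrix.transpose_apply, Matrix.of_apply,
    Fin.sum_univ_four, Pi.add_apply, Pi.smul_apply, smul_eq_mul]
  simp
  ring

theorem co_mul (h : LinearIndependent ℝ ![z, e, f, w]) (y : Fin 4 → ℝ) :
    (Matrix.of ![z, e, f, w])ᵀ *ᵥ co e z f w y = y := by
  unfold co
  rw [Matrix.mulVec_mulVec, Matrix.mul_nonsing_inv _ (frame_det h), Matrix.one_mulVec]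

theorem co_unique (h : LinearIndependent ℝ ![z, e, f, w]) {c y : Fin 4 → ℝ}
    (hc : (Matrix.of ![z, e, f, w])ᵀ *ᵥ c = y) : co e z f w y = c := by
  unfold co
  rw [← hc, Matrix.mulVec_mulVec, Matrix.nonsing_inv_mul _ (frame_det h), Matrix.one_mulVec]

theorem co_z (h : LinearIndependent ℝ ![z, e, f, w]) : co e z f w z = ![1, 0, 0, 0] := by
  refine co_unique h ?_
  rw [frame_mul]
  simp

theorem co_cont : Continuous (co e z f w) := by
  unfold co
  exact Continuous.matrix_mulVec continuous_const continuous_id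

theorem li_chg {fc : Fin 4 → ℝ} {k μ : ℝ} (h : LinearIndependent ℝ ![z, e, f, w])
    (hf : f = k • z + μ • fc) : LinearIndependent ℝ ![z, e, fc, w] := by
  rw [Fintype.linearIndependent_iff] at h ⊢
  intro c hc
  have hμ : μ ≠ 0 := by
    rintro rfl
    rw [zero_smul, add_zero] at hf
    have h1 := h ![k, 0, -1, 0] (by
      rw [Fin.sum_univ_four]
      simp [hf]) 2
    simp at h1
  -- c0 z + c1 e + c2 fc + c3 w, fc = μ⁻¹ (f - k z)
  have hfc : fc = μ⁻¹ • (f - k • z) := by
    rw [hf, add_sub_cancel_left, smul_smul, inv_mul_cancel₀ hμ, one_smul]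
  have h2 := h ![c 0 - c 2 * μ⁻¹ * k, c 1, c 2 * μ⁻¹, c 3] (by
    rw [Fin.sum_univ_four] at hc ⊢
    have h3 : c 0 • z + c 1 • e + c 2 • fc + c 3 • w = 0 := by simpa using hc
    rw [← h3]
    simp only [Matrix.cons_val_zero, Matrix.cons_val_one, Matrix.cons_val, hfc]
    module)
  have h20 := h2 0
  have h21 := h2 1
  have h22 := h2 2
  have h23 := h2 3
  simp only [Matrix.cons_val_zero, Matrix.cons_val_one, Matrix.cons_val] at h20 h21 h22 h23
  have h24 : c 2 = 0 := (mul_eq_zero.1 h22).resolve_right (inv_ne_zero hμ)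
  rw [h24, zero_mul, zero_mul, sub_zero] at h20
  intro i
  fin_cases i
  · exact h20
  · exact h21
  · exact h24
  · exact h23

theorem co_chg {fc : Fin 4 → ℝ} {k μ : ℝ} (h : LinearIndependent ℝ ![z, e, f, w])
    (hf : f = k • z + μ • fc) (y : Fin 4 → ℝ) : co e z fc w y =
    ![co e z f w y 0 + k * co e z f w y 2, co e z f w y 1, μ * co e z f w y 2,
      co e z f w y 3] := by
  refine co_unique (li_chg h hf) ?_
  rw [frame_mul]
  have h1 := co_mul h y
  rw [frame_mul] at h1
  refine Eq.trans ?_ h1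
  obtain ⟨c, hc⟩ : ∃ c, c = co e z f w y := ⟨_, rfl⟩
  rw [← hc]
  simp only [Matrix.cons_val_zero, Matrix.cons_val_one, Matrix.cons_val]
  rw [hf]
  module

/-- **Comparison of frames** -/
theorem chg_crd {fc : Fin 4 → ℝ} {k μ : ℝ} (h : LinearIndependent ℝ ![z, e, f, w])
    (hf : f = k • z + μ • fc) {F V : Filter (Fin 4 → ℝ)} (hF : F ≤ 𝓝 z) (hV : V ≤ 𝓝 z) :
    H465.Chg F V k μ (crd e z f w) (crd e z fc w) := by
  have h0 : ∀ᶠ y in 𝓝 z, co e z f w y 0 ≠ 0 := by
    have h1 : ContinuousAt (fun y => co e z f w y 0) z :=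
      ((continuous_apply 0).comp co_cont).continuousAt
    refine h1.eventually_ne ?_
    rw [co_z h]
    simp
  have h1 : ∀ c0 c2 c3 : ℝ, c0 ≠ 0 → c3 / (c0 + k * c2) = c3 / c0 / (1 + k * (c2 / c0)) := by
    intro c0 c2 c3 hc
    rw [div_div, mul_add, mul_one]
    congr 2
    field_simp
  have key : ∀ y, co e z f w y 0 ≠ 0 →
      (crd e z fc w).a y = (crd e z f w).a y / (1 + k * (crd e z f w).b y) ∧
      (crd e z fc w).b y = μ * (crd e z f w).b y / (1 + k * (crd e z f w).b y) := by
    intro y hy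
    constructor
    · show co e z fc w y 3 / co e z fc w y 0 = co e z f w y 3 / co e z f w y 0 /
        (1 + k * (co e z f w y 2 / co e z f w y 0))
      rw [co_chg h hf y]
      exact h1 _ _ _ hy
    · show co e z fc w y 2 / co e z fc w y 0 = μ * (co e z f w y 2 / co e z f w y 0) /
        (1 + k * (co e z f w y 2 / co e z f w y 0))
      rw [co_chg h hf y, ← mul_div_assoc]
      exact h1 _ _ _ hy
  exact
  { ea := (h0.filter_mono hF).mono fun y hy => (key y hy).1
    eb := (h0.filter_mono hF).mono fun y hy => (key y hy).2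
    ea' := (h0.filter_mono hV).mono fun y hy => (key y hy).1
    eb' := (h0.filter_mono hV).mono fun y hy => (key y hy).2 }

end Vale.Agent.P256.H186
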