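import Vale.Agent.P256.H186.Five

/-! Case (NC): the dispatch on the size and direction of `Bξ` along an ultrafilter. -/

set_option linter.all false

namespace Vale.Agent.P256.H186

open Filter Topology Matrix Vale.Agent.P256 Vale.Agent.P256.H326 Vale.Agent.P256.H387

/-- the ratio of two positive functions along an ultrafilter -/
theorem ratio_ultra {Z : Type*} (U : Ultrafilter Z) {a ε : Z → ℝ}
    (ha : ∀ᶠ l in (U : Filter Z), 0 < a l) (hε : ∀ᶠ l in (U : Filter Z), 0 < ε l) :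
    (∃ c : ℝ, 0 ≤ c ∧ Tendsto (fun l => ε l / a l) (U : Filter Z) (𝓝 c)) ∨
      Tendsto (fun l => a l / ε l) (U : Filter Z) (𝓝 0) := by
  by_cases h : ∃ C : ℝ, ∀ᶠ l in (U : Filter Z), ε l / a l ≤ C
  · obtain ⟨C, hC⟩ := h
    have h1 : ∀ᶠ l in (U : Filter Z), |ε l / a l| ≤ C := by
      filter_upwards [hC, ha, hε] with l h1 h2 h3
      rw [abs_of_nonneg (div_nonneg h3.le h2.le)]
      exact h1
    obtain ⟨c, -, hc⟩ := exists_tendsto U h1
    refine Or.inl ⟨c, ?_, hc⟩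
    refine ge_of_tendsto hc ?_
    filter_upwards [ha, hε] with l h2 h3
    exact (div_pos h3 h2).le
  · refine Or.inr ?_
    push Not at h
    rw [Metric.tendsto_nhds]
    intro δ hδ
    have h2 : ∀ᶠ l in (U : Filter Z), 2 / δ < ε l / a l := h (2 / δ)
    filter_upwards [h2, ha, hε] with l h3 h4 h5
    rw [Real.dist_eq, sub_zero, abs_of_nonneg (div_nonneg h4.le h5.le), div_lt_iff₀ h5]
    rw [div_lt_div_iff₀ hδ h4] at h3
    nlinarith

section Rep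

variable {ι : Type} [Fintype ι] [DecidableEq ι] {L X : Type} {V : Filter X}
  {S : L → X → ℝ} {K : Crd L X}

theorem ker_D {F : Filter L} [F.NeBot] (R : KRep ι F V S K) : R.D *ᵥ R.ξ0 = 0 := by
  funext i
  have h1 : Tendsto (fun l => K.x0 l * R.ξ l i + K.b l * (R.B *ᵥ R.ξ l) i + (R.D *ᵥ R.ξ l) i +
      K.a l * (R.G1 *ᵥ R.ξ l) i + K.a l ^ 2 * (R.H (K.a l) *ᵥ R.ξ l) i) F
      (𝓝 (0 * R.ξ0 i + 0 * (R.B *ᵥ R.ξ0) i + (R.D *ᵥ R.ξ0) i + 0 * (R.G1 *ᵥ R.ξ0) i +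
        0 ^ 2 * (R.H 0 *ᵥ R.ξ0) i)) := by
    refine ((((R.tx0.mul (R.tξ i)).add (R.tb.mul (tendsto_mulVec R.tξ i))).add
      (tendsto_mulVec R.tξ i)).add (R.ta.mul (tendsto_mulVec R.tξ i))).add
      ((R.ta.pow 2).mul (tendsto_Hmul R i))
  have h2 : ∀ᶠ l in F, K.x0 l * R.ξ l i + K.b l * (R.B *ᵥ R.ξ l) i + (R.D *ᵥ R.ξ l) i +
      K.a l * (R.G1 *ᵥ R.ξ l) i + K.a l ^ 2 * (R.H (K.a l) *ᵥ R.ξ l) i = 0 := by
    filter_upwards [R.ker] with l hl
    have h3 := congrFun hl i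
    unfold Mf Gs at h3
    simp only [Matrix.add_mulVec, Matrix.smul_mulVec, Matrix.one_mulVec, Pi.add_apply,
      Pi.smul_apply, smul_eq_mul, Pi.zero_apply] at h3
    linarith
  have h3 : Tendsto (fun _ : L => (0 : ℝ)) F (𝓝 (0 * R.ξ0 i + 0 * (R.B *ᵥ R.ξ0) i +
      (R.D *ᵥ R.ξ0) i + 0 * (R.G1 *ᵥ R.ξ0) i + 0 ^ 2 * (R.H 0 *ᵥ R.ξ0) i)) :=
    h1.congr' h2
  have h4 := tendsto_nhds_unique h3 tendsto_const_nhds
  simp only [Pi.zero_apply]
  linarith

/-- the alternative output of the dispatch: `|Bξ| ∼ a` -/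
def Alt {F : Filter L} (R : KRep ι F V S K) : Prop :=
  ∃ (k1 : ℝ) (v0 : ι → ℝ), k1 ≠ 0 ∧ R.D *ᵥ v0 = R.G1 *ᵥ R.ξ0 ∧
    R.B *ᵥ v0 = k1 • (R.G1 *ᵥ R.ξ0) ∧
    ∀ i, Tendsto (fun l => (R.B *ᵥ R.ξ l) i / K.a l) F (𝓝 (-k1 * (R.G1 *ᵥ R.ξ0) i))

/-- **Dispatch** of section 5 for one representation -/
theorem five_one {U : Ultrafilter L} (R : KRep ι (U : Filter L) V S K) (hB0 : R.B *ᵥ R.ξ0 = 0)
    (ha : ∀ᶠ l in (U : Filter L), 0 < K.a l) (hg : R.G1 *ᵥ R.ξ0 ≠ 0)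
    (hC3 : ∀ (ε : L → ℝ) (μ : ℝ), μ ≠ 0 → (∀ᶠ l in (U : Filter L), 0 < ε l) →
      (∀ i, Tendsto (fun l => (R.B *ᵥ R.ξ l) i / ε l) (U : Filter L)
        (𝓝 (μ * (R.G1 *ᵥ R.ξ0) i))) →
      Tendsto (fun l => K.a l / ε l) (U : Filter L) (𝓝 0) → Goal R) :
    Goal R ∨ Alt R := by
  classical
  have hD0 := ker_D R
  set ε : L → ℝ := fun l => ‖R.B *ᵥ R.ξ l‖ with hε
  have hgξ : R.ξ0 ⬝ᵥ (R.G1 *ᵥ R.ξ0) = 0 := R.G00
  -- the case `Bξ = 0`
  rcases U.mem_or_compl_mem {l | ε l = 0} with h0 | h0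
  · left
    have h1 : ∀ᶠ l in (U : Filter L), R.B *ᵥ R.ξ l = 0 := by
      filter_upwards [h0] with l hl
      exact norm_eq_zero.1 hl
    refine goal_of_dom R (dom_of_zero R h1 fun c0 c2 hc => ?_).2
    have h2 : R.ξ0 ⬝ᵥ (c0 • R.ξ0 + c2 • (R.G1 *ᵥ R.ξ0)) = 0 := by rw [hc]; simp
    rw [dotProduct_add, dotProduct_smul, dotProduct_smul, R.nrm0, hgξ] at h2
    have h3 : c0 = 0 := by simpa using h2
    refine ⟨h3, ?_⟩
    rw [h3, zero_smul, zero_add] at hc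
    exact (smul_eq_zero.1 hc).resolve_right hg
  have hεpos : ∀ᶠ l in (U : Filter L), 0 < ε l := by
    filter_upwards [h0] with l hl
    exact lt_of_le_of_ne (norm_nonneg _) (Ne.symm hl)
  -- the limit direction
  set β : L → ι → ℝ := fun l => (ε l)⁻¹ • (R.B *ᵥ R.ξ l) with hβdef
  have hβ1 : ∀ l, ‖β l‖ ≤ 1 := by
    intro l
    rw [hβdef]
    simp only
    rw [norm_smul, norm_inv, Real.norm_eq_abs, abs_of_nonneg (norm_nonneg _), inv_mul_eq_div]
    exact div_self_le_one _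
  have hlim : ∀ i, ∃ c, |c| ≤ 1 ∧ Tendsto (fun l => β l i) (U : Filter L) (𝓝 c) := by
    intro i
    refine exists_tendsto U (Eventually.of_forall fun l => ?_)
    exact (norm_le_pi_norm (β l) i).trans (hβ1 l)
  choose β0 _ tβ using hlim
  have hβ0 : β0 ≠ 0 := by
    have h1 : Tendsto β (U : Filter L) (𝓝 β0) := tendsto_pi_nhds.2 tβ
    have h2 : Tendsto (fun l => ‖β l‖) (U : Filter L) (𝓝 ‖β0‖) := h1.norm
    have h3 : ∀ᶠ l in (U : Filter L), ‖β l‖ = 1 := by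
      filter_upwards [hεpos] with l hl
      rw [hβdef]
      simp only
      rw [norm_smul, norm_inv, Real.norm_eq_abs, abs_of_nonneg (norm_nonneg _)]
      exact inv_mul_cancel₀ hl.ne'
    have h4 : Tendsto (fun _ : L => (1 : ℝ)) (U : Filter L) (𝓝 ‖β0‖) := h2.congr' h3
    have h5 := tendsto_nhds_unique h4 tendsto_const_nhds
    intro h6
    rw [h6, norm_zero] at h5
    exact zero_ne_one h5
  have hBβ : ∀ᶠ l in (U : Filter L), R.B *ᵥ R.ξ l = ε l • β l := by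
    filter_upwards [hεpos] with l hl
    rw [hβdef]
    simp only
    rw [smul_smul, mul_inv_cancel₀ hl.ne', one_smul]
  have hβξ : R.ξ0 ⬝ᵥ β0 = 0 := by
    have h1 : Tendsto (fun l => R.ξ0 ⬝ᵥ β l) (U : Filter L) (𝓝 (R.ξ0 ⬝ᵥ β0)) :=
      tendsto_finsetSum _ fun i _ => (tβ i).const_mul _
    have h2 : ∀ l, R.ξ0 ⬝ᵥ β l = 0 := by
      intro l
      rw [hβdef]
      simp only
      rw [dotProduct_smul, herm_swap R.symB, hB0]; simp
    simp only [h2] at h1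
    exact (tendsto_nhds_unique h1 tendsto_const_nhds)
  have hβran : ∃ w : ι → ℝ, R.B *ᵥ w = β0 := by
    obtain ⟨w, -, hw⟩ := exists_pre (F := (U : Filter L)) (v := fun l => (ε l)⁻¹ • R.ξ l)
      0 R.B (p := 0) (q := β0) (fun i => by simp) (fun i => by
        refine (tβ i).congr fun l => ?_
        rw [Matrix.mulVec_smul])
    exact ⟨w, hw⟩
  by_cases hpar : ∃ μ : ℝ, β0 = μ • (R.G1 *ᵥ R.ξ0)
  · obtain ⟨μ, hμ⟩ := hpar
    have hμ0 : μ ≠ 0 := by
      rintro rfl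
      rw [zero_smul] at hμ
      exact hβ0 hμ
    have tB : ∀ i, Tendsto (fun l => (R.B *ᵥ R.ξ l) i / ε l) (U : Filter L)
        (𝓝 (μ * (R.G1 *ᵥ R.ξ0) i)) := by
      intro i
      have h1 := tβ i
      rw [hμ, Pi.smul_apply, smul_eq_mul] at h1
      refine h1.congr fun l => ?_
      rw [hβdef]
      simp only
      rw [Pi.smul_apply, smul_eq_mul, inv_mul_eq_div]
    rcases ratio_ultra U ha hεpos with ⟨c, hc0, hc⟩ | hr
    · -- `Bξ / a → c μ g`
      have tBa : ∀ i, Tendsto (fun l => (R.B *ᵥ R.ξ l) i / K.a l) (U : Filter L)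
          (𝓝 (c * μ * (R.G1 *ᵥ R.ξ0) i)) := by
        intro i
        have h1 := hc.mul (tB i)
        rw [← mul_assoc] at h1
        refine h1.congr' ?_
        filter_upwards [ha, hεpos] with l h2 h3
        have := h2.ne'
        have := h3.ne'
        field_simp
      rcases hc0.eq_or_lt with hc0 | hc0
      · exfalso
        refine not_small R hB0 hD0 ha (fun i => ?_) hg ?_
        · have h1 := tBa i
          rw [← hc0, zero_mul, zero_mul] at h1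
          exact h1
        · obtain ⟨w, hw⟩ := hβran
          refine ⟨μ⁻¹ • w, ?_⟩
          rw [Matrix.mulVec_smul, hw, hμ, smul_smul, inv_mul_cancel₀ hμ0, one_smul]
      · right
        obtain ⟨v0, h1, h2⟩ := exists_v0 R hB0 hD0 ha
          (β0 := fun i => c * μ * (R.G1 *ᵥ R.ξ0) i) tBa
        refine ⟨-(c * μ), v0, neg_ne_zero.2 (mul_ne_zero hc0.ne' hμ0), h1, ?_, fun i => ?_⟩
        · rw [h2]
          funext i
          simp
        · rw [neg_neg]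
          exact tBa i
    · left
      exact hC3 ε μ hμ0 hεpos tB hr
  · left
    refine goal_of_dom R (dom_of_indep R hBβ tβ fun c0 c1 c2 hc => ?_).2.2
    have h2 : R.ξ0 ⬝ᵥ (c0 • R.ξ0 + c1 • β0 + c2 • (R.G1 *ᵥ R.ξ0)) = 0 := by rw [hc]; simp
    rw [dotProduct_add, dotProduct_add, dotProduct_smul, dotProduct_smul, dotProduct_smul,
      R.nrm0, hgξ, hβξ] at h2
    have h3 : c0 = 0 := by simpa using h2
    rw [h3, zero_smul, zero_add] at hc
    have h4 : c1 = 0 := by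
      by_contra h5
      refine hpar ⟨-(c1⁻¹ * c2), ?_⟩
      have h6 : c1 • β0 = -(c2 • (R.G1 *ᵥ R.ξ0)) := eq_neg_of_add_eq_zero_left hc
      calc β0 = c1⁻¹ • (c1 • β0) := by rw [smul_smul, inv_mul_cancel₀ h5, one_smul]
        _ = _ := by rw [h6, smul_neg, smul_smul, neg_smul]
    rw [h4, zero_smul, zero_add] at hc
    exact ⟨h3, h4, (smul_eq_zero.1 hc).resolve_right hg⟩

end Rep

end Vale.Agent.P256.H186
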