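import Vale.Agent.P256.H186.Lin

/-! Absorption with an additional small term: `d_k² ≤ C Φ + δ R` for all `δ > 0`. -/

set_option linter.all false

namespace Vale.Agent.P256.H186

open Filter Topology Matrix Vale.Agent.P256 Vale.Agent.P256.H326 Vale.Agent.P256.H201

variable {L X : Type*} {F : Filter L} {G : Filter X}

theorem dom_absorb_extra {κ : Type*} [Fintype κ] {d p s : κ → L → X → ℝ} {Φ R : L → X → ℝ}
    (hΦ : SosF F G Φ) (hR : SosF F G R) (hd : ∀ k, FR (d k)) (hp : ∀ k, Dom F G (p k) Φ)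
    (hs : ∀ k, Sml F G (s k) (fun l x => Φ l x + ∑ j, d j l x ^ 2 + R l x))
    (he : ∀ k, EqF F G (d k) (fun l x => p k l x + s k l x)) {δ : ℝ} (hδ : 0 < δ) :
    ∃ C : ℝ, 0 < C ∧ SosF F G (fun l x => C * Φ l x + δ * R l x - ∑ j, d j l x ^ 2) ∧
      ∀ k, SosF F G (fun l x => C * Φ l x + δ * R l x - d k l x ^ 2) := by
  classical
  set Q : L → X → ℝ := fun l x => ∑ j, d j l x ^ 2 with hQ
  have hQs : SosF F G Q := SosF.sum _ fun j _ => SosF.sq (hd j)
  set N : ℝ := (Fintype.card κ : ℝ) with hN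
  have hN0 : 0 ≤ N := Nat.cast_nonneg _
  set m : ℝ := min 1 δ with hm
  have hmpos : 0 < m := lt_min one_pos hδ
  have hm1 : m ≤ 1 := min_le_left _ _
  have hmδ : m ≤ δ := min_le_right _ _
  set η : ℝ := m / (4 * (N + 1)) with hη
  have hηpos : 0 < η := by positivity
  have h1 : ∀ j, ∃ C : ℝ, 0 < C ∧
      SosF F G (fun l x => C * Φ l x + 2 * η * (Φ l x + Q l x + R l x) - d j l x ^ 2) := by
    intro j
    obtain ⟨fp, C, hC, s1⟩ := hp j
    have s2 := (hs j).le η hηpos
    have s3 : SosF F G (fun l x => (p j l x - s j l x) ^ 2) := SosF.sq (fp.sub (hs j).fr)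
    have s4 := ((s1.smul (c := 2) (by norm_num)).add (s2.smul (c := 2) (by norm_num))).add s3
    refine ⟨2 * C, by positivity, s4.congr ?_⟩
    obtain ⟨A, hA, B, hB, e⟩ := he j
    refine ⟨A, hA, B, hB, fun l hl x hx => ?_⟩
    have e1 : d j l x = p j l x + s j l x := e l hl x hx
    show 2 * C * Φ l x + 2 * η * (Φ l x + Q l x + R l x) - d j l x ^ 2 =
      2 * (C * Φ l x - p j l x ^ 2) + 2 * (η * (Φ l x + Q l x + R l x) - s j l x ^ 2) +
        (p j l x - s j l x) ^ 2
    rw [e1]; ring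
  choose C hC h2 using h1
  have h3 : SosF F G (fun l x => ∑ j, (C j * Φ l x + 2 * η * (Φ l x + Q l x + R l x) -
      d j l x ^ 2)) := SosF.sum _ fun j _ => h2 j
  have h4 : N * (2 * η) ≤ m / 2 := by
    rw [hη]
    have : N * (2 * (m / (4 * (N + 1)))) = (N / (N + 1)) * (m / 2) := by field_simp; ring
    rw [this]
    have h5 : N / (N + 1) ≤ 1 := (div_le_one (by positivity)).2 (by linarith)
    nlinarith
  have h5 : SosF F G (fun l x => (m / 2 - N * (2 * η)) * (Φ l x + Q l x + R l x)) :=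
    ((hΦ.add hQs).add hR).smul (by linarith)
  have h6 : SosF F G (fun l x => (1 - m) * Q l x) := hQs.smul (by linarith)
  have h7 : SosF F G (fun l x => (1 - m) * Φ l x) := hΦ.smul (by linarith)
  have h8 : SosF F G (fun l x => (δ - m) * R l x) := hR.smul (by linarith)
  have hCs : 0 ≤ ∑ j, C j := Finset.sum_nonneg fun j _ => (hC j).le
  have key : SosF F G (fun l x => (2 * ∑ j, C j + 1) * Φ l x + δ * R l x - Q l x) := by
    refine (((h3.add h5).smul (c := 2) (by norm_num)).add ((h6.add h7).add h8)).congr'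
      fun l x => ?_
    have e1 : ∑ j, (C j * Φ l x + 2 * η * (Φ l x + Q l x + R l x) - d j l x ^ 2) =
        (∑ j, C j) * Φ l x + N * (2 * η * (Φ l x + Q l x + R l x)) - Q l x := by
      rw [Finset.sum_sub_distrib, Finset.sum_add_distrib, ← Finset.sum_mul, Finset.sum_const,
        Finset.card_univ, nsmul_eq_mul]
    rw [e1]; ring
  refine ⟨2 * ∑ j, C j + 1, by positivity, key, fun k => ?_⟩
  have h9 : SosF F G (fun l x => ∑ j ∈ Finset.univ.erase k, d j l x ^ 2) :=
    SosF.sum _ fun j _ => SosF.sq (hd j)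
  refine (key.add h9).congr' fun l x => ?_
  have : Q l x = d k l x ^ 2 + ∑ j ∈ Finset.univ.erase k, d j l x ^ 2 :=
    (Finset.add_sum_erase _ _ (Finset.mem_univ k)).symm
  rw [this]; ring

theorem dom_vec_extra {ι κ : Type*} [Fintype ι] [Fintype κ] [DecidableEq κ]
    {d : κ → L → X → ℝ} {Φ R : L → X → ℝ} (hΦ : SosF F G Φ) (hR : SosF F G R)
    (hd : ∀ k, FR (d k))
    {A : κ → ι → L → X → ℝ} {α : κ → ι → ℝ} (hA : ∀ k i, GermFR F G (A k i) (α k i))
    {U E : ι → L → X → ℝ} (hU : ∀ i, Dom F G (U i) Φ)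
    (hE : ∀ i, Sml F G (E i) (fun l x => Φ l x + ∑ j, d j l x ^ 2 + R l x))
    (he : ∀ i, EqF F G (U i) (fun l x => ∑ k, d k l x * A k i l x + E i l x))
    (hli : ∀ c : κ → ℝ, (∀ i, ∑ k, c k * α k i = 0) → c = 0) {δ : ℝ} (hδ : 0 < δ) :
    ∃ C : ℝ, 0 < C ∧ SosF F G (fun l x => C * Φ l x + δ * R l x - ∑ j, d j l x ^ 2) ∧
      ∀ k, SosF F G (fun l x => C * Φ l x + δ * R l x - d k l x ^ 2) := by
  classical
  obtain ⟨w, hw⟩ := exists_dual hli
  set Q : L → X → ℝ := fun l x => Φ l x + ∑ j, d j l x ^ 2 + R l x with hQ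
  have hsq : SosF F G (fun l x => ∑ j, d j l x ^ 2) := SosF.sum _ fun j _ => SosF.sq (hd j)
  have hQs : SosF F G Q := (hΦ.add hsq).add hR
  have hdQ : ∀ j, Dom F G (d j) Q := fun j => by
    refine (Dom.self (hd j)).mono ?_
    have h7 : SosF F G (fun l x => ∑ i ∈ Finset.univ.erase j, d i l x ^ 2) :=
      SosF.sum _ fun i _ => SosF.sq (hd i)
    refine ((hΦ.add h7).add hR).congr' fun l x => ?_
    have : ∑ i, d i l x ^ 2 = d j l x ^ 2 + ∑ i ∈ Finset.univ.erase j, d i l x ^ 2 :=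
      (Finset.add_sum_erase _ _ (Finset.mem_univ j)).symm
    show Φ l x + ∑ j, d j l x ^ 2 + R l x - d j l x ^ 2 = _
    rw [this]; ring
  have hsmall : ∀ j i, Sml F G (fun l x => (A j i l x - α j i) * d j l x) Q := by
    intro j i
    have h1 : GermFR F G (fun l x => A j i l x - α j i) 0 :=
      ((hA j i).sub (GermFR.const (α j i))).congr (fun _ _ => rfl) (by ring)
    exact (hdQ j).germ_small h1
  refine dom_absorb_extra (p := fun k l x => ∑ i, w k i * U i l x)
    (s := fun k l x => -(∑ i, w k i * (E i l x + ∑ j, (A j i l x - α j i) * d j l x)))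
    hΦ hR hd (fun k => Dom.sum _ hΦ fun i _ => (hU i).smul (w k i)) (fun k => ?_) (fun k => ?_) hδ
  · exact (Sml.sum _ hQs fun i _ => ((hE i).add
      (Sml.sum _ hQs fun j _ => hsmall j i)).smul (w k i)).neg
  · choose A1 hA1 B1 hB1 e1 using he
    refine ⟨⋂ i, A1 i, iInter_mem.2 hA1, ⋂ i, B1 i, iInter_mem.2 hB1, fun l hl x hx => ?_⟩
    have e2 : ∀ i, U i l x = ∑ k, d k l x * A k i l x + E i l x := fun i =>
      e1 i l (Set.mem_iInter.1 hl i) x (Set.mem_iInter.1 hx i)
    show d k l x = ∑ i, w k i * U i l x +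
      -(∑ i, w k i * (E i l x + ∑ j, (A j i l x - α j i) * d j l x))
    rw [← Finset.sum_neg_distrib, ← Finset.sum_add_distrib]
    have e3 : ∀ i, w k i * U i l x + -(w k i * (E i l x + ∑ j, (A j i l x - α j i) * d j l x)) =
        ∑ j, d j l x * (w k i * α j i) := by
      intro i
      rw [e2 i]
      have : w k i * (∑ j, d j l x * A j i l x + E i l x) +
          -(w k i * (E i l x + ∑ j, (A j i l x - α j i) * d j l x)) =
          w k i * (∑ j, d j l x * A j i l x - ∑ j, (A j i l x - α j i) * d j l x) := by ring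
      rw [this, ← Finset.sum_sub_distrib, Finset.mul_sum]
      exact Finset.sum_congr rfl fun j _ => by ring
    rw [Finset.sum_congr rfl fun i _ => e3 i, Finset.sum_comm]
    have e4 : ∀ j, ∑ i, d j l x * (w k i * α j i) = d j l x * (if k = j then 1 else 0) := by
      intro j
      rw [← Finset.mul_sum, hw]
    rw [Finset.sum_congr rfl fun j _ => e4 j]
    simp

end Vale.Agent.P256.H186
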