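import Vale.Agent.P256.H186.Disp
import Vale.Agent.P256.H201.C3
import Vale.Agent.P256.H465.StepIIK

/-! Case (NC), final form: two representations with bases on the flat line. -/

set_option linter.all false

namespace Vale.Agent.P256.H186

open Filter Topology Matrix Vale.Agent.P256 Vale.Agent.P256.H326 Vale.Agent.P256.H387

section Rep

variable {ι : Type} [Fintype ι] [DecidableEq ι] {L X : Type} {U : Ultrafilter L}
  {V : Ultrafilter X} {S : L → X → ℝ} {K : Crd L X}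

theorem tendsto_mat {Y : Type*} {F : Filter Y} {M : Y → Matrix ι ι ℝ} {M0 : Matrix ι ι ℝ}
    (h : ∀ i j, Tendsto (fun y => M y i j) F (𝓝 (M0 i j))) : Tendsto M F (𝓝 M0) :=
  tendsto_pi_nhds.2 fun i => tendsto_pi_nhds.2 fun j => h i j

/-- the form of the representation used for case 5c(iii) -/
noncomputable def toPF (R : KRep ι (U : Filter L) (V : Filter X) S K) (hB0 : R.B *ᵥ R.ξ0 = 0)
    (hγ : R.ξ0 ⬝ᵥ (R.H 0 *ᵥ R.ξ0) = 0) : H201.PF U V ι where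
  B := R.B
  D := R.D
  G1 := R.G1
  G2 := R.H 0
  xL := K.x0
  bL := K.b
  aL := K.a
  xX := K.y0
  bX := K.b'
  aX := K.a'
  HL := fun l => R.H (K.a l)
  HX := fun x => R.H (K.a' x)
  ξ := R.ξ
  ξ0 := R.ξ0
  hB := R.symB
  hD := R.psdD
  hG := R.sym1
  txL := R.tx0
  tbL := R.tb
  taL := R.ta
  txX := R.ty0
  tbX := R.tb'
  taX := R.ta'
  tHL := tendsto_mat fun i j => tendsto_H R i j
  tHX := tendsto_mat fun i j => tendsto_H' R i j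
  psdL := R.psdL.mono fun l hl => by
    have : H201.pen R.B R.D R.G1 (K.x0 l) (K.b l) (K.a l) (R.H (K.a l)) =
        Mf R.B R.D R.G1 R.H (K.x0 l) (K.b l) (K.a l) := by
      unfold H201.pen Mf Gs
      abel
    rw [this]; exact hl
  psdX := R.psdX.mono fun x hx => by
    have : H201.pen R.B R.D R.G1 (K.y0 x) (K.b' x) (K.a' x) (R.H (K.a' x)) =
        Mf R.B R.D R.G1 R.H (K.y0 x) (K.b' x) (K.a' x) := by
      unfold H201.pen Mf Gs
      abel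
    rw [this]; exact hx
  ker := R.ker.mono fun l hl => by
    have : H201.pen R.B R.D R.G1 (K.x0 l) (K.b l) (K.a l) (R.H (K.a l)) =
        Mf R.B R.D R.G1 R.H (K.x0 l) (K.b l) (K.a l) := by
      unfold H201.pen Mf Gs
      abel
    rw [this]; exact hl
  nrm := R.nrm
  tξ := tendsto_pi_nhds.2 R.tξ
  hD0 := ker_D R
  hB0 := hB0
  hg0 := R.G00
  hγ := hγ
  N1 := fun i j => (dom_dH R i j)

/-- **5c(iii)** for a representation -/
theorem c3_goal (R : KRep ι (U : Filter L) (V : Filter X) S K) (hB0 : R.B *ᵥ R.ξ0 = 0)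
    (hγ : R.ξ0 ⬝ᵥ (R.H 0 *ᵥ R.ξ0) = 0) (hg : R.G1 *ᵥ R.ξ0 ≠ 0)
    (ha : ∀ᶠ l in (U : Filter L), 0 < K.a l) {b1 a1 : ℝ} (ha1 : 0 < a1)
    (NC : ∀ v : ι → ℝ, R.D *ᵥ v = 0 → 0 ≤ b1 * (v ⬝ᵥ (R.B *ᵥ v)) + a1 * (v ⬝ᵥ (R.G1 *ᵥ v)))
    (ε : L → ℝ) (μ : ℝ) (hμ : μ ≠ 0) (hε : ∀ᶠ l in (U : Filter L), 0 < ε l)
    (hB : ∀ i, Tendsto (fun l => (R.B *ᵥ R.ξ l) i / ε l) (U : Filter L)
        (𝓝 (μ * (R.G1 *ᵥ R.ξ0) i)))
    (hr : Tendsto (fun l => K.a l / ε l) (U : Filter L) (𝓝 0)) : Goal R := by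
  obtain ⟨C, hC, h⟩ := H201.case_c3 (toPF R hB0 hγ) hg ha1 NC ha
    (x0_div_a R hB0 (ker_D R) ha) hμ hε
    (tendsto_pi_nhds.2 fun i => (hB i).congr fun l => by
      show (R.B *ᵥ R.ξ l) i / ε l = (ε l)⁻¹ * (R.B *ᵥ R.ξ l) i
      rw [div_eq_inv_mul]) hr
  refine ⟨C, hC, h.congr' fun l x => ?_⟩
  have e : (toPF R hB0 hγ).MX x = Mf R.B R.D R.G1 R.H (K.y0 x) (K.b' x) (K.a' x) := by
    show H201.pen R.B R.D R.G1 (K.y0 x) (K.b' x) (K.a' x) (R.H (K.a' x)) = _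
    unfold H201.pen Mf Gs
    abel
  have e2 : (toPF R hB0 hγ).Φ l x = Phi R l x := by
    show R.ξ l ⬝ᵥ ((toPF R hB0 hγ).MX x *ᵥ R.ξ l) = _
    rw [e]
    rfl
  rw [e2]
  rfl

end Rep

section Final

variable {L X : Type} {U : Ultrafilter L} {V : Ultrafilter X} {S : L → X → ℝ}

/-- a representation in the situation of section 5 -/
def HasNC (U : Ultrafilter L) (V : Ultrafilter X) (S : L → X → ℝ) (K : Crd L X) : Prop :=
  ∃ (ι : Type) (_ : Fintype ι) (_ : DecidableEq ι)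
    (R : KRep ι (U : Filter L) (V : Filter X) S K),
    R.B *ᵥ R.ξ0 = 0 ∧ R.ξ0 ⬝ᵥ (R.H 0 *ᵥ R.ξ0) = 0 ∧ R.G1 *ᵥ R.ξ0 ≠ 0 ∧
    ∃ b1 a1 : ℝ, 0 < a1 ∧ ∀ v : ι → ℝ, R.D *ᵥ v = 0 →
      0 ≤ b1 * (v ⬝ᵥ (R.B *ᵥ v)) + a1 * (v ⬝ᵥ (R.G1 *ᵥ v))

/-- the goal implies that the slack kernel is a sum of squares -/
theorem sos_of_goal {ι : Type} [Fintype ι] [DecidableEq ι] {K : Crd L X}
    (R : KRep ι (U : Filter L) (V : Filter X) S K) (hγ : R.ξ0 ⬝ᵥ (R.H 0 *ᵥ R.ξ0) = 0)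
    (h : Goal R) : SosF (U : Filter L) (V : Filter X) S := by
  obtain ⟨C, hC, h⟩ := h
  refine H465.goal R hγ ⟨C, hC, h.congr' fun l x => ?_⟩
  have e : H465.TF R l x = Phi R l x := by
    show R.ξ l ⬝ᵥ (H465.pen R.B R.D R.G1 (K.y0 x) (K.b' x) (K.a' x) (R.H (K.a' x)) *ᵥ R.ξ l) = _
    rw [← H465.mf_eq_pen]
    rfl
  rw [e]
  rfl

/-- **Section 5 (case NC)**: if every frame `(f, w)` with `f` on the flat line has a representation
as in `HasNC`, then the slack kernel is a sum of squares. -/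
theorem caseNC {K : Crd L X} (ha : ∀ᶠ l in (U : Filter L), 0 < K.a l) (h : HasNC U V S K)
    (hfam : ∀ k : ℝ, k ≠ 0 → ∃ (μ : ℝ) (Kc : Crd L X), μ ≠ 0 ∧
      H465.Chg (U : Filter L) (V : Filter X) k μ K Kc ∧ HasNC U V S Kc) :
    SosF (U : Filter L) (V : Filter X) S := by
  obtain ⟨ι, i1, i2, R, hB0, hγ, hg, b1, a1, ha1, NC⟩ := h
  rcases five_one R hB0 ha hg (fun ε μ hμ hε hB hr =>
    c3_goal R hB0 hγ hg ha ha1 NC ε μ hμ hε hB hr) with hG | ⟨k1, v0, hk1, -, -, hlim⟩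
  · exact sos_of_goal R hγ hG
  obtain ⟨μ, Kc, hμ, hchg, κ, j1, j2, Rc, hB0c, hγc, hgc, b2, a2, ha2, NCc⟩ := hfam k1 hk1
  have t1 : Tendsto (fun l => 1 + k1 * K.b l) (U : Filter L) (𝓝 1) := by
    simpa using (R.tb.const_mul k1).const_add 1
  have hac : ∀ᶠ l in (U : Filter L), 0 < Kc.a l := by
    filter_upwards [hchg.ea, ha, t1.eventually (lt_mem_nhds (show (0 : ℝ) < 1 by norm_num))]
      with l h1 h2 h3
    rw [h1]
    exact div_pos h2 h3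
  rcases five_one Rc hB0c hac hgc (fun ε μ hμ hε hB hr =>
    c3_goal Rc hB0c hγc hgc hac ha2 NCc ε μ hμ hε hB hr) with hG | ⟨k2, v1, hk2, -, -, hlim2⟩
  · exact sos_of_goal Rc hγc hG
  refine H465.step_ii R Rc hγ hγc hμ hchg (ha.mono fun l hl => hl.ne') hg hlim hB0c
    (β0 := fun i => -k2 * (Rc.G1 *ᵥ Rc.ξ0) i) ?_ hlim2
  intro h0
  apply hgc
  funext i
  have h1 := congrFun h0 i
  simp only [Pi.zero_apply] at h1 ⊢
  rcases mul_eq_zero.1 h1 with h2 | h2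
  · exact absurd (neg_eq_zero.1 h2) hk2
  · exact h2

end Final

end Vale.Agent.P256.H186
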