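import Vale.Agent.P256.H186.Lin
import Vale.Agent.P256.H387.Iface

/-! Case (NC), first part: the vector kernel `U = M(x) ξ(l)`, its expansion, and the goal
`α² ≤ C |F|²` when the limit directions of `ξ`, `Bξ`, `G₁ξ` are independent; exclusion of the case
`|Bξ| = o(a)`. -/

set_option linter.all false

namespace Vale.Agent.P256.H186

open Filter Topology Matrix Vale.Agent.P256 Vale.Agent.P256.H326 Vale.Agent.P256.H387

/-- Cauchy-Schwarz for psd matrix functions: `⟨w, M ξ⟩² ≤ C ⟨ξ, M ξ⟩` if `⟨w, M w⟩ ≤ C` -/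
theorem dom_form {ι : Type*} [Fintype ι] [DecidableEq ι] {L X : Type*} {F : Filter L}
    {V : Filter X} {M : X → Matrix ι ι ℝ} (hM : ∀ᶠ x in V, (M x).PosSemidef) (ξ : L → ι → ℝ)
    (w : X → ι → ℝ) {C : ℝ} (hC : ∀ᶠ x in V, w x ⬝ᵥ (M x *ᵥ w x) ≤ C) :
    H201.Dom F V (fun l x => w x ⬝ᵥ (M x *ᵥ ξ l)) (fun l x => ξ l ⬝ᵥ (M x *ᵥ ξ l)) := by
  have hfr : FR (fun l x => w x ⬝ᵥ (M x *ᵥ ξ l)) := by
    have e : ∀ l x, w x ⬝ᵥ (M x *ᵥ ξ l) = ∑ i, ∑ j, M x i j * w x i * ξ l j := fun l x =>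
      dot_mulVec_eq _ _ _
    refine (FR.sum Finset.univ (h := fun i l x => ∑ j, M x i j * w x i * ξ l j) fun i _ =>
      FR.sum Finset.univ (h := fun j l x => M x i j * w x i * ξ l j) fun j _ => ?_).congr e
    exact (FR.mulfun (fun l => ξ l j) (fun x => M x i j * w x i)).congr fun l x => by ring
  refine ⟨hfr, |C| + 1, by positivity, ?_⟩
  set N : X → Matrix ι ι ℝ := fun x => (|C| + 1) • M x -
    Matrix.vecMulVec (M x *ᵥ w x) (M x *ᵥ w x) with hN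
  have hNform : ∀ x, (M x).PosSemidef → ∀ v : ι → ℝ, v ⬝ᵥ (N x *ᵥ v) =
      (|C| + 1) * (v ⬝ᵥ (M x *ᵥ v)) - (w x ⬝ᵥ (M x *ᵥ v)) ^ 2 := by
    intro x hx v
    rw [hN]
    simp only
    rw [Matrix.sub_mulVec, dotProduct_sub, Matrix.smul_mulVec, dotProduct_smul, smul_eq_mul]
    congr 1
    have h1 : (M x *ᵥ w x) ⬝ᵥ v = w x ⬝ᵥ (M x *ᵥ v) := by
      rw [dotProduct_comm, herm_swap hx.1]
    rw [Matrix.vecMulVec_mulVec, h1, dotProduct_smul, MulOpposite.smul_eq_mul_unop, MulOpposite.unop_op,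
      dotProduct_comm v, h1]
    ring
  have hNpsd : ∀ᶠ x in V, (N x).PosSemidef := by
    filter_upwards [hM, hC] with x hx hc
    refine Matrix.PosSemidef.of_dotProduct_mulVec_nonneg ?_ fun v => ?_
    · rw [hN]
      refine Matrix.IsHermitian.sub ?_ ?_
      · exact hx.1.smul (by rfl : star (|C| + 1) = |C| + 1)
      · unfold Matrix.IsHermitian
        rw [Matrix.conjTranspose_vecMulVec]
        rfl
    · rw [star_trivial, hNform x hx]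
      -- discriminant
      have h0 := psd_nonneg hx v
      have h1 : (w x ⬝ᵥ (M x *ᵥ v)) ^ 2 ≤ (w x ⬝ᵥ (M x *ᵥ w x)) * (v ⬝ᵥ (M x *ᵥ v)) := by
        set p := w x ⬝ᵥ (M x *ᵥ w x)
        set q := w x ⬝ᵥ (M x *ᵥ v)
        set r := v ⬝ᵥ (M x *ᵥ v)
        have key : ∀ s : ℝ, 0 ≤ p * (s * s) + 2 * q * s + r := by
          intro s
          have h2 := psd_nonneg hx (s • w x + v)
          have h3 : (s • w x + v) ⬝ᵥ (M x *ᵥ (s • w x + v)) = p * (s * s) + 2 * q * s + r := by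
            rw [Matrix.mulVec_add, Matrix.mulVec_smul, add_dotProduct, dotProduct_add,
              dotProduct_add, smul_dotProduct, smul_dotProduct, dotProduct_smul, dotProduct_smul,
              herm_swap hx.1 v (w x)]
            simp only [smul_eq_mul]
            ring
          rwa [h3] at h2
        have h4 := discrim_le_zero key
        unfold discrim at h4
        nlinarith
      have h2 : (w x ⬝ᵥ (M x *ᵥ w x)) * (v ⬝ᵥ (M x *ᵥ v)) ≤ (|C| + 1) * (v ⬝ᵥ (M x *ᵥ v)) :=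
        mul_le_mul_of_nonneg_right (by linarith [le_abs_self C]) h0
      linarith
  refine (sosF_psd (F := F) hNpsd ξ).congr
    (EqF.of_eventually (fun _ => True) (fun x => (M x).PosSemidef) (by simp) hM ?_)
  intro l x _ hx
  rw [← dot_mulVec_eq, hNform x hx]

section Rep

variable {ι : Type} [Fintype ι] [DecidableEq ι] {L X : Type} {F : Filter L} {V : Filter X}
  {S : L → X → ℝ} {K : Crd L X}

/-- `|F|² = ⟨ξ(l), M(x) ξ(l)⟩` -/
def Phi (R : KRep ι F V S K) (l : L) (x : X) : ℝ :=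
  R.ξ l ⬝ᵥ (Mf R.B R.D R.G1 R.H (K.y0 x) (K.b' x) (K.a' x) *ᵥ R.ξ l)

/-- the goal `α² ≤ C |F|²` -/
def Goal (R : KRep ι F V S K) : Prop :=
  ∃ C : ℝ, 0 < C ∧ SosF F V (fun l x => C * Phi R l x - K.α l x ^ 2)

theorem phi_sos (R : KRep ι F V S K) : SosF F V (Phi R) :=
  (sosF_psd (F := F) R.psdX R.ξ).congr' fun l x => by rw [← dot_mulVec_eq]; rfl

theorem dom_phi (R : KRep ι F V S K) (w : X → ι → ℝ) {C : ℝ}
    (hC : ∀ᶠ x in V, w x ⬝ᵥ (Mf R.B R.D R.G1 R.H (K.y0 x) (K.b' x) (K.a' x) *ᵥ w x) ≤ C) :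
    H201.Dom F V (fun l x => w x ⬝ᵥ (Mf R.B R.D R.G1 R.H (K.y0 x) (K.b' x) (K.a' x) *ᵥ R.ξ l))
      (Phi R) := dom_form R.psdX R.ξ w hC

theorem Mf_apply (B G0 G1 : Matrix ι ι ℝ) (H : ℝ → Matrix ι ι ℝ) (x0 b s : ℝ) (i j : ι) :
    Mf B G0 G1 H x0 b s i j = x0 * (1 : Matrix ι ι ℝ) i j + b * B i j +
      (G0 i j + s * G1 i j + s ^ 2 * H s i j) := rfl

theorem tendsto_H' (R : KRep ι F V S K) (i j : ι) :
    Tendsto (fun x => R.H (K.a' x) i j) V (𝓝 (R.H 0 i j)) :=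
  ((R.nk i j).cont.tendsto).comp R.ta'

theorem tendsto_H (R : KRep ι F V S K) (i j : ι) :
    Tendsto (fun l => R.H (K.a l) i j) F (𝓝 (R.H 0 i j)) :=
  ((R.nk i j).cont.tendsto).comp R.ta

theorem tendsto_MX (R : KRep ι F V S K) (i j : ι) :
    Tendsto (fun x => Mf R.B R.D R.G1 R.H (K.y0 x) (K.b' x) (K.a' x) i j) V (𝓝 (R.D i j)) := by
  have h1 := (((R.ty0.mul_const ((1 : Matrix ι ι ℝ) i j)).add (R.tb'.mul_const (R.B i j))).add
    ((tendsto_const_nhds (x := R.D i j)).add (R.ta'.mul_const (R.G1 i j)))).add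
    ((R.ta'.pow 2).mul (tendsto_H' R i j))
  have e : 0 * (1 : Matrix ι ι ℝ) i j + 0 * R.B i j + (R.D i j + 0 * R.G1 i j) +
      0 ^ 2 * R.H 0 i j = R.D i j := by ring
  rw [e] at h1
  refine h1.congr fun x => ?_
  rw [Mf_apply]; ring

/-- the entries of `M(x) ξ(l)` are dominated by `|F|²` -/
theorem dom_U (R : KRep ι F V S K) (i : ι) :
    H201.Dom F V (fun l x => (Mf R.B R.D R.G1 R.H (K.y0 x) (K.b' x) (K.a' x) *ᵥ R.ξ l) i)
      (Phi R) := by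
  have h1 : ∀ᶠ x in V, (Pi.single i (1 : ℝ) : ι → ℝ) ⬝ᵥ
      (Mf R.B R.D R.G1 R.H (K.y0 x) (K.b' x) (K.a' x) *ᵥ (Pi.single i (1 : ℝ) : ι → ℝ)) ≤
      R.D i i + 1 := by
    have := tendsto_MX R i i
    filter_upwards [this.eventually_lt_const (lt_add_one _)] with x hx
    simpa using hx.le
  refine (dom_phi R (fun _ => Pi.single i 1) h1).congr' fun l x => ?_
  simp

/-- the expansion of `U = M(x) ξ(l)` -/
theorem U_eq (R : KRep ι F V S K) {l : L}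
    (hl : Mf R.B R.D R.G1 R.H (K.x0 l) (K.b l) (K.a l) *ᵥ R.ξ l = 0) (x : X) (i : ι) :
    (Mf R.B R.D R.G1 R.H (K.y0 x) (K.b' x) (K.a' x) *ᵥ R.ξ l) i =
      K.t l x * R.ξ l i + K.Z l x * (R.B *ᵥ R.ξ l) i +
      K.α l x * ((R.G1 *ᵥ R.ξ l) i + (K.a l + K.a' x) * (R.H (K.a l) *ᵥ R.ξ l) i) +
      K.a' x ^ 2 * ∑ j, (R.H (K.a' x) i j - R.H (K.a l) i j) * R.ξ l j := by
  have h0 : (Mf R.B R.D R.G1 R.H (K.y0 x) (K.b' x) (K.a' x) *ᵥ R.ξ l) i =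
      (Mf R.B R.D R.G1 R.H (K.y0 x) (K.b' x) (K.a' x) *ᵥ R.ξ l) i -
      (Mf R.B R.D R.G1 R.H (K.x0 l) (K.b l) (K.a l) *ᵥ R.ξ l) i := by rw [hl]; simp
  rw [h0]
  have h1 : ∀ x0 b a, (Mf R.B R.D R.G1 R.H x0 b a *ᵥ R.ξ l) i =
      x0 * R.ξ l i + b * (R.B *ᵥ R.ξ l) i + (R.D *ᵥ R.ξ l) i + a * (R.G1 *ᵥ R.ξ l) i +
        a ^ 2 * (R.H a *ᵥ R.ξ l) i := by
    intro x0 b a
    unfold Mf Gs
    simp only [Matrix.add_mulVec, Matrix.smul_mulVec, Matrix.one_mulVec, Pi.add_apply,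
      Pi.smul_apply, smul_eq_mul]
    ring
  rw [h1, h1]
  have h2 : ∑ j, (R.H (K.a' x) i j - R.H (K.a l) i j) * R.ξ l j =
      (R.H (K.a' x) *ᵥ R.ξ l) i - (R.H (K.a l) *ᵥ R.ξ l) i := by
    simp only [Matrix.mulVec, dotProduct, ← Finset.sum_sub_distrib]
    exact Finset.sum_congr rfl fun j _ => by ring
  rw [h2]
  unfold Crd.t Crd.Z Crd.α
  ring

theorem FR_α (K : Crd L X) : FR K.α := (FR.right K.a').sub (FR.left K.a)
theorem FR_t (K : Crd L X) : FR K.t := (FR.right K.y0).sub (FR.left K.x0)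
theorem FR_Z (K : Crd L X) : FR K.Z := (FR.right K.b').sub (FR.left K.b)

/-- `(H(a') - H(a))² ≤ C α²` entrywise -/
theorem dom_dH (R : KRep ι F V S K) (i j : ι) :
    H201.Dom F V (fun l x => R.H (K.a' x) i j - R.H (K.a l) i j) (fun l x => K.α l x ^ 2) := by
  obtain ⟨C, hC, h1, -, -⟩ := (R.nk i j).ker R.ta R.ta'
  refine ⟨(FR.right _).sub (FR.left _), C + 1, by positivity, ?_⟩
  have h2 : SosF F V (fun l x => K.α l x ^ 2) := SosF.sq (FR_α K)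
  refine (SosF.add h1 h2).congr' fun l x => ?_
  beta_reduce
  unfold Crd.α
  ring

/-- the second order error of `U` is small with respect to any `Q ≥ α²` -/
theorem sml_err (R : KRep ι F V S K) {Q : L → X → ℝ} (hQ : SosF F V Q)
    (hα : SosF F V (fun l x => Q l x - K.α l x ^ 2)) (i : ι) :
    H201.Sml F V (fun l x => K.a' x ^ 2 *
      ∑ j, (R.H (K.a' x) i j - R.H (K.a l) i j) * R.ξ l j) Q := by
  have h1 : H201.Sml F V (fun l x => ∑ j, (K.a' x ^ 2 * R.ξ l j) *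
      (R.H (K.a' x) i j - R.H (K.a l) i j)) Q := by
    refine H201.Sml.sum _ hQ fun j _ => ?_
    refine H201.Dom.germ_small ((dom_dH R i j).mono hα) ?_
    have hc : (0 : ℝ) ^ 2 * R.ξ0 j = 0 := by ring
    rw [← hc]
    exact (GermFR.right (R.ta'.pow 2)).mul (GermFR.left (R.tξ j))
  refine h1.congr' fun l x => ?_
  rw [Finset.mul_sum]
  exact Finset.sum_congr rfl fun j _ => by ring

theorem tendsto_mulVec {M : Matrix ι ι ℝ} {ξ : L → ι → ℝ} {ξ0 : ι → ℝ}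
    (h : ∀ i, Tendsto (fun l => ξ l i) F (𝓝 (ξ0 i))) (i : ι) :
    Tendsto (fun l => (M *ᵥ ξ l) i) F (𝓝 ((M *ᵥ ξ0) i)) := by
  simp only [Matrix.mulVec, dotProduct]
  exact tendsto_finsetSum _ fun j _ => (h j).const_mul _

theorem tendsto_Hmul (R : KRep ι F V S K) (i : ι) :
    Tendsto (fun l => (R.H (K.a l) *ᵥ R.ξ l) i) F (𝓝 ((R.H 0 *ᵥ R.ξ0) i)) := by
  simp only [Matrix.mulVec, dotProduct]
  exact tendsto_finsetSum _ fun j _ => (tendsto_H R i j).mul (R.tξ j)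

/-- the coefficient of `α` in `U` -/
theorem germ_α (R : KRep ι F V S K) (i : ι) :
    GermFR F V (fun l x => (R.G1 *ᵥ R.ξ l) i + (K.a l + K.a' x) * (R.H (K.a l) *ᵥ R.ξ l) i)
      ((R.G1 *ᵥ R.ξ0) i) := by
  have h := (GermFR.left (F := F) (G := V) (tendsto_mulVec (M := R.G1) R.tξ i)).add
    (((GermFR.left (G := V) R.ta).add (GermFR.right (F := F) R.ta')).mul
      (GermFR.left (G := V) (tendsto_Hmul R i)))
  refine h.congr (fun l x => rfl) ?_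
  ring

/-- **5b**: if `ξ₀`, `β₀ = lim Bξ/ε` and `g = G₁ ξ₀` are linearly independent then all of
`t`, `ε Z`, `α` are dominated by `|F|²` -/
theorem dom_of_indep (R : KRep ι F V S K) {ε : L → ℝ} {β : L → ι → ℝ} {β0 : ι → ℝ}
    (hB : ∀ᶠ l in F, R.B *ᵥ R.ξ l = ε l • β l) (hβ : ∀ i, Tendsto (fun l => β l i) F (𝓝 (β0 i)))
    (hli : ∀ c0 c1 c2 : ℝ, c0 • R.ξ0 + c1 • β0 + c2 • (R.G1 *ᵥ R.ξ0) = 0 →
      c0 = 0 ∧ c1 = 0 ∧ c2 = 0) :
    H201.Dom F V K.t (Phi R) ∧ H201.Dom F V (fun l x => ε l * K.Z l x) (Phi R) ∧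
      H201.Dom F V K.α (Phi R) := by
  classical
  let d : Fin 3 → L → X → ℝ := ![K.t, fun l x => ε l * K.Z l x, K.α]
  have hd : ∀ k, FR (d k) := by
    intro k
    fin_cases k
    · exact FR_t K
    · exact (FR.left ε).mul (FR_Z K)
    · exact FR_α K
  have hsum : ∀ l x, ∑ j, d j l x ^ 2 = K.t l x ^ 2 + (ε l * K.Z l x) ^ 2 + K.α l x ^ 2 := by
    intro l x
    rw [Fin.sum_univ_three]
    rfl
  have hsq : SosF F V (fun l x => ∑ j, d j l x ^ 2) := SosF.sum _ fun j _ => SosF.sq (hd j)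
  have key := dom_of_vec (F := F) (G := V) (κ := Fin 3) (d := d) (Φ := Phi R) (phi_sos R) hd
    (A := ![fun i l _ => R.ξ l i, fun i l _ => β l i, fun i l x => (R.G1 *ᵥ R.ξ l) i +
      (K.a l + K.a' x) * (R.H (K.a l) *ᵥ R.ξ l) i])
    (α := ![R.ξ0, β0, R.G1 *ᵥ R.ξ0]) (by
      intro k i
      fin_cases k
      · exact GermFR.left (R.tξ i)
      · exact GermFR.left (hβ i)
      · exact germ_α R i)
    (U := fun i l x => (Mf R.B R.D R.G1 R.H (K.y0 x) (K.b' x) (K.a' x) *ᵥ R.ξ l) i)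
    (E := fun i l x => K.a' x ^ 2 *
      ∑ j, (R.H (K.a' x) i j - R.H (K.a l) i j) * R.ξ l j)
    (fun i => dom_U R i)
    (fun i => sml_err R ((phi_sos R).add hsq) (by
      refine ((phi_sos R).add ((SosF.sq (F := F) (G := V) (FR_t K)).add
        (SosF.sq (F := F) (G := V) ((FR.left ε).mul (FR_Z K))))).congr' fun l x => ?_
      rw [hsum]; ring) i)
    (fun i => by
      refine EqF.of_eventually (fun l => Mf R.B R.D R.G1 R.H (K.x0 l) (K.b l) (K.a l) *ᵥ R.ξ l = 0 ∧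
        R.B *ᵥ R.ξ l = ε l • β l) (fun _ => True) (R.ker.and hB) (by simp) fun l x hl _ => ?_
      rw [U_eq R hl.1 x i, Fin.sum_univ_three]
      have h1 : (R.B *ᵥ R.ξ l) i = ε l * β l i := by
        rw [hl.2, Pi.smul_apply, smul_eq_mul]
      rw [h1]
      show K.t l x * R.ξ l i + K.Z l x * (ε l * β l i) +
        K.α l x * ((R.G1 *ᵥ R.ξ l) i + (K.a l + K.a' x) * (R.H (K.a l) *ᵥ R.ξ l) i) + _ =
        K.t l x * R.ξ l i + (ε l * K.Z l x) * β l i +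
        K.α l x * ((R.G1 *ᵥ R.ξ l) i + (K.a l + K.a' x) * (R.H (K.a l) *ᵥ R.ξ l) i) + _
      ring)
    (by
      intro c hc
      have h1 : c 0 • R.ξ0 + c 1 • β0 + c 2 • (R.G1 *ᵥ R.ξ0) = 0 := by
        funext i
        have := hc i
        rw [Fin.sum_univ_three] at this
        simpa using this
      obtain ⟨h2, h3, h4⟩ := hli _ _ _ h1
      funext k
      fin_cases k
      · exact h2
      · exact h3
      · exact h4)
  exact ⟨key 0, key 1, key 2⟩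

/-- the same when `Bξ = 0` -/
theorem dom_of_zero (R : KRep ι F V S K) (hB : ∀ᶠ l in F, R.B *ᵥ R.ξ l = 0)
    (hli : ∀ c0 c2 : ℝ, c0 • R.ξ0 + c2 • (R.G1 *ᵥ R.ξ0) = 0 → c0 = 0 ∧ c2 = 0) :
    H201.Dom F V K.t (Phi R) ∧ H201.Dom F V K.α (Phi R) := by
  classical
  let d : Fin 2 → L → X → ℝ := ![K.t, K.α]
  have hd : ∀ k, FR (d k) := by
    intro k
    fin_cases k
    · exact FR_t K
    · exact FR_α K
  have hsum : ∀ l x, ∑ j, d j l x ^ 2 = K.t l x ^ 2 + K.α l x ^ 2 := by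
    intro l x
    rw [Fin.sum_univ_two]
    rfl
  have hsq : SosF F V (fun l x => ∑ j, d j l x ^ 2) := SosF.sum _ fun j _ => SosF.sq (hd j)
  have key := dom_of_vec (F := F) (G := V) (κ := Fin 2) (d := d) (Φ := Phi R) (phi_sos R) hd
    (A := ![fun i l _ => R.ξ l i, fun i l x => (R.G1 *ᵥ R.ξ l) i +
      (K.a l + K.a' x) * (R.H (K.a l) *ᵥ R.ξ l) i])
    (α := ![R.ξ0, R.G1 *ᵥ R.ξ0]) (by
      intro k i
      fin_cases k
      · exact GermFR.left (R.tξ i)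
      · exact germ_α R i)
    (U := fun i l x => (Mf R.B R.D R.G1 R.H (K.y0 x) (K.b' x) (K.a' x) *ᵥ R.ξ l) i)
    (E := fun i l x => K.a' x ^ 2 *
      ∑ j, (R.H (K.a' x) i j - R.H (K.a l) i j) * R.ξ l j)
    (fun i => dom_U R i)
    (fun i => sml_err R ((phi_sos R).add hsq) (by
      refine ((phi_sos R).add (SosF.sq (F := F) (G := V) (FR_t K))).congr' fun l x => ?_
      rw [hsum]; ring) i)
    (fun i => by
      refine EqF.of_eventually (fun l => Mf R.B R.D R.G1 R.H (K.x0 l) (K.b l) (K.a l) *ᵥ R.ξ l = 0 ∧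
        R.B *ᵥ R.ξ l = 0) (fun _ => True) (R.ker.and hB) (by simp) fun l x hl _ => ?_
      rw [U_eq R hl.1 x i, Fin.sum_univ_two, hl.2]
      show K.t l x * R.ξ l i + K.Z l x * 0 +
        K.α l x * ((R.G1 *ᵥ R.ξ l) i + (K.a l + K.a' x) * (R.H (K.a l) *ᵥ R.ξ l) i) + _ =
        K.t l x * R.ξ l i +
        K.α l x * ((R.G1 *ᵥ R.ξ l) i + (K.a l + K.a' x) * (R.H (K.a l) *ᵥ R.ξ l) i) + _
      ring)
    (by
      intro c hc
      have h1 : c 0 • R.ξ0 + c 1 • (R.G1 *ᵥ R.ξ0) = 0 := by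
        funext i
        have := hc i
        rw [Fin.sum_univ_two] at this
        simpa using this
      obtain ⟨h2, h3⟩ := hli _ _ h1
      funext k
      fin_cases k
      · exact h2
      · exact h3)
  exact ⟨key 0, key 1⟩

theorem goal_of_dom (R : KRep ι F V S K) (h : H201.Dom F V K.α (Phi R)) : Goal R := by
  obtain ⟨-, C, hC, h1⟩ := h
  exact ⟨C, hC, h1⟩

/-! ### limits in the range of a linear map -/

theorem mem_range_of_tendsto {E E' : Type*} [NormedAddCommGroup E] [NormedSpace ℝ E]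
    [NormedAddCommGroup E'] [NormedSpace ℝ E'] [FiniteDimensional ℝ E'] {Y : Type*} {F : Filter Y}
    [F.NeBot] (T : E →ₗ[ℝ] E') {v : Y → E} {w : E'} (h : Tendsto (fun u => T (v u)) F (𝓝 w)) :
    ∃ v0, T v0 = w := by
  have h1 : IsClosed (LinearMap.range T : Set E') := Submodule.closed_of_finiteDimensional _
  have h2 : w ∈ (LinearMap.range T : Set E') :=
    h1.mem_of_tendsto h (Eventually.of_forall fun u => ⟨v u, rfl⟩)
  exact h2

/-- a common preimage for two matrices -/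
theorem exists_pre {F : Filter L} [F.NeBot] (A B : Matrix ι ι ℝ) {v : L → ι → ℝ} {p q : ι → ℝ}
    (h1 : ∀ i, Tendsto (fun l => (A *ᵥ v l) i) F (𝓝 (p i)))
    (h2 : ∀ i, Tendsto (fun l => (B *ᵥ v l) i) F (𝓝 (q i))) :
    ∃ v0 : ι → ℝ, A *ᵥ v0 = p ∧ B *ᵥ v0 = q := by
  have h3 : Tendsto (fun l => (A.mulVecLin.prod B.mulVecLin) (v l)) F (𝓝 (p, q)) := by
    refine Tendsto.prodMk_nhds ?_ ?_
    · exact tendsto_pi_nhds.2 h1
    · exact tendsto_pi_nhds.2 h2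
  obtain ⟨v0, hv0⟩ := mem_range_of_tendsto _ h3
  exact ⟨v0, congrArg Prod.fst hv0, congrArg Prod.snd hv0⟩

/-- `x₀ = o(a)` (7570, 3.4) -/
theorem x0_div_a (R : KRep ι F V S K) (hB0 : R.B *ᵥ R.ξ0 = 0) (hD0 : R.D *ᵥ R.ξ0 = 0)
    (ha : ∀ᶠ l in F, 0 < K.a l) : Tendsto (fun l => K.x0 l / K.a l) F (𝓝 0) := by
  have h1 : Tendsto (fun l => -(R.ξ0 ⬝ᵥ (R.G1 *ᵥ R.ξ l)) -
      K.a l * (R.ξ0 ⬝ᵥ (R.H (K.a l) *ᵥ R.ξ l))) F (𝓝 (-(R.ξ0 ⬝ᵥ (R.G1 *ᵥ R.ξ0)) -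
      0 * (R.ξ0 ⬝ᵥ (R.H 0 *ᵥ R.ξ0)))) := by
    refine Tendsto.sub (Tendsto.neg ?_) (R.ta.mul ?_)
    · exact tendsto_finsetSum _ fun i _ => (tendsto_mulVec (M := R.G1) R.tξ i).const_mul _
    · exact tendsto_finsetSum _ fun i _ => (tendsto_Hmul R i).const_mul _
  rw [R.G00, neg_zero, zero_mul, sub_zero] at h1
  refine h1.congr' ?_
  filter_upwards [ha, R.ker, R.nrm] with l hl hk hn
  have h2 : R.ξ0 ⬝ᵥ (Mf R.B R.D R.G1 R.H (K.x0 l) (K.b l) (K.a l) *ᵥ R.ξ l) = 0 := by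
    rw [hk]; simp
  have h3 : R.ξ0 ⬝ᵥ (R.B *ᵥ R.ξ l) = 0 := by
    rw [herm_swap R.symB, hB0]; simp
  have h4 : R.ξ0 ⬝ᵥ (R.D *ᵥ R.ξ l) = 0 := by
    rw [herm_swap R.psdD.1, hD0]; simp
  unfold Mf Gs at h2
  simp only [Matrix.add_mulVec, Matrix.smul_mulVec, Matrix.one_mulVec, dotProduct_add,
    dotProduct_smul, smul_eq_mul, h3, h4, hn, mul_zero, add_zero, zero_add, mul_one] at h2
  have := hl.ne'
  field_simp
  linarith

/-- the limit of `Dξ/a` when `bBξ/a → 0` -/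
theorem tendsto_Da (R : KRep ι F V S K) (hB0 : R.B *ᵥ R.ξ0 = 0) (hD0 : R.D *ᵥ R.ξ0 = 0)
    (ha : ∀ᶠ l in F, 0 < K.a l) {β0 : ι → ℝ}
    (hβ : ∀ i, Tendsto (fun l => (R.B *ᵥ R.ξ l) i / K.a l) F (𝓝 (β0 i))) (i : ι) :
    Tendsto (fun l => (R.D *ᵥ R.ξ l) i / K.a l) F (𝓝 (-(R.G1 *ᵥ R.ξ0) i)) := by
  have h1 : Tendsto (fun l => -((K.x0 l / K.a l) * R.ξ l i) - K.b l * ((R.B *ᵥ R.ξ l) i / K.a l) -
      (R.G1 *ᵥ R.ξ l) i - K.a l * (R.H (K.a l) *ᵥ R.ξ l) i) F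
      (𝓝 (-(0 * R.ξ0 i) - 0 * β0 i - (R.G1 *ᵥ R.ξ0) i - 0 * (R.H 0 *ᵥ R.ξ0) i)) := by
    refine Tendsto.sub (Tendsto.sub (Tendsto.sub (Tendsto.neg ?_) ?_) ?_) ?_
    · exact (x0_div_a R hB0 hD0 ha).mul (R.tξ i)
    · exact R.tb.mul (hβ i)
    · exact tendsto_mulVec (M := R.G1) R.tξ i
    · exact R.ta.mul (tendsto_Hmul R i)
  have e : -(0 * R.ξ0 i) - 0 * β0 i - (R.G1 *ᵥ R.ξ0) i - 0 * (R.H 0 *ᵥ R.ξ0) i =
      -(R.G1 *ᵥ R.ξ0) i := by ring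
  rw [e] at h1
  refine h1.congr' ?_
  filter_upwards [ha, R.ker] with l hl hk
  have h2 := congrFun hk i
  unfold Mf Gs at h2
  simp only [Matrix.add_mulVec, Matrix.smul_mulVec, Matrix.one_mulVec, Pi.add_apply,
    Pi.smul_apply, smul_eq_mul, Pi.zero_apply] at h2
  have := hl.ne'
  field_simp
  linarith

/-- if `Bξ/a` converges then it is a common preimage situation: `D v₀ = g`, `B v₀ = -lim Bξ/a` -/
theorem exists_v0 (R : KRep ι F V S K) [F.NeBot] (hB0 : R.B *ᵥ R.ξ0 = 0)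
    (hD0 : R.D *ᵥ R.ξ0 = 0) (ha : ∀ᶠ l in F, 0 < K.a l) {β0 : ι → ℝ}
    (hβ : ∀ i, Tendsto (fun l => (R.B *ᵥ R.ξ l) i / K.a l) F (𝓝 (β0 i))) :
    ∃ v0 : ι → ℝ, R.D *ᵥ v0 = R.G1 *ᵥ R.ξ0 ∧ R.B *ᵥ v0 = -β0 := by
  refine exists_pre (F := F) (v := fun l => -((K.a l)⁻¹ • R.ξ l)) R.D R.B (fun i => ?_)
    (fun i => ?_)
  · have h1 := (tendsto_Da R hB0 hD0 ha hβ i).neg
    rw [neg_neg] at h1
    refine h1.congr fun l => ?_
    rw [Matrix.mulVec_neg, Matrix.mulVec_smul, Pi.neg_apply, Pi.smul_apply, smul_eq_mul,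
      div_eq_inv_mul]
  · have h1 := (hβ i).neg
    refine h1.congr fun l => ?_
    rw [Matrix.mulVec_neg, Matrix.mulVec_smul, Pi.neg_apply, Pi.smul_apply, smul_eq_mul,
      div_eq_inv_mul]

/-- a psd form vanishing at a vector kills it -/
theorem psd_ker {M : Matrix ι ι ℝ} (h : M.PosSemidef) {v : ι → ℝ} (hv : v ⬝ᵥ (M *ᵥ v) = 0) :
    M *ᵥ v = 0 := by
  have := (h.dotProduct_mulVec_zero_iff v).1 (by rw [star_trivial]; exact hv)
  exact this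

/-- **5c(i)**: `|Bξ| = o(a)` is impossible if `g ≠ 0` lies in the range of `B` -/
theorem not_small (R : KRep ι F V S K) [F.NeBot] (hB0 : R.B *ᵥ R.ξ0 = 0)
    (hD0 : R.D *ᵥ R.ξ0 = 0) (ha : ∀ᶠ l in F, 0 < K.a l)
    (hβ : ∀ i, Tendsto (fun l => (R.B *ᵥ R.ξ l) i / K.a l) F (𝓝 0))
    (hg : R.G1 *ᵥ R.ξ0 ≠ 0) (hgB : ∃ w : ι → ℝ, R.B *ᵥ w = R.G1 *ᵥ R.ξ0) : False := by
  obtain ⟨v0, h1, h2⟩ := exists_v0 R hB0 hD0 ha (β0 := 0) hβ
  rw [neg_zero] at h2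
  obtain ⟨w, hw⟩ := hgB
  have h3 : v0 ⬝ᵥ (R.D *ᵥ v0) = 0 := by
    rw [h1, ← hw, herm_swap R.symB, h2]; simp
  exact hg (by rw [← h1, psd_ker R.psdD h3])

end Rep

end Vale.Agent.P256.H186
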