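import Vale.Agent.P256.H186.Disp
import Vale.Agent.P256.H186.Extra

/-! The case `|Bξ| ∼ a`: bound of `λ = α - k₁ a Z` in one representation. -/

set_option linter.all false

namespace Vale.Agent.P256.H186

open Filter Topology Matrix Vale.Agent.P256 Vale.Agent.P256.H326 Vale.Agent.P256.H387

section Rep

variable {ι : Type} [Fintype ι] [DecidableEq ι] {L X : Type} {F : Filter L} {V : Filter X}
  {S : L → X → ℝ} {K : Crd L X}

/-- the kernel `a Z` -/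
def aZ (K : Crd L X) (l : L) (x : X) : ℝ := K.a l * K.Z l x

theorem FR_aZ (K : Crd L X) : FR (aZ K) := (FR.left K.a).mul (FR_Z K)

/-- **(F1)**: if `Bξ/a → -k₁ g` then `(α - k₁ a Z)² ≤ C |F|² + δ (α² + (aZ)²)` for all `δ`; the same
bound for `t`. -/
theorem lam_bound (R : KRep ι F V S K) {k1 : ℝ} (ha : ∀ᶠ l in F, 0 < K.a l)
    (hg : R.G1 *ᵥ R.ξ0 ≠ 0)
    (hk : ∀ i, Tendsto (fun l => (R.B *ᵥ R.ξ l) i / K.a l) F (𝓝 (-k1 * (R.G1 *ᵥ R.ξ0) i)))
    {δ : ℝ} (hδ : 0 < δ) :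
    ∃ C : ℝ, 0 < C ∧
      SosF F V (fun l x => C * Phi R l x + δ * (K.α l x ^ 2 + aZ K l x ^ 2) -
        (K.α l x - k1 * aZ K l x) ^ 2) ∧
      SosF F V (fun l x => C * Phi R l x + δ * (K.α l x ^ 2 + aZ K l x ^ 2) - K.t l x ^ 2) := by
  classical
  let d : Fin 2 → L → X → ℝ := ![K.t, fun l x => K.α l x - k1 * aZ K l x]
  have hd : ∀ k, FR (d k) := by
    intro k
    fin_cases k
    · exact FR_t K
    · exact (FR_α K).sub ((FR_aZ K).smul k1)
  have hsum : ∀ l x, ∑ j, d j l x ^ 2 = K.t l x ^ 2 + (K.α l x - k1 * aZ K l x) ^ 2 := by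
    intro l x
    rw [Fin.sum_univ_two]
    rfl
  have hsq : SosF F V (fun l x => ∑ j, d j l x ^ 2) := SosF.sum _ fun j _ => SosF.sq (hd j)
  set Rk : L → X → ℝ := fun l x => K.α l x ^ 2 + aZ K l x ^ 2 with hRk
  have sα : SosF F V (fun l x => K.α l x ^ 2) := SosF.sq (FR_α K)
  have sZ : SosF F V (fun l x => aZ K l x ^ 2) := SosF.sq (FR_aZ K)
  have hR : SosF F V Rk := sα.add sZ
  set Q : L → X → ℝ := fun l x => Phi R l x + ∑ j, d j l x ^ 2 + Rk l x with hQ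
  have hQs : SosF F V Q := ((phi_sos R).add hsq).add hR
  have dα : H201.Dom F V K.α Q := (H201.Dom.self (FR_α K)).mono
    (((phi_sos R).add hsq).add sZ |>.congr' fun l x => by
      show Phi R l x + ∑ j, d j l x ^ 2 + (K.α l x ^ 2 + aZ K l x ^ 2) - K.α l x ^ 2 = _
      ring)
  have dZ : H201.Dom F V (aZ K) Q := (H201.Dom.self (FR_aZ K)).mono
    (((phi_sos R).add hsq).add sα |>.congr' fun l x => by
      show Phi R l x + ∑ j, d j l x ^ 2 + (K.α l x ^ 2 + aZ K l x ^ 2) - aZ K l x ^ 2 = _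
      ring)
  -- the small coefficients
  have jα : ∀ i, GermFR F V (fun l x => (R.G1 *ᵥ R.ξ l) i +
      (K.a l + K.a' x) * (R.H (K.a l) *ᵥ R.ξ l) i - (R.G1 *ᵥ R.ξ0) i) 0 := fun i =>
    ((germ_α R i).sub (GermFR.const _)).congr (fun _ _ => rfl) (by ring)
  have jZ : ∀ i, GermFR F V (fun l (_ : X) => (R.B *ᵥ R.ξ l) i / K.a l -
      -k1 * (R.G1 *ᵥ R.ξ0) i) 0 := fun i =>
    ((GermFR.left (hk i)).sub (GermFR.const _)).congr (fun _ _ => rfl) (by ring)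
  have key := dom_vec_extra (F := F) (G := V) (κ := Fin 2) (d := d) (Φ := Phi R) (R := Rk)
    (phi_sos R) hR hd
    (A := ![fun i l _ => R.ξ l i, fun i _ _ => (R.G1 *ᵥ R.ξ0) i])
    (α := ![R.ξ0, R.G1 *ᵥ R.ξ0]) (by
      intro k i
      fin_cases k
      · exact GermFR.left (R.tξ i)
      · exact GermFR.const _)
    (U := fun i l x => (Mf R.B R.D R.G1 R.H (K.y0 x) (K.b' x) (K.a' x) *ᵥ R.ξ l) i)
    (E := fun i l x => ((R.G1 *ᵥ R.ξ l) i +
      (K.a l + K.a' x) * (R.H (K.a l) *ᵥ R.ξ l) i - (R.G1 *ᵥ R.ξ0) i) * K.α l x +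
      ((R.B *ᵥ R.ξ l) i / K.a l - -k1 * (R.G1 *ᵥ R.ξ0) i) * aZ K l x + K.a' x ^ 2 *
      ∑ j, (R.H (K.a' x) i j - R.H (K.a l) i j) * R.ξ l j)
    (fun i => dom_U R i)
    (fun i => ((dα.germ_small (jα i)).add (dZ.germ_small (jZ i))).add
      (sml_err R hQs ((((phi_sos R).add hsq).add sZ).congr' fun l x => by
        show Phi R l x + ∑ j, d j l x ^ 2 + (K.α l x ^ 2 + aZ K l x ^ 2) - K.α l x ^ 2 = _
        ring) i))
    (fun i => by
      refine EqF.of_eventually (fun l => Mf R.B R.D R.G1 R.H (K.x0 l) (K.b l) (K.a l) *ᵥ R.ξ l = 0 ∧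
        0 < K.a l) (fun _ => True) (R.ker.and ha) (by simp) fun l x hl _ => ?_
      rw [U_eq R hl.1 x i, Fin.sum_univ_two]
      have h1 : K.Z l x * (R.B *ᵥ R.ξ l) i = aZ K l x * ((R.B *ᵥ R.ξ l) i / K.a l) := by
        have := hl.2.ne'
        unfold aZ
        field_simp
      rw [h1]
      show K.t l x * R.ξ l i + aZ K l x * ((R.B *ᵥ R.ξ l) i / K.a l) +
        K.α l x * ((R.G1 *ᵥ R.ξ l) i + (K.a l + K.a' x) * (R.H (K.a l) *ᵥ R.ξ l) i) + _ =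
        K.t l x * R.ξ l i + (K.α l x - k1 * aZ K l x) * (R.G1 *ᵥ R.ξ0) i + _
      ring)
    (by
      intro c hc
      have h1 : c 0 • R.ξ0 + c 1 • (R.G1 *ᵥ R.ξ0) = 0 := by
        funext i
        have := hc i
        rw [Fin.sum_univ_two] at this
        simpa using this
      have h2 : R.ξ0 ⬝ᵥ (c 0 • R.ξ0 + c 1 • (R.G1 *ᵥ R.ξ0)) = 0 := by rw [h1]; simp
      rw [dotProduct_add, dotProduct_smul, dotProduct_smul, R.nrm0, R.G00] at h2
      have h3 : c 0 = 0 := by simpa using h2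
      rw [h3, zero_smul, zero_add] at h1
      have h4 := (smul_eq_zero.1 h1).resolve_right hg
      funext k
      fin_cases k
      · exact h3
      · exact h4) hδ
  obtain ⟨C, hC, -, h1⟩ := key
  exact ⟨C, hC, h1 1, h1 0⟩

/-- **(F1')**: `(aZ)² ≤ C |F|² + C α²` -/
theorem aZ_bound (R : KRep ι F V S K) {k1 : ℝ} (hk1 : k1 ≠ 0) (ha : ∀ᶠ l in F, 0 < K.a l)
    (hg : R.G1 *ᵥ R.ξ0 ≠ 0)
    (hk : ∀ i, Tendsto (fun l => (R.B *ᵥ R.ξ l) i / K.a l) F (𝓝 (-k1 * (R.G1 *ᵥ R.ξ0) i))) :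
    ∃ C : ℝ, 0 < C ∧
      SosF F V (fun l x => C * (Phi R l x + K.α l x ^ 2) - aZ K l x ^ 2) := by
  set δ : ℝ := k1 ^ 2 / 4 with hδ
  have hδpos : 0 < δ := by positivity
  obtain ⟨C, hC, h1, -⟩ := lam_bound R ha hg hk hδpos
  have sα : SosF F V (fun l x => K.α l x ^ 2) := SosF.sq (FR_α K)
  -- `k1² (aZ)² ≤ 2 (α - k1 aZ)² + 2 α²`
  have h2 : SosF F V (fun l x => (K.α l x + (K.α l x - k1 * aZ K l x)) ^ 2) :=
    SosF.sq ((FR_α K).add ((FR_α K).sub ((FR_aZ K).smul k1)))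
  have h3 := ((h1.smul (c := 2) (by norm_num)).add h2).smul (c := 2 / k1 ^ 2) (by positivity)
  refine ⟨4 / k1 ^ 2 * (C + 1) + 1, by positivity, ?_⟩
  have h4 : SosF F V (fun l x => (4 / k1 ^ 2 + 1) * Phi R l x) :=
    (phi_sos R).smul (by positivity)
  have h5 : SosF F V (fun l x => (4 / k1 ^ 2 * C) * K.α l x ^ 2) := sα.smul (by positivity)
  refine ((h3.add h4).add h5).congr' fun l x => ?_
  rw [hδ]
  field_simp
  ring

end Rep

end Vale.Agent.P256.H186
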