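import Vale.Agent.P256.H186.PenDefs

/-! Cones with ordinary points, clean curved strata and local pencils. -/

namespace Vale.Agent.P256

/-- `p` is an irreducible hyperbolic polynomial, its cone contains no line, and each nonzero
boundary point of the cone is ordinary, or lies on a clean curved stratum, or has a strict local
pencil with Nash entries, or the cone is a spectrahedron near it. -/
structure LocalCone {n : ℕ} (p : MvPolynomial (Fin n) ℝ) (e : Fin n → ℝ) : Prop where
  hyp : IsHyperbolic p e
  irr : Irreducible p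
  pointed : ∀ x ∈ hypCone p e, -x ∈ hypCone p e → x = 0
  loc : ∀ z ∈ hypCone p e, z ≠ 0 → MvPolynomial.eval z p = 0 →
    OrdinaryAt p e z ∨ CleanAt p e z ∨ PencilAt p e z ∨ SpecAt p e z

/-- `q` depends on at most four linear forms, or `q x = q' (B x)` with a linear map `B` and a
`LocalCone` polynomial `q'`. -/
def GoodFactor {n : ℕ} (q : MvPolynomial (Fin n) ℝ) (e : Fin n → ℝ) : Prop :=
  (∃ B : (Fin n → ℝ) →ₗ[ℝ] (Fin 4 → ℝ), ∀ x y, B x = B y →
    MvPolynomial.eval x q = MvPolynomial.eval y q) ∨
  ∃ (k : ℕ) (B : (Fin n → ℝ) →ₗ[ℝ] (Fin k → ℝ)) (q' : MvPolynomial (Fin k) ℝ),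
    (∀ x, MvPolynomial.eval x q = MvPolynomial.eval (B x) q') ∧ LocalCone q' (B e)

end Vale.Agent.P256
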