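import Vale.Agent.P256.H387.LMR

/-! Local pencils with Nash entries: the kernel `⟨ξ, D M(y)[x - y] ξ⟩` of a symmetric matrix `M`
with Nash entries is a sum of squares along filters, if the pencil is strict at the limit. -/

set_option linter.all false

namespace Vale.Agent.P256.H186

open MvPolynomial Filter Topology Matrix Vale.Agent.P256 Vale.Agent.P256.H326
  Vale.Agent.P256.H387

variable {n N m : ℕ}

/-- the Jacobian of `P` with respect to the dependent variables -/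
noncomputable def Jm (P : Fin N → MvPolynomial (Fin n ⊕ Fin N) ℝ) (u : Fin n ⊕ Fin N → ℝ) :
    Matrix (Fin N) (Fin N) ℝ :=
  Matrix.of fun j k => eval u (pderiv (Sum.inr k) (P j))

/-- the tangent vector over `δ` -/
noncomputable def tau (P : Fin N → MvPolynomial (Fin n ⊕ Fin N) ℝ) (u : Fin n ⊕ Fin N → ℝ)
    (δ : Fin n → ℝ) : Fin n ⊕ Fin N → ℝ :=
  Sum.elim δ fun k => -∑ j, (Jm P u)⁻¹ k j * ∑ a, eval u (pderiv (Sum.inl a) (P j)) * δ a

/-- the differential of `Q` -/
noncomputable def Dq (Q : MvPolynomial (Fin n ⊕ Fin N) ℝ) (u T : Fin n ⊕ Fin N → ℝ) : ℝ :=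
  ∑ s, eval u (pderiv s Q) * T s

theorem jac_mul {P : Fin N → MvPolynomial (Fin n ⊕ Fin N) ℝ} {u : Fin n ⊕ Fin N → ℝ}
    (hJ : (Jm P u).det ≠ 0) (i k : Fin N) :
    ∑ j, Jm P u i j * (Jm P u)⁻¹ j k = if i = k then 1 else 0 := by
  have h1 : Jm P u * (Jm P u)⁻¹ = 1 := Matrix.mul_nonsing_inv _ (isUnit_iff_ne_zero.2 hJ)
  have h2 := congrFun (congrFun h1 i) k
  rwa [Matrix.mul_apply, Matrix.one_apply] at h2

theorem jac_mul' {P : Fin N → MvPolynomial (Fin n ⊕ Fin N) ℝ} {u : Fin n ⊕ Fin N → ℝ}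
    (hJ : (Jm P u).det ≠ 0) (i k : Fin N) :
    ∑ j, (Jm P u)⁻¹ i j * Jm P u j k = if i = k then 1 else 0 := by
  have h1 : (Jm P u)⁻¹ * Jm P u = 1 := Matrix.nonsing_inv_mul _ (isUnit_iff_ne_zero.2 hJ)
  have h2 := congrFun (congrFun h1 i) k
  rwa [Matrix.mul_apply, Matrix.one_apply] at h2

theorem Dq_tau {P : Fin N → MvPolynomial (Fin n ⊕ Fin N) ℝ} {u : Fin n ⊕ Fin N → ℝ}
    (hJ : (Jm P u).det ≠ 0) (δ : Fin n → ℝ) (j : Fin N) : Dq (P j) u (tau P u δ) = 0 := by
  rw [Dq, Fintype.sum_sum_type]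
  simp only [tau, Sum.elim_inl, Sum.elim_inr]
  have h0 : ∀ c : Fin N → ℝ, ∑ k, eval u (pderiv (Sum.inr k) (P j)) *
      (-∑ j', (Jm P u)⁻¹ k j' * c j') =
      -∑ j', (∑ k, Jm P u j k * (Jm P u)⁻¹ k j') * c j' := by
    intro c
    simp only [mul_neg, Finset.sum_neg_distrib, Finset.sum_mul, Finset.mul_sum]
    rw [Finset.sum_comm]
    congr 1
    refine Finset.sum_congr rfl fun j' _ => Finset.sum_congr rfl fun k _ => ?_
    rw [Jm, Matrix.of_apply]
    ring
  have h1 := h0 fun j' => ∑ a, eval u (pderiv (Sum.inl a) (P j')) * δ a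
  rw [h1]
  simp only [jac_mul hJ, ite_mul, one_mul, zero_mul, Finset.sum_ite_eq, Finset.mem_univ, if_true]
  ring

/-- a vector in the kernel of the differentials of the equations is the tangent vector over its
projection -/
theorem eq_tau {P : Fin N → MvPolynomial (Fin n ⊕ Fin N) ℝ} {u : Fin n ⊕ Fin N → ℝ}
    (hJ : (Jm P u).det ≠ 0) {T : Fin n ⊕ Fin N → ℝ} (hT : ∀ j, Dq (P j) u T = 0) :
    T = tau P u (fun a => T (Sum.inl a)) := by
  funext s
  rcases s with a | k
  · rfl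
  · simp only [tau, Sum.elim_inr]
    have h1 : ∀ j, ∑ a, eval u (pderiv (Sum.inl a) (P j)) * T (Sum.inl a) =
        -∑ k', Jm P u j k' * T (Sum.inr k') := by
      intro j
      have := hT j
      rw [Dq, Fintype.sum_sum_type] at this
      simp only [Jm, Matrix.of_apply]
      linarith
    simp only [h1]
    have h2 : ∑ j, (Jm P u)⁻¹ k j * -∑ k', Jm P u j k' * T (Sum.inr k') =
        -∑ k', (∑ j, (Jm P u)⁻¹ k j * Jm P u j k') * T (Sum.inr k') := by
      simp only [mul_neg, Finset.sum_neg_distrib, Finset.sum_mul, Finset.mul_sum]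
      rw [Finset.sum_comm]
      congr 1
      refine Finset.sum_congr rfl fun j' _ => Finset.sum_congr rfl fun k' _ => ?_
      ring
    rw [h2]
    simp only [jac_mul' hJ, ite_mul, one_mul, zero_mul, Finset.sum_ite_eq, Finset.mem_univ,
      if_true, neg_neg]

/-- the exact Bregman identity -/
theorem breg_id {P : Fin N → MvPolynomial (Fin n ⊕ Fin N) ℝ}
    {Q : MvPolynomial (Fin n ⊕ Fin N) ℝ} {u v : Fin n ⊕ Fin N → ℝ}
    (hJ : (Jm P u).det ≠ 0) (hu : ∀ j, eval u (P j) = 0) (hv : ∀ j, eval v (P j) = 0)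
    {MP : Fin N → Fin n ⊕ Fin N → Fin n ⊕ Fin N → ℝ}
    (hMP : ∀ j, eval v (P j) = eval u (P j) + ∑ i, eval u (pderiv i (P j)) * (v i - u i) +
      ∑ i, ∑ k, MP j i k * (v i - u i) * (v k - u k))
    {MQ : Fin n ⊕ Fin N → Fin n ⊕ Fin N → ℝ}
    (hMQ : eval v Q = eval u Q + ∑ i, eval u (pderiv i Q) * (v i - u i) +
      ∑ i, ∑ k, MQ i k * (v i - u i) * (v k - u k)) :
    eval v Q - eval u Q - Dq Q u (tau P u fun a => v (Sum.inl a) - u (Sum.inl a)) =
      ∑ i, ∑ k, (MQ i k - ∑ b, eval u (pderiv (Sum.inr b) Q) *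
        ∑ j, (Jm P u)⁻¹ b j * MP j i k) * (v i - u i) * (v k - u k) := by
  -- the displacement of the dependent variables
  have h1 : ∀ b : Fin N, (v (Sum.inr b) - u (Sum.inr b)) -
      tau P u (fun a => v (Sum.inl a) - u (Sum.inl a)) (Sum.inr b) =
      -∑ j, (Jm P u)⁻¹ b j * ∑ i, ∑ k, MP j i k * (v i - u i) * (v k - u k) := by
    intro b
    have e1 : ∀ j, ∑ i, ∑ k, MP j i k * (v i - u i) * (v k - u k) =
        -(∑ a, eval u (pderiv (Sum.inl a) (P j)) * (v (Sum.inl a) - u (Sum.inl a))) -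
        ∑ k, Jm P u j k * (v (Sum.inr k) - u (Sum.inr k)) := by
      intro j
      have := hMP j
      rw [hu, hv, Fintype.sum_sum_type (fun i => eval u (pderiv i (P j)) * (v i - u i))] at this
      simp only [Jm, Matrix.of_apply]
      linarith
    simp only [e1]
    simp only [tau, Sum.elim_inr]
    have e2 : ∑ j, (Jm P u)⁻¹ b j * (-(∑ a, eval u (pderiv (Sum.inl a) (P j)) *
          (v (Sum.inl a) - u (Sum.inl a))) -
        ∑ k, Jm P u j k * (v (Sum.inr k) - u (Sum.inr k))) =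
        -(∑ j, (Jm P u)⁻¹ b j * ∑ a, eval u (pderiv (Sum.inl a) (P j)) *
          (v (Sum.inl a) - u (Sum.inl a))) -
        ∑ k, (∑ j, (Jm P u)⁻¹ b j * Jm P u j k) * (v (Sum.inr k) - u (Sum.inr k)) := by
      have e3 : ∑ k, (∑ j, (Jm P u)⁻¹ b j * Jm P u j k) * (v (Sum.inr k) - u (Sum.inr k)) =
          ∑ j, (Jm P u)⁻¹ b j * ∑ k, Jm P u j k * (v (Sum.inr k) - u (Sum.inr k)) := by
        simp only [Finset.sum_mul, Finset.mul_sum]
        rw [Finset.sum_comm]
        refine Finset.sum_congr rfl fun j' _ => Finset.sum_congr rfl fun k' _ => ?_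
        ring
      rw [e3, ← Finset.sum_neg_distrib, ← Finset.sum_sub_distrib]
      refine Finset.sum_congr rfl fun j _ => ?_
      ring
    rw [e2]
    simp only [jac_mul' hJ, ite_mul, one_mul, zero_mul, Finset.sum_ite_eq, Finset.mem_univ,
      if_true]
    ring
  have h2 : Dq Q u (tau P u fun a => v (Sum.inl a) - u (Sum.inl a)) =
      ∑ i, eval u (pderiv i Q) * (v i - u i) - ∑ b, eval u (pderiv (Sum.inr b) Q) *
        ((v (Sum.inr b) - u (Sum.inr b)) -
          tau P u (fun a => v (Sum.inl a) - u (Sum.inl a)) (Sum.inr b)) := by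
    rw [Dq, Fintype.sum_sum_type, Fintype.sum_sum_type (fun i => eval u (pderiv i Q) * (v i - u i)),
      add_sub_assoc, ← Finset.sum_sub_distrib]
    congr 1
    refine Finset.sum_congr rfl fun b _ => ?_
    ring
  rw [h2, hMQ]
  simp only [h1]
  have h3 : ∑ i, ∑ k, (MQ i k - ∑ b, eval u (pderiv (Sum.inr b) Q) *
        ∑ j, (Jm P u)⁻¹ b j * MP j i k) * (v i - u i) * (v k - u k) =
      ∑ i, ∑ k, MQ i k * (v i - u i) * (v k - u k) -
      ∑ b, eval u (pderiv (Sum.inr b) Q) * ∑ j, (Jm P u)⁻¹ b j *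
        ∑ i, ∑ k, MP j i k * (v i - u i) * (v k - u k) := by
    have e1 : ∑ b, eval u (pderiv (Sum.inr b) Q) * ∑ j, (Jm P u)⁻¹ b j *
        ∑ i, ∑ k, MP j i k * (v i - u i) * (v k - u k) =
        ∑ i, ∑ k, (∑ b, eval u (pderiv (Sum.inr b) Q) *
          ∑ j, (Jm P u)⁻¹ b j * MP j i k) * (v i - u i) * (v k - u k) := by
      calc ∑ b, eval u (pderiv (Sum.inr b) Q) * ∑ j, (Jm P u)⁻¹ b j *
            ∑ i, ∑ k, MP j i k * (v i - u i) * (v k - u k)
          = ∑ w : Fin N × Fin N, ∑ t : (Fin n ⊕ Fin N) × (Fin n ⊕ Fin N),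
              eval u (pderiv (Sum.inr w.1) Q) * (Jm P u)⁻¹ w.1 w.2 * MP w.2 t.1 t.2 *
                (v t.1 - u t.1) * (v t.2 - u t.2) := by
            simp only [Fintype.sum_prod_type, Finset.mul_sum]
            refine Finset.sum_congr rfl fun _ _ => Finset.sum_congr rfl fun _ _ =>
              Finset.sum_congr rfl fun _ _ => Finset.sum_congr rfl fun _ _ => ?_
            ring
        _ = ∑ t : (Fin n ⊕ Fin N) × (Fin n ⊕ Fin N), ∑ w : Fin N × Fin N,
              eval u (pderiv (Sum.inr w.1) Q) * (Jm P u)⁻¹ w.1 w.2 * MP w.2 t.1 t.2 *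
                (v t.1 - u t.1) * (v t.2 - u t.2) := Finset.sum_comm
        _ = _ := by
            simp only [Fintype.sum_prod_type, Finset.mul_sum, Finset.sum_mul]
            refine Finset.sum_congr rfl fun _ _ => Finset.sum_congr rfl fun _ _ =>
              Finset.sum_congr rfl fun _ _ => Finset.sum_congr rfl fun _ _ => ?_
            ring
    rw [e1, ← Finset.sum_sub_distrib]
    refine Finset.sum_congr rfl fun i _ => ?_
    rw [← Finset.sum_sub_distrib]
    refine Finset.sum_congr rfl fun k _ => ?_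
    ring
  rw [h3]
  simp only [mul_neg, Finset.sum_neg_distrib]
  ring

theorem germ_comp {L X L' X' : Type*} {F : Filter L} {G : Filter X} {F' : Filter L'}
    {G' : Filter X'} {h : L' → X' → ℝ} {a : ℝ} (H : GermFR F' G' h a) {u : L → L'} {v : X → X'}
    (hu : Tendsto u F F') (hv : Tendsto v G G') : GermFR F G (fun l x => h (u l) (v x)) a := by
  obtain ⟨n, b, f, b0, f0, h1, h2, h3, h4⟩ := H
  exact ⟨n, fun k l => b k (u l), fun k x => f k (v x), b0, f0, fun k => (h1 k).comp hu,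
    fun k => (h2 k).comp hv, fun l x => h3 _ _, h4⟩

/-- the matrix with the entries `Q` -/
noncomputable def Mt (Q : Fin m → Fin m → MvPolynomial (Fin n ⊕ Fin N) ℝ)
    (u : Fin n ⊕ Fin N → ℝ) : Matrix (Fin m) (Fin m) ℝ :=
  Matrix.of fun i j => eval u (Q i j)

/-- the coefficients of half the Hessian of `Q` along the graph -/
noncomputable def Hq (P : Fin N → MvPolynomial (Fin n ⊕ Fin N) ℝ)
    (Q : MvPolynomial (Fin n ⊕ Fin N) ℝ) (c : Fin n ⊕ Fin N → ℝ) (s t : Fin n ⊕ Fin N) : ℝ :=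
  1 / 2 * eval c (pderiv s (pderiv t Q)) - ∑ b, eval c (pderiv (Sum.inr b) Q) *
    ∑ j, (Jm P c)⁻¹ b j * (1 / 2 * eval c (pderiv s (pderiv t (P j))))

/-- half the second derivative of `Q` along the graph in the direction `T` -/
noncomputable def D2q (P : Fin N → MvPolynomial (Fin n ⊕ Fin N) ℝ)
    (Q : MvPolynomial (Fin n ⊕ Fin N) ℝ) (c T : Fin n ⊕ Fin N → ℝ) : ℝ :=
  ∑ s, ∑ t, Hq P Q c s t * T s * T t

theorem tendsto_inv_entry {L : Type*} {F : Filter L}
    {P : Fin N → MvPolynomial (Fin n ⊕ Fin N) ℝ} {c : Fin n ⊕ Fin N → ℝ}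
    {u : L → Fin n ⊕ Fin N → ℝ} (tu : Tendsto u F (𝓝 c)) (hJ : (Jm P c).det ≠ 0)
    (b j : Fin N) : Tendsto (fun l => (Jm P (u l))⁻¹ b j) F (𝓝 ((Jm P c)⁻¹ b j)) := by
  have h1 : ∀ A : Matrix (Fin N) (Fin N) ℝ, A⁻¹ b j = A.det⁻¹ * A.adjugate b j := by
    intro A
    rw [Matrix.inv_def, Ring.inverse_eq_inv', Matrix.smul_apply, smul_eq_mul]
  simp only [h1]
  have hc : Continuous fun w : Fin n ⊕ Fin N → ℝ => Jm P w := by
    refine continuous_matrix fun i k => ?_
    simp only [Jm, Matrix.of_apply]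
    exact MvPolynomial.continuous_eval _
  have hd : Tendsto (fun l => (Jm P (u l)).det) F (𝓝 (Jm P c).det) :=
    (hc.matrix_det.tendsto c).comp tu
  have ha : Tendsto (fun l => (Jm P (u l)).adjugate b j) F (𝓝 ((Jm P c).adjugate b j)) := by
    have h2 : Continuous fun w : Fin n ⊕ Fin N → ℝ => (Jm P w).adjugate b j :=
      (hc.matrix_adjugate).matrix_elem b j
    exact (h2.tendsto c).comp tu
  exact (hd.inv₀ hJ).mul ha

theorem eventually_det {L : Type*} {F : Filter L}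
    {P : Fin N → MvPolynomial (Fin n ⊕ Fin N) ℝ} {c : Fin n ⊕ Fin N → ℝ}
    {u : L → Fin n ⊕ Fin N → ℝ} (tu : Tendsto u F (𝓝 c)) (hJ : (Jm P c).det ≠ 0) :
    ∀ᶠ l in F, (Jm P (u l)).det ≠ 0 := by
  have hc : Continuous fun w : Fin n ⊕ Fin N → ℝ => Jm P w := by
    refine continuous_matrix fun i k => ?_
    simp only [Jm, Matrix.of_apply]
    exact MvPolynomial.continuous_eval _
  have hd : Tendsto (fun l => (Jm P (u l)).det) F (𝓝 (Jm P c).det) :=
    (hc.matrix_det.tendsto c).comp tu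
  exact hd.eventually_ne hJ

section Data

variable {L X : Type*} {F : Filter L} {G : Filter X}
  {P : Fin N → MvPolynomial (Fin n ⊕ Fin N) ℝ} {c : Fin n ⊕ Fin N → ℝ}
  {u : L → Fin n ⊕ Fin N → ℝ} {v : X → Fin n ⊕ Fin N → ℝ}

theorem germ_disp (tu : Tendsto u F (𝓝 c)) (tv : Tendsto v G (𝓝 c)) (s : Fin n ⊕ Fin N) :
    GermFR F G (fun l x => v x s - u l s) 0 :=
  ((GermFR.right (((continuous_apply s).tendsto c).comp tv)).sub
    (GermFR.left (((continuous_apply s).tendsto c).comp tu))).congr (fun _ _ => rfl)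
      (by simp)

/-- first order expansion -/
theorem germ_first (tu : Tendsto u F (𝓝 c)) (tv : Tendsto v G (𝓝 c))
    (Q : MvPolynomial (Fin n ⊕ Fin N) ℝ) :
    ∃ A : Fin n ⊕ Fin N → L → X → ℝ,
      (∀ s, GermFR F G (A s) (eval c (pderiv s Q))) ∧
      ∀ l x, eval (v x) Q - eval (u l) Q = ∑ s, A s l x * (v x s - u l s) := by
  classical
  obtain ⟨M, hM, eM⟩ := taylor2 Q c
  refine ⟨fun s l x => eval (u l) (pderiv s Q) + ∑ t, M s t (u l) (v x) * (v x t - u l t),
    fun s => ?_, fun l x => ?_⟩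
  · have h1 : GermFR F G (fun l (_ : X) => eval (u l) (pderiv s Q)) (eval c (pderiv s Q)) :=
      GermFR.left (((MvPolynomial.continuous_eval _).tendsto c).comp tu)
    refine (h1.add (GermFR.sum Finset.univ (fun t _ =>
      (germ_comp (hM s t) tu tv).mul (germ_disp tu tv t)))).congr (fun _ _ => rfl) ?_
    simp
  · rw [eM (u l) (v x)]
    have e1 : ∑ s, (eval (u l) (pderiv s Q) + ∑ t, M s t (u l) (v x) * (v x t - u l t)) *
        (v x s - u l s) = ∑ s, eval (u l) (pderiv s Q) * (v x s - u l s) +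
        ∑ s, ∑ t, M s t (u l) (v x) * (v x s - u l s) * (v x t - u l t) := by
      rw [← Finset.sum_add_distrib]
      refine Finset.sum_congr rfl fun s _ => ?_
      rw [add_mul, Finset.sum_mul]
      congr 1
      refine Finset.sum_congr rfl fun t _ => ?_
      ring
    rw [e1]
    ring

/-- second order expansion along the graph -/
theorem germ_second (tu : Tendsto u F (𝓝 c)) (tv : Tendsto v G (𝓝 c)) (hJ : (Jm P c).det ≠ 0)
    (Q : MvPolynomial (Fin n ⊕ Fin N) ℝ) :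
    ∃ E : Fin n ⊕ Fin N → Fin n ⊕ Fin N → L → X → ℝ,
      (∀ s t, GermFR F G (E s t) (Hq P Q c s t)) ∧
      ∀ l x, (Jm P (u l)).det ≠ 0 → (∀ j, eval (u l) (P j) = 0) → (∀ j, eval (v x) (P j) = 0) →
        eval (v x) Q - eval (u l) Q -
          Dq Q (u l) (tau P (u l) fun a => v x (Sum.inl a) - u l (Sum.inl a)) =
        ∑ s, ∑ t, E s t l x * (v x s - u l s) * (v x t - u l t) := by
  classical
  obtain ⟨MQ, hMQ, eMQ⟩ := taylor2 Q c
  choose MP hMP eMP using fun j => taylor2 (P j) c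
  refine ⟨fun s t l x => MQ s t (u l) (v x) - ∑ b, eval (u l) (pderiv (Sum.inr b) Q) *
    ∑ j, (Jm P (u l))⁻¹ b j * MP j s t (u l) (v x), fun s t => ?_, fun l x h1 h2 h3 => ?_⟩
  · rw [Hq]
    refine (germ_comp (hMQ s t) tu tv).sub (GermFR.sum Finset.univ fun b _ => ?_)
    refine (GermFR.left (((MvPolynomial.continuous_eval _).tendsto c).comp tu)).mul
      (GermFR.sum Finset.univ fun j _ => ?_)
    exact (GermFR.left (tendsto_inv_entry tu hJ b j)).mul (germ_comp (hMP j s t) tu tv)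
  · exact breg_id h1 h2 h3 (fun j => eMP j (u l) (v x)) (eMQ (u l) (v x))

end Data

theorem tau_zero (P : Fin N → MvPolynomial (Fin n ⊕ Fin N) ℝ) (u : Fin n ⊕ Fin N → ℝ) :
    tau P u 0 = 0 := by
  funext s
  rcases s with a | k
  · rfl
  · simp [tau]

/-- **The core.** -/
theorem core {P : Fin N → MvPolynomial (Fin n ⊕ Fin N) ℝ}
    {Q : Fin m → Fin m → MvPolynomial (Fin n ⊕ Fin N) ℝ} {c : Fin n ⊕ Fin N → ℝ}
    (hJ : (Jm P c).det ≠ 0) {L X : Type*} {F : Filter L} {G : Filter X}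
    {u : L → Fin n ⊕ Fin N → ℝ} {v : X → Fin n ⊕ Fin N → ℝ}
    (tu : Tendsto u F (𝓝 c)) (tv : Tendsto v G (𝓝 c))
    (hPu : ∀ᶠ l in F, ∀ j, eval (u l) (P j) = 0) (hPv : ∀ᶠ x in G, ∀ j, eval (v x) (P j) = 0)
    {z : Fin n → ℝ} {κ : ℝ} (hzu : ∀ᶠ l in F, ∑ a, z a * u l (Sum.inl a) = κ)
    (hzv : ∀ᶠ x in G, ∑ a, z a * v x (Sum.inl a) = κ)
    {ξ : L → Fin m → ℝ} {ξ0 : Fin m → ℝ} (tξ : ∀ i, Tendsto (fun l => ξ l i) F (𝓝 (ξ0 i)))
    (hξ : ∀ᶠ l in F, Mt Q (u l) *ᵥ ξ l = 0)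
    (hpsd : ∀ᶠ x in G, (Mt Q (v x)).PosSemidef) (h0 : (Mt Q c).PosSemidef)
    (hpos : ∀ δ : Fin n → ℝ, δ ≠ 0 → ∑ a, z a * δ a = 0 → ∃ q : Fin m → ℝ,
      ∑ i, ∑ j, ξ0 i * ξ0 j * D2q P (Q i j) c (tau P c δ) <
        2 * ∑ i, q i * ∑ j, Dq (Q i j) c (tau P c δ) * ξ0 j - ∑ i, ∑ j, Mt Q c i j * q i * q j) :
    SosF F G (fun l x => ∑ i, ∑ j,
      Dq (Q i j) (u l) (tau P (u l) fun a => v x (Sum.inl a) - u l (Sum.inl a)) *
        ξ l i * ξ l j) := by
  classical
  choose A hA eA using fun i j => germ_first tu tv (Q i j)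
  choose E hE eE using fun i j => germ_second (P := P) tu tv hJ (Q i j)
  choose R hR eR using fun j => germ_first tu tv (P j)
  have tdet := eventually_det tu hJ
  have tM0 : ∀ i j, Tendsto (fun x => Mt Q (v x) i j) G (𝓝 (Mt Q c i j)) := fun i j => by
    simp only [Mt, Matrix.of_apply]
    exact ((MvPolynomial.continuous_eval _).tendsto c).comp tv
  refine sosF_lmr (ι := Fin m) (κ := Fin n ⊕ Fin N) (σ := Option (Fin N))
    (M := fun x => Mt Q (v x)) (M0 := Mt Q c) hpsd h0 tM0 ξ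
    (d := fun s l x => v x s - u l s)
    (fun s => (FR.right fun x => v x s).sub (FR.left fun l => u l s))
    (A := fun s i l x => ∑ j, A i j s l x * ξ l j)
    (α := fun s i => ∑ j, eval c (pderiv s (Q i j)) * ξ0 j)
    (fun s i => GermFR.sum Finset.univ fun j _ => (hA i j s).mul (GermFR.left (tξ j)))
    (fun i => ?_)
    (e := fun s t l x => ∑ i, ∑ j, ξ l i * ξ l j * E i j s t l x)
    (e0 := fun s t => ∑ i, ∑ j, ξ0 i * ξ0 j * Hq P (Q i j) c s t)
    (fun s t => GermFR.sum Finset.univ fun i _ => GermFR.sum Finset.univ fun j _ =>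
      ((GermFR.left (tξ i)).mul (GermFR.left (tξ j))).mul (hE i j s t))
    (R := fun o s l x => match o with
      | none => Sum.elim z (fun _ => 0) s
      | some j => R j s l x)
    (ρ := fun o s => match o with
      | none => Sum.elim z (fun _ => 0) s
      | some j => eval c (pderiv s (P j)))
    (fun o s => ?_) (fun o => ?_) (fun w hw hρ => ?_) ?_
  · -- `M ξ`
    refine EqF.of_eventually (fun l => Mt Q (u l) *ᵥ ξ l = 0) (fun _ => True) hξ (by simp)
      fun l x hl _ => ?_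
    have h1 := congrFun hl i
    simp only [Matrix.mulVec, dotProduct, Mt, Matrix.of_apply, Pi.zero_apply] at h1 ⊢
    have h2 : ∑ j, eval (v x) (Q i j) * ξ l j =
        ∑ j, (eval (v x) (Q i j) - eval (u l) (Q i j)) * ξ l j := by
      simp only [sub_mul, Finset.sum_sub_distrib, h1, sub_zero]
    rw [h2]
    simp only [eA, Finset.sum_mul, Finset.mul_sum]
    rw [Finset.sum_comm]
    refine Finset.sum_congr rfl fun s _ => Finset.sum_congr rfl fun j _ => ?_
    ring
  · rcases o with _ | j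
    · exact GermFR.const _
    · exact hR j s
  · rcases o with _ | j
    · refine EqF.of_eventually _ _ hzu hzv fun l x hl hx => ?_
      simp only [Fintype.sum_sum_type, Sum.elim_inl, Sum.elim_inr, zero_mul,
        Finset.sum_const_zero, add_zero, mul_sub, Finset.sum_sub_distrib, hl, hx, sub_self]
    · refine EqF.of_eventually _ _ hPu hPv fun l x hl hx => ?_
      show ∑ s, R j s l x * (v x s - u l s) = 0
      rw [← eR, hl, hx, sub_self]
  · -- positivity
    have h1 : ∀ j, Dq (P j) c w = 0 := fun j => hρ (some j)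
    have h2 := eq_tau hJ h1
    have h3 : ∑ a, z a * w (Sum.inl a) = 0 := by
      have := hρ none
      simpa [Fintype.sum_sum_type] using this
    have h4 : (fun a => w (Sum.inl a)) ≠ 0 := by
      intro h0
      apply hw
      rw [h2, h0, tau_zero]
    obtain ⟨q, hq⟩ := hpos _ h4 h3
    rw [← h2] at hq
    refine ⟨q, ?_⟩
    have e1 : ∑ s, ∑ t, (∑ i, ∑ j, ξ0 i * ξ0 j * Hq P (Q i j) c s t) * w s * w t =
        ∑ i, ∑ j, ξ0 i * ξ0 j * D2q P (Q i j) c w := by
      simp only [D2q]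
      calc ∑ s, ∑ t, (∑ i, ∑ j, ξ0 i * ξ0 j * Hq P (Q i j) c s t) * w s * w t
          = ∑ a : (Fin n ⊕ Fin N) × (Fin n ⊕ Fin N), ∑ b : Fin m × Fin m,
              ξ0 b.1 * ξ0 b.2 * Hq P (Q b.1 b.2) c a.1 a.2 * w a.1 * w a.2 := by
            simp only [Fintype.sum_prod_type, Finset.sum_mul]
        _ = ∑ b : Fin m × Fin m, ∑ a : (Fin n ⊕ Fin N) × (Fin n ⊕ Fin N),
              ξ0 b.1 * ξ0 b.2 * Hq P (Q b.1 b.2) c a.1 a.2 * w a.1 * w a.2 :=
            Finset.sum_comm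
        _ = _ := by
            simp only [Fintype.sum_prod_type, Finset.mul_sum]
            refine Finset.sum_congr rfl fun _ _ => Finset.sum_congr rfl fun _ _ =>
              Finset.sum_congr rfl fun _ _ => Finset.sum_congr rfl fun _ _ => ?_
            ring
    have e2 : ∑ i, q i * ∑ s, w s * ∑ j, eval c (pderiv s (Q i j)) * ξ0 j =
        ∑ i, q i * ∑ j, Dq (Q i j) c w * ξ0 j := by
      refine Finset.sum_congr rfl fun i _ => ?_
      congr 1
      simp only [Dq, Finset.mul_sum, Finset.sum_mul]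
      rw [Finset.sum_comm]
      refine Finset.sum_congr rfl fun _ _ => Finset.sum_congr rfl fun _ _ => ?_
      ring
    rw [e1, e2]
    exact hq
  · -- the kernel
    refine EqF.of_eventually (fun l => Mt Q (u l) *ᵥ ξ l = 0 ∧ (Jm P (u l)).det ≠ 0 ∧
      ∀ j, eval (u l) (P j) = 0) _ (hξ.and (tdet.and hPu)) hPv fun l x hl hx => ?_
    have h1 : ∑ i, ∑ j, Mt Q (u l) i j * ξ l i * ξ l j = 0 := by
      rw [← dot_mulVec_eq, hl.1, dotProduct_zero]
    have h2 : ∀ i j, Dq (Q i j) (u l)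
        (tau P (u l) fun a => v x (Sum.inl a) - u l (Sum.inl a)) =
        Mt Q (v x) i j - Mt Q (u l) i j -
          ∑ s, ∑ t, E i j s t l x * (v x s - u l s) * (v x t - u l t) := by
      intro i j
      rw [← eE i j l x hl.2.1 hl.2.2 hx]
      simp only [Mt, Matrix.of_apply]
      ring
    simp only [h2]
    have h3 : ∑ i, ∑ j, (Mt Q (v x) i j - Mt Q (u l) i j -
          ∑ s, ∑ t, E i j s t l x * (v x s - u l s) * (v x t - u l t)) * ξ l i * ξ l j =
        ∑ i, ∑ j, Mt Q (v x) i j * ξ l i * ξ l j - ∑ i, ∑ j, Mt Q (u l) i j * ξ l i * ξ l j -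
        ∑ i, ∑ j, (∑ s, ∑ t, E i j s t l x * (v x s - u l s) * (v x t - u l t)) *
          ξ l i * ξ l j := by
      simp only [← Finset.sum_sub_distrib]
      refine Finset.sum_congr rfl fun _ _ => Finset.sum_congr rfl fun _ _ => ?_
      ring
    rw [h3, h1, sub_zero]
    congr 1
    calc ∑ i, ∑ j, (∑ s, ∑ t, E i j s t l x * (v x s - u l s) * (v x t - u l t)) *
          ξ l i * ξ l j
        = ∑ b : Fin m × Fin m, ∑ a : (Fin n ⊕ Fin N) × (Fin n ⊕ Fin N),
            E b.1 b.2 a.1 a.2 l x * (v x a.1 - u l a.1) * (v x a.2 - u l a.2) *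
              ξ l b.1 * ξ l b.2 := by
          simp only [Fintype.sum_prod_type, Finset.sum_mul]
      _ = ∑ a : (Fin n ⊕ Fin N) × (Fin n ⊕ Fin N), ∑ b : Fin m × Fin m,
            E b.1 b.2 a.1 a.2 l x * (v x a.1 - u l a.1) * (v x a.2 - u l a.2) *
              ξ l b.1 * ξ l b.2 := Finset.sum_comm
      _ = _ := by
          simp only [Fintype.sum_prod_type, Finset.sum_mul]
          refine Finset.sum_congr rfl fun _ _ => Finset.sum_congr rfl fun _ _ =>
            Finset.sum_congr rfl fun _ _ => Finset.sum_congr rfl fun _ _ => ?_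
          ring

end Vale.Agent.P256.H186
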