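import Vale.Agent.P256.H186.LocPen

/-! Directional expansions of functions with an etale presentation. -/

set_option linter.all false

namespace Vale.Agent.P256.H186

open MvPolynomial Filter Topology Matrix Vale.Agent.P256 Vale.Agent.P256.H326
  Vale.Agent.P256.H387

variable {n N m : ℕ}

theorem tau_add (P : Fin N → MvPolynomial (Fin n ⊕ Fin N) ℝ) (u : Fin n ⊕ Fin N → ℝ)
    (δ δ' : Fin n → ℝ) : tau P u (δ + δ') = tau P u δ + tau P u δ' := by
  funext s
  rcases s with a | k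
  · rfl
  · simp only [tau, Sum.elim_inr, Pi.add_apply, mul_add, Finset.sum_add_distrib]
    ring

theorem tau_smul (P : Fin N → MvPolynomial (Fin n ⊕ Fin N) ℝ) (u : Fin n ⊕ Fin N → ℝ)
    (r : ℝ) (δ : Fin n → ℝ) : tau P u (r • δ) = r • tau P u δ := by
  funext s
  rcases s with a | k
  · rfl
  · simp only [tau, Sum.elim_inr, Pi.smul_apply, smul_eq_mul, Finset.mul_sum, mul_neg]
    congr 1
    refine Finset.sum_congr rfl fun _ _ => Finset.sum_congr rfl fun _ _ => ?_
    ring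

theorem Dq_add (Q : MvPolynomial (Fin n ⊕ Fin N) ℝ) (u T T' : Fin n ⊕ Fin N → ℝ) :
    Dq Q u (T + T') = Dq Q u T + Dq Q u T' := by
  simp only [Dq, Pi.add_apply, mul_add, Finset.sum_add_distrib]

theorem Dq_smul (Q : MvPolynomial (Fin n ⊕ Fin N) ℝ) (u : Fin n ⊕ Fin N → ℝ) (r : ℝ)
    (T : Fin n ⊕ Fin N → ℝ) : Dq Q u (r • T) = r * Dq Q u T := by
  simp only [Dq, Pi.smul_apply, smul_eq_mul, Finset.mul_sum]
  refine Finset.sum_congr rfl fun _ _ => ?_
  ring

theorem germ_pure {X : Type*} {G : Filter X} {h : Unit → X → ℝ} {a : ℝ}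
    (H : GermFR (pure () : Filter Unit) G h a) : Tendsto (h ()) G (𝓝 a) := by
  obtain ⟨k, b, f, b0, f0, h1, h2, h3, h4⟩ := H
  have h5 : ∀ i, b i () = b0 i := by
    intro i
    have := h1 i
    rw [tendsto_pure_left] at this
    by_contra hne
    have h6 := this {b i ()}ᶜ (by
      refine isOpen_compl_singleton.mem_nhds ?_
      simpa using fun h => hne h.symm)
    simp at h6
  have h6 : h () = fun x => ∑ i, b0 i * f i x := by
    funext x
    rw [h3]
    exact Finset.sum_congr rfl fun i _ => by rw [h5]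
  rw [h6, h4]
  exact tendsto_finset_sum _ fun i _ => (h2 i).const_mul _

section Curve

variable {P : Fin N → MvPolynomial (Fin n ⊕ Fin N) ℝ} {Φ : (Fin n → ℝ) → (Fin N → ℝ)}
  {y : Fin n → ℝ}

theorem tendsto_line (y δ : Fin n → ℝ) :
    Tendsto (fun t : ℝ => y + t • δ) (𝓝[>] 0) (𝓝 y) := by
  have h1 : Continuous fun t : ℝ => y + t • δ := by fun_prop
  have h2 := (h1.tendsto 0).mono_left (nhdsWithin_le_nhds (s := Set.Ioi 0))
  simpa using h2

theorem tendsto_psi (hc : ContinuousAt Φ y) :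
    Tendsto (fun x => (Sum.elim x (Φ x) : Fin n ⊕ Fin N → ℝ)) (𝓝 y)
      (𝓝 (Sum.elim y (Φ y))) := by
  refine tendsto_pi_nhds.2 fun s => ?_
  rcases s with a | k
  · exact (continuous_apply a).tendsto y
  · exact ((continuous_apply k).tendsto (Φ y)).comp hc

theorem tendsto_inv_gen {X : Type*} {G : Filter X} {A : X → Matrix (Fin N) (Fin N) ℝ}
    {A0 : Matrix (Fin N) (Fin N) ℝ} (hA : Tendsto A G (𝓝 A0)) (h0 : A0.det ≠ 0)
    (b j : Fin N) : Tendsto (fun x => (A x)⁻¹ b j) G (𝓝 (A0⁻¹ b j)) := by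
  have h1 : ∀ A : Matrix (Fin N) (Fin N) ℝ, A⁻¹ b j = A.det⁻¹ * A.adjugate b j := by
    intro A
    rw [Matrix.inv_def, Ring.inverse_eq_inv', Matrix.smul_apply, smul_eq_mul]
  simp only [h1]
  have hd : Tendsto (fun x => (A x).det) G (𝓝 A0.det) :=
    ((continuous_id.matrix_det).tendsto A0).comp hA
  have h2 : Continuous fun w : Matrix (Fin N) (Fin N) ℝ => w.adjugate b j :=
    (continuous_id.matrix_adjugate).matrix_elem b j
  exact (hd.inv₀ h0).mul ((h2.tendsto A0).comp hA)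

/-- the displacement along a line is tangent to `tau` -/
theorem disp_div (hc : ContinuousAt Φ y)
    (heq : ∀ᶠ x in 𝓝 y, ∀ j, eval (Sum.elim x (Φ x)) (P j) = 0)
    (hJ : (Jm P (Sum.elim y (Φ y))).det ≠ 0) (δ : Fin n → ℝ) (s : Fin n ⊕ Fin N) :
    Tendsto (fun t : ℝ => ((Sum.elim (y + t • δ) (Φ (y + t • δ)) : Fin n ⊕ Fin N → ℝ) s -
      (Sum.elim y (Φ y) : Fin n ⊕ Fin N → ℝ) s) / t) (𝓝[>] 0)
      (𝓝 (tau P (Sum.elim y (Φ y)) δ s)) := by
  set c : Fin n ⊕ Fin N → ℝ := Sum.elim y (Φ y) with hcdef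
  set v : ℝ → Fin n ⊕ Fin N → ℝ := fun t => Sum.elim (y + t • δ) (Φ (y + t • δ)) with hv
  have tv : Tendsto v (𝓝[>] 0) (𝓝 c) := (tendsto_psi hc).comp (tendsto_line y δ)
  have tu : Tendsto (fun _ : Unit => c) (pure ()) (𝓝 c) := tendsto_const_nhds
  have heq0 : ∀ j, eval c (P j) = 0 := heq.self_of_nhds
  have heqv : ∀ᶠ t in 𝓝[>] (0 : ℝ), ∀ j, eval (v t) (P j) = 0 :=
    (tendsto_line y δ).eventually heq
  have hinl : ∀ᶠ t in 𝓝[>] (0 : ℝ), ∀ a, (v t (Sum.inl a) - c (Sum.inl a)) / t = δ a := by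
    filter_upwards [self_mem_nhdsWithin] with t ht a
    have ht : (0 : ℝ) < t := ht
    simp only [hv, hcdef, Sum.elim_inl, Pi.add_apply, Pi.smul_apply, smul_eq_mul]
    field_simp
    ring
  rcases s with a | k
  · refine Tendsto.congr' ?_ (tendsto_const_nhds (x := δ a))
    filter_upwards [hinl] with t ht
    exact (ht a).symm
  · choose R hR eR using fun j => germ_first tu tv (P j)
    have tR : ∀ j s, Tendsto (R j s ()) (𝓝[>] 0) (𝓝 (eval c (pderiv s (P j)))) :=
      fun j s => germ_pure (hR j s)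
    set A : ℝ → Matrix (Fin N) (Fin N) ℝ := fun t => Matrix.of fun j k => R j (Sum.inr k) () t
      with hA
    have tA : Tendsto A (𝓝[>] 0) (𝓝 (Jm P c)) := by
      refine tendsto_pi_nhds.2 fun i => tendsto_pi_nhds.2 fun j => ?_
      exact tR i (Sum.inr j)
    have tdet : ∀ᶠ t in 𝓝[>] (0 : ℝ), (A t).det ≠ 0 := by
      have hd : Tendsto (fun x => (A x).det) (𝓝[>] 0) (𝓝 (Jm P c).det) :=
        ((continuous_id.matrix_det).tendsto _).comp tA
      exact hd.eventually_ne hJ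
    have key : ∀ᶠ t in 𝓝[>] (0 : ℝ), (v t (Sum.inr k) - c (Sum.inr k)) / t =
        -∑ j, (A t)⁻¹ k j * ∑ a, R j (Sum.inl a) () t * δ a := by
      filter_upwards [tdet, heqv, hinl] with t h1 h2 h3
      have h4 : ∀ j, ∑ a, R j (Sum.inl a) () t * δ a =
          -∑ k', A t j k' * ((v t (Sum.inr k') - c (Sum.inr k')) / t) := by
        intro j
        have h5 := eR j () t
        rw [h2, heq0, sub_zero, Fintype.sum_sum_type] at h5
        have h6 : ∑ a, R j (Sum.inl a) () t * δ a =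
            (∑ a, R j (Sum.inl a) () t * (v t (Sum.inl a) - c (Sum.inl a))) / t := by
          rw [Finset.sum_div]
          refine Finset.sum_congr rfl fun a _ => ?_
          rw [← h3 a]; ring
        have h7 : ∑ k', A t j k' * ((v t (Sum.inr k') - c (Sum.inr k')) / t) =
            (∑ k', R j (Sum.inr k') () t * (v t (Sum.inr k') - c (Sum.inr k'))) / t := by
          rw [Finset.sum_div]
          refine Finset.sum_congr rfl fun a _ => ?_
          simp only [hA, Matrix.of_apply]; ring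
        rw [h6, h7]
        have h8 : ∑ a, R j (Sum.inl a) () t * (v t (Sum.inl a) - c (Sum.inl a)) =
          -∑ k', R j (Sum.inr k') () t * (v t (Sum.inr k') - c (Sum.inr k')) := by linarith
        rw [h8]; ring
      have h5 : ∀ i k' : Fin N, ∑ j, (A t)⁻¹ i j * A t j k' = if i = k' then 1 else 0 := by
        intro i k'
        have e1 : (A t)⁻¹ * A t = 1 := Matrix.nonsing_inv_mul _ (isUnit_iff_ne_zero.2 h1)
        have e2 := congrFun (congrFun e1 i) k'
        rwa [Matrix.mul_apply, Matrix.one_apply] at e2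
      simp only [h4]
      have h6 : ∑ j, (A t)⁻¹ k j * -∑ k', A t j k' *
          ((v t (Sum.inr k') - c (Sum.inr k')) / t) =
          -∑ k', (∑ j, (A t)⁻¹ k j * A t j k') * ((v t (Sum.inr k') - c (Sum.inr k')) / t) := by
        simp only [mul_neg, Finset.sum_neg_distrib, Finset.sum_mul, Finset.mul_sum]
        rw [Finset.sum_comm]
        congr 1
        refine Finset.sum_congr rfl fun j' _ => Finset.sum_congr rfl fun k' _ => ?_
        ring
      rw [h6]
      simp only [h5, ite_mul, one_mul, zero_mul, Finset.sum_ite_eq, Finset.mem_univ, if_true,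
        neg_neg]
    have hlim : Tendsto (fun t => -∑ j, (A t)⁻¹ k j * ∑ a, R j (Sum.inl a) () t * δ a)
        (𝓝[>] 0) (𝓝 (-∑ j, (Jm P c)⁻¹ k j * ∑ a, eval c (pderiv (Sum.inl a) (P j)) * δ a)) := by
      refine Tendsto.neg (tendsto_finset_sum _ fun j _ => ?_)
      exact (tendsto_inv_gen tA hJ k j).mul
        (tendsto_finset_sum _ fun a _ => (tR j (Sum.inl a)).mul_const _)
    refine (hlim.congr' ?_)
    filter_upwards [key] with t ht
    exact ht.symm

/-- first order expansion along a line -/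
theorem der_first (hc : ContinuousAt Φ y)
    (heq : ∀ᶠ x in 𝓝 y, ∀ j, eval (Sum.elim x (Φ x)) (P j) = 0)
    (hJ : (Jm P (Sum.elim y (Φ y))).det ≠ 0) (δ : Fin n → ℝ)
    (Q : MvPolynomial (Fin n ⊕ Fin N) ℝ) :
    Tendsto (fun t : ℝ => (eval (Sum.elim (y + t • δ) (Φ (y + t • δ))) Q -
      eval (Sum.elim y (Φ y)) Q) / t) (𝓝[>] 0)
      (𝓝 (Dq Q (Sum.elim y (Φ y)) (tau P (Sum.elim y (Φ y)) δ))) := by
  set c : Fin n ⊕ Fin N → ℝ := Sum.elim y (Φ y) with hcdef
  set v : ℝ → Fin n ⊕ Fin N → ℝ := fun t => Sum.elim (y + t • δ) (Φ (y + t • δ)) with hv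
  have tv : Tendsto v (𝓝[>] 0) (𝓝 c) := (tendsto_psi hc).comp (tendsto_line y δ)
  have tu : Tendsto (fun _ : Unit => c) (pure ()) (𝓝 c) := tendsto_const_nhds
  obtain ⟨A, hA, eA⟩ := germ_first tu tv Q
  have h1 : Tendsto (fun t : ℝ => ∑ s, A s () t * ((v t s - c s) / t)) (𝓝[>] 0)
      (𝓝 (Dq Q c (tau P c δ))) :=
    tendsto_finset_sum _ fun s _ => (germ_pure (hA s)).mul (disp_div hc heq hJ δ s)
  refine h1.congr fun t => ?_
  rw [eA () t, Finset.sum_div]
  exact Finset.sum_congr rfl fun s _ => by ring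

/-- second order expansion along a line -/
theorem der_second (hc : ContinuousAt Φ y)
    (heq : ∀ᶠ x in 𝓝 y, ∀ j, eval (Sum.elim x (Φ x)) (P j) = 0)
    (hJ : (Jm P (Sum.elim y (Φ y))).det ≠ 0) (δ : Fin n → ℝ)
    (Q : MvPolynomial (Fin n ⊕ Fin N) ℝ) :
    Tendsto (fun t : ℝ => (eval (Sum.elim (y + t • δ) (Φ (y + t • δ))) Q -
      eval (Sum.elim y (Φ y)) Q -
        t * Dq Q (Sum.elim y (Φ y)) (tau P (Sum.elim y (Φ y)) δ)) / t ^ 2) (𝓝[>] 0)
      (𝓝 (D2q P Q (Sum.elim y (Φ y)) (tau P (Sum.elim y (Φ y)) δ))) := by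
  set c : Fin n ⊕ Fin N → ℝ := Sum.elim y (Φ y) with hcdef
  set v : ℝ → Fin n ⊕ Fin N → ℝ := fun t => Sum.elim (y + t • δ) (Φ (y + t • δ)) with hv
  have tv : Tendsto v (𝓝[>] 0) (𝓝 c) := (tendsto_psi hc).comp (tendsto_line y δ)
  have tu : Tendsto (fun _ : Unit => c) (pure ()) (𝓝 c) := tendsto_const_nhds
  have heq0 : ∀ j, eval c (P j) = 0 := heq.self_of_nhds
  have heqv : ∀ᶠ t in 𝓝[>] (0 : ℝ), ∀ j, eval (v t) (P j) = 0 :=
    (tendsto_line y δ).eventually heq
  obtain ⟨E, hE, eE⟩ := germ_second (P := P) tu tv hJ Q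
  have h1 : Tendsto (fun t : ℝ => ∑ s, ∑ s', E s s' () t * ((v t s - c s) / t) *
      ((v t s' - c s') / t)) (𝓝[>] 0) (𝓝 (D2q P Q c (tau P c δ))) :=
    tendsto_finset_sum _ fun s _ => tendsto_finset_sum _ fun s' _ =>
      ((germ_pure (hE s s')).mul (disp_div hc heq hJ δ s)).mul (disp_div hc heq hJ δ s')
  refine h1.congr' ?_
  filter_upwards [heqv, self_mem_nhdsWithin] with t h2 h3
  have h3 : (0 : ℝ) < t := h3
  have h4 := eE () t hJ heq0 h2
  have h5 : (fun a => v t (Sum.inl a) - c (Sum.inl a)) = t • δ := by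
    funext a
    simp only [hv, hcdef, Sum.elim_inl, Pi.add_apply, Pi.smul_apply, smul_eq_mul]
    ring
  rw [h5, tau_smul, Dq_smul] at h4
  show _ = (eval (v t) Q - eval c Q - t * Dq Q c (tau P c δ)) / t ^ 2
  rw [h4, Finset.sum_div]
  refine Finset.sum_congr rfl fun s _ => ?_
  rw [Finset.sum_div]
  refine Finset.sum_congr rfl fun s' _ => ?_
  field_simp

end Curve

end Vale.Agent.P256.H186
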