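import Vale.Agent.P256.DefsF

/-! Strict local pencils with Nash entries. -/

namespace Vale.Agent.P256

open Filter Topology Matrix

variable {n m : ℕ}

/-- Near `z` the entries of the matrix `M` are Nash functions, given jointly in Artin-Mazur form:
they are polynomials `Q i j` in `x` and in the values `Φ x` of a continuous solution `Φ` of
polynomial equations `P j (x, Φ x) = 0` whose Jacobian determinant with respect to the last
variables does not vanish at `(z, Φ z)`. -/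
def NashMat (z : Fin n → ℝ) (M : (Fin n → ℝ) → Matrix (Fin m) (Fin m) ℝ) : Prop :=
  ∃ (N : ℕ) (Φ : (Fin n → ℝ) → (Fin N → ℝ)) (P : Fin N → MvPolynomial (Fin n ⊕ Fin N) ℝ)
    (Q : Fin m → Fin m → MvPolynomial (Fin n ⊕ Fin N) ℝ),
    (∀ᶠ x in 𝓝 z, ContinuousAt Φ x) ∧
    (∀ᶠ x in 𝓝 z, ∀ j, MvPolynomial.eval (Sum.elim x (Φ x)) (P j) = 0) ∧
    (Matrix.of fun j k => MvPolynomial.eval (Sum.elim z (Φ z))
      (MvPolynomial.pderiv (Sum.inr k) (P j))).det ≠ 0 ∧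
    ∀ᶠ x in 𝓝 z, ∀ i j, M x i j = MvPolynomial.eval (Sum.elim x (Φ x)) (Q i j)

/-- `ξ` is a limit of kernel vectors of `M` at smooth boundary points of the cone which converge
to `z`. -/
def LimKer (p : MvPolynomial (Fin n) ℝ) (e z : Fin n → ℝ)
    (M : (Fin n → ℝ) → Matrix (Fin m) (Fin m) ℝ) (ξ : Fin m → ℝ) : Prop :=
  ∀ ε : ℝ, 0 < ε → ∃ y ∈ hypCone p e, MvPolynomial.eval y p = 0 ∧ IsSmoothPoint p y ∧
    (∀ i, |y i - z i| < ε) ∧ ∃ η : Fin m → ℝ, M y *ᵥ η = 0 ∧ ∀ i, |η i - ξ i| < ε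

/-- The point `z` has a strict local pencil: near `z` there is a symmetric matrix `M` with Nash
entries which is positive semidefinite on the cone and singular at its smooth boundary points;
and for each nonzero limit `ξ` of kernel vectors and each direction `w ≠ 0` orthogonal to `z`,
either `⟨ξ, M (z + t w) ξ⟩` grows at least linearly for small `t > 0`, or for some vector `η` the
number `⟨ξ + t η, M (z + t w) (ξ + t η)⟩` is at most `- c t ^ 2`, `c > 0`, for small `t > 0`. -/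
def PencilAt (p : MvPolynomial (Fin n) ℝ) (e z : Fin n → ℝ) : Prop :=
  ∃ (m : ℕ) (M : (Fin n → ℝ) → Matrix (Fin m) (Fin m) ℝ), NashMat z M ∧
    (∀ᶠ x in 𝓝 z, (M x).IsSymm) ∧
    (∀ᶠ x in 𝓝 z, x ∈ hypCone p e → (M x).PosSemidef) ∧
    (∀ᶠ x in 𝓝 z, x ∈ hypCone p e → MvPolynomial.eval x p = 0 → IsSmoothPoint p x →
      (M x).det = 0) ∧
    ∀ ξ : Fin m → ℝ, ξ ≠ 0 → LimKer p e z M ξ → ∀ w : Fin n → ℝ, w ≠ 0 → ∑ i, z i * w i = 0 →
      (∃ c : ℝ, 0 < c ∧ ∀ᶠ t in 𝓝[>] (0 : ℝ), c * t ≤ ξ ⬝ᵥ (M (z + t • w) *ᵥ ξ)) ∨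
      (∃ c : ℝ, 0 < c ∧ ∃ η : Fin m → ℝ, ∀ᶠ t in 𝓝[>] (0 : ℝ),
        (ξ + t • η) ⬝ᵥ (M (z + t • w) *ᵥ (ξ + t • η)) ≤ -(c * t ^ 2))

/-- The cone is a spectrahedron near `z`: there is a symmetric matrix `L x`, linear in `x`, which
is positive semidefinite on the cone near `z`, singular at its smooth boundary points near `z`,
and `⟨ξ, L e ξ⟩ > 0` for all nonzero `ξ` in the kernel of `L z`. -/
def SpecAt (p : MvPolynomial (Fin n) ℝ) (e z : Fin n → ℝ) : Prop :=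
  ∃ (m : ℕ) (L : (Fin n → ℝ) →ₗ[ℝ] Matrix (Fin m) (Fin m) ℝ),
    (∀ᶠ x in 𝓝 z, x ∈ hypCone p e → (L x).PosSemidef) ∧
    (∀ᶠ x in 𝓝 z, x ∈ hypCone p e → MvPolynomial.eval x p = 0 → IsSmoothPoint p x →
      (L x).det = 0) ∧
    ∀ ξ : Fin m → ℝ, ξ ≠ 0 → L z *ᵥ ξ = 0 → 0 < ξ ⬝ᵥ (L e *ᵥ ξ)

end Vale.Agent.P256
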