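import Vale.Agent.P256.H186.LocPenD
import Vale.Agent.P256.H186.PenDefs
import Vale.Agent.P256.H387.Frame

/-! The slack kernel near a point with a strict local pencil. -/

set_option linter.all false

namespace Vale.Agent.P256.H186

open MvPolynomial Filter Topology Matrix Vale.Agent.P256 Vale.Agent.P256.H326
  Vale.Agent.P256.H387

variable {n N m : ℕ} {p : MvPolynomial (Fin n) ℝ} {e z : Fin n → ℝ}

/-- at a smooth boundary point directions of positive derivative lead into the cone -/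
theorem enter (hp : IsHyperbolic p e) {y v : Fin n → ℝ} (hy : y ∈ hypCone p e)
    (hy0 : eval y p = 0) (hs : 0 < dd p y e) (hv : 0 < dd p y v) :
    ∀ᶠ t in 𝓝[>] (0 : ℝ), y + t • v ∈ hypCone p e := by
  have hm : ∀ k < 1, part p y k = 0 := by
    intro k hk
    have : k = 0 := by omega
    subst this
    have h1 : part p y 0 = MvPolynomial.C (MvPolynomial.coeff 0 (translate p y)) :=
      MvPolynomial.homogeneousComponent_zero _
    have h2 : MvPolynomial.eval y (part p y 0) = 0 := by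
      rw [← coeff_line, Polynomial.coeff_zero_eq_eval_zero, eval_line, zero_smul, add_zero, hy0]
    rw [h1, MvPolynomial.eval_C] at h2
    rw [h1, h2, map_zero]
  have hlin : ∀ w, MvPolynomial.eval w (part p y 1) = dd p y w := by
    intro w
    have h2 := Polynomial.coeff_derivative (line p y w) 0
    rw [Polynomial.coeff_zero_eq_eval_zero, eval_derivative_line, zero_smul, add_zero,
      coeff_line] at h2
    simpa using h2.symm
  have he : 0 < MvPolynomial.eval e (part p y 1) := by rw [hlin]; exact hs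
  have hop : InOpen (part p y 1) e v := by
    intro t ht
    rw [hlin, dd_add, dd_smul]
    have : 0 ≤ t * dd p y e := mul_nonneg ht hs.le
    linarith
  obtain ⟨b₀, hb₀, hb⟩ := eventually_inOpen_of_part hp hy hm he hop
  filter_upwards [Ioo_mem_nhdsGT hb₀] with t ht
  exact (hb t ht.1 ht.2).mem hp

/-- proportional functionals on the hyperplane orthogonal to `z` -/
theorem prop_on {g D : (Fin n → ℝ) → ℝ} (ga : ∀ v w, g (v + w) = g v + g w)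
    (gs : ∀ (r : ℝ) v, g (r • v) = r * g v) (Da : ∀ v w, D (v + w) = D v + D w)
    (Ds : ∀ (r : ℝ) v, D (r • v) = r * D v) (z : Fin n → ℝ)
    (h : ∀ v, ∑ i, z i * v i = 0 → 0 < g v → 0 ≤ D v) {w : Fin n → ℝ}
    (hw : ∑ i, z i * w i = 0) (gw : 0 < g w) (Dw : 0 < D w) {v : Fin n → ℝ}
    (hv : ∑ i, z i * v i = 0) : g v = g w / D w * D v := by
  have hort : ∀ (a b : ℝ) (v' : Fin n → ℝ), ∑ i, z i * v' i = 0 →
      ∑ i, z i * (a • v' + b • w) i = 0 := by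
    intro a b v' hv'
    have : ∑ i, z i * (a • v' + b • w) i = a * ∑ i, z i * v' i + b * ∑ i, z i * w i := by
      rw [Finset.mul_sum, Finset.mul_sum, ← Finset.sum_add_distrib]
      refine Finset.sum_congr rfl fun i _ => ?_
      simp only [Pi.add_apply, Pi.smul_apply, smul_eq_mul]
      ring
    rw [this, hv', hw, mul_zero, mul_zero, add_zero]
  have key : ∀ v' : Fin n → ℝ, ∑ i, z i * v' i = 0 → g v' * D w ≤ g w * D v' := by
    intro v' hv'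
    by_contra hlt
    push Not at hlt
    -- `v' - (g v' / g w - ε) w`
    set ε : ℝ := (g v' * D w - g w * D v') / (2 * g w * D w) with hε
    have hεpos : 0 < ε := by
      rw [hε]
      exact div_pos (by linarith) (by positivity)
    have h1 := h ((1 : ℝ) • v' + (-(g v' / g w) + ε) • w) (hort _ _ _ hv') (by
      rw [ga, gs, gs]
      have : 1 * g v' + (-(g v' / g w) + ε) * g w = ε * g w := by
        field_simp
        ring
      rw [this]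
      positivity)
    rw [Da, Ds, Ds] at h1
    have h2 : 1 * D v' + (-(g v' / g w) + ε) * D w =
        -(g v' * D w - g w * D v') / (2 * g w) := by
      rw [hε]
      field_simp
      ring
    rw [h2] at h1
    have h3 : -(g v' * D w - g w * D v') / (2 * g w) < 0 :=
      div_neg_of_neg_of_pos (by linarith) (by linarith)
    linarith
  have h1 := key v hv
  have h2 := key ((-1 : ℝ) • v) (by
    have := hort (-1) 0 v hv
    simpa using this)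
  rw [gs, Ds] at h2
  have h3 : g v * D w = g w * D v := by linarith
  field_simp
  linarith

section Quad

variable {M0 M1 M2 : Matrix (Fin m) (Fin m) ℝ} {Mf Et : ℝ → Matrix (Fin m) (Fin m) ℝ}

theorem tendsto_quad {X : Type*} {G : Filter X} {A : X → Matrix (Fin m) (Fin m) ℝ}
    {A0 : Matrix (Fin m) (Fin m) ℝ} (hA : Tendsto A G (𝓝 A0)) (a b : Fin m → ℝ) :
    Tendsto (fun x => a ⬝ᵥ (A x *ᵥ b)) G (𝓝 (a ⬝ᵥ (A0 *ᵥ b))) := by
  have h1 : Continuous fun w : Matrix (Fin m) (Fin m) ℝ => a ⬝ᵥ (w *ᵥ b) :=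
    Continuous.dotProduct continuous_const
      (Continuous.matrix_mulVec continuous_id continuous_const)
  exact (h1.tendsto A0).comp hA

theorem alt_one (hM : ∀ᶠ t in 𝓝[>] (0 : ℝ), Mf t = M0 + t • M1 + t ^ 2 • Et t)
    (hE : Tendsto Et (𝓝[>] 0) (𝓝 M2)) {ξ : Fin m → ℝ} (hξ : M0 *ᵥ ξ = 0) {c : ℝ} (hc : 0 < c)
    (h : ∀ᶠ t in 𝓝[>] (0 : ℝ), c * t ≤ ξ ⬝ᵥ (Mf t *ᵥ ξ)) : 0 < ξ ⬝ᵥ (M1 *ᵥ ξ) := by
  have h1 : Tendsto (fun t : ℝ => ξ ⬝ᵥ (M1 *ᵥ ξ) + t * (ξ ⬝ᵥ (Et t *ᵥ ξ))) (𝓝[>] 0)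
      (𝓝 (ξ ⬝ᵥ (M1 *ᵥ ξ) + 0 * (ξ ⬝ᵥ (M2 *ᵥ ξ)))) :=
    tendsto_const_nhds.add ((tendsto_id.mono_left nhdsWithin_le_nhds).mul (tendsto_quad hE ξ ξ))
  rw [zero_mul, add_zero] at h1
  have h2 : c ≤ ξ ⬝ᵥ (M1 *ᵥ ξ) := by
    refine ge_of_tendsto h1 ?_
    filter_upwards [h, hM, self_mem_nhdsWithin] with t h3 h4 h5
    have h5 : (0 : ℝ) < t := h5
    rw [h4, Matrix.add_mulVec, Matrix.add_mulVec, Matrix.smul_mulVec, Matrix.smul_mulVec, hξ,
      zero_add, dotProduct_add, dotProduct_smul, dotProduct_smul, smul_eq_mul, smul_eq_mul] at h3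
    have h6 : 0 ≤ t * (ξ ⬝ᵥ (M1 *ᵥ ξ) + t * (ξ ⬝ᵥ (Et t *ᵥ ξ)) - c) := by nlinarith
    have := nonneg_of_mul_nonneg_right h6 h5
    linarith
  linarith

theorem pos_alt (hξ0 : M0.PosSemidef) {ξ : Fin m → ℝ} (hξ : M0 *ᵥ ξ = 0)
    (h : ξ ⬝ᵥ (M1 *ᵥ ξ) ≠ 0) : ∃ q : Fin m → ℝ,
      ξ ⬝ᵥ (M2 *ᵥ ξ) < 2 * (q ⬝ᵥ (M1 *ᵥ ξ)) - q ⬝ᵥ (M0 *ᵥ q) := by
  refine ⟨((|ξ ⬝ᵥ (M2 *ᵥ ξ)| + 1) / (ξ ⬝ᵥ (M1 *ᵥ ξ))) • ξ, ?_⟩
  rw [Matrix.mulVec_smul, hξ, smul_zero, dotProduct_zero, sub_zero, smul_dotProduct,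
    smul_eq_mul, div_mul_cancel₀ _ h]
  have := le_abs_self (ξ ⬝ᵥ (M2 *ᵥ ξ))
  have := abs_nonneg (ξ ⬝ᵥ (M2 *ᵥ ξ))
  linarith

theorem alt_two (hM : ∀ᶠ t in 𝓝[>] (0 : ℝ), Mf t = M0 + t • M1 + t ^ 2 • Et t)
    (hE : Tendsto Et (𝓝[>] 0) (𝓝 M2)) (h0 : M0.PosSemidef) (h1 : M1.IsSymm)
    {ξ η : Fin m → ℝ} (hξ : M0 *ᵥ ξ = 0) {c : ℝ} (hc : 0 < c)
    (h : ∀ᶠ t in 𝓝[>] (0 : ℝ), (ξ + t • η) ⬝ᵥ (Mf t *ᵥ (ξ + t • η)) ≤ -(c * t ^ 2)) :
    ∃ q : Fin m → ℝ,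
      ξ ⬝ᵥ (M2 *ᵥ ξ) < 2 * (q ⬝ᵥ (M1 *ᵥ ξ)) - q ⬝ᵥ (M0 *ᵥ q) := by
  by_cases hne : ξ ⬝ᵥ (M1 *ᵥ ξ) ≠ 0
  · exact pos_alt h0 hξ hne
  push Not at hne
  have sw0 : ∀ a b : Fin m → ℝ, a ⬝ᵥ (M0 *ᵥ b) = b ⬝ᵥ (M0 *ᵥ a) := herm_swap h0.1
  have h1' : M1.IsHermitian := by
    rw [Matrix.IsHermitian, Matrix.conjTranspose_eq_transpose_of_trivial]
    exact h1
  have sw1 : ∀ a b : Fin m → ℝ, a ⬝ᵥ (M1 *ᵥ b) = b ⬝ᵥ (M1 *ᵥ a) := herm_swap h1'
  have hlim : Tendsto (fun t : ℝ => (η ⬝ᵥ (M0 *ᵥ η) + 2 * (η ⬝ᵥ (M1 *ᵥ ξ)) +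
      ξ ⬝ᵥ (Et t *ᵥ ξ)) + t * (η ⬝ᵥ (M1 *ᵥ η) + η ⬝ᵥ (Et t *ᵥ ξ) + ξ ⬝ᵥ (Et t *ᵥ η) +
        t * (η ⬝ᵥ (Et t *ᵥ η)))) (𝓝[>] 0)
      (𝓝 ((η ⬝ᵥ (M0 *ᵥ η) + 2 * (η ⬝ᵥ (M1 *ᵥ ξ)) + ξ ⬝ᵥ (M2 *ᵥ ξ)) +
        0 * (η ⬝ᵥ (M1 *ᵥ η) + η ⬝ᵥ (M2 *ᵥ ξ) + ξ ⬝ᵥ (M2 *ᵥ η) +
        0 * (η ⬝ᵥ (M2 *ᵥ η))))) := by
    have tid : Tendsto (fun t : ℝ => t) (𝓝[>] 0) (𝓝 0) :=
      tendsto_id.mono_left nhdsWithin_le_nhds
    exact (tendsto_const_nhds.add (tendsto_quad hE ξ ξ)).add (tid.mul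
      (((tendsto_const_nhds.add (tendsto_quad hE η ξ)).add (tendsto_quad hE ξ η)).add
        (tid.mul (tendsto_quad hE η η))))
  rw [zero_mul, add_zero] at hlim
  have h2 : (η ⬝ᵥ (M0 *ᵥ η) + 2 * (η ⬝ᵥ (M1 *ᵥ ξ)) + ξ ⬝ᵥ (M2 *ᵥ ξ)) ≤ -c := by
    refine le_of_tendsto hlim ?_
    filter_upwards [h, hM, self_mem_nhdsWithin] with t h3 h4 h5
    have h5 : (0 : ℝ) < t := h5
    have e1 : (ξ + t • η) ⬝ᵥ (Mf t *ᵥ (ξ + t • η)) = t ^ 2 * ((η ⬝ᵥ (M0 *ᵥ η) +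
        2 * (η ⬝ᵥ (M1 *ᵥ ξ)) + ξ ⬝ᵥ (Et t *ᵥ ξ)) + t * (η ⬝ᵥ (M1 *ᵥ η) + η ⬝ᵥ (Et t *ᵥ ξ) +
        ξ ⬝ᵥ (Et t *ᵥ η) + t * (η ⬝ᵥ (Et t *ᵥ η)))) := by
      rw [h4]
      simp only [Matrix.add_mulVec, Matrix.smul_mulVec, Matrix.mulVec_add, Matrix.mulVec_smul,
        dotProduct_add, add_dotProduct, smul_dotProduct, dotProduct_smul, smul_eq_mul, hξ,
        dotProduct_zero, hne, sw0 ξ η, sw1 ξ η]
      ring
    rw [e1] at h3
    have h6 : t ^ 2 * ((η ⬝ᵥ (M0 *ᵥ η) +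
        2 * (η ⬝ᵥ (M1 *ᵥ ξ)) + ξ ⬝ᵥ (Et t *ᵥ ξ)) + t * (η ⬝ᵥ (M1 *ᵥ η) + η ⬝ᵥ (Et t *ᵥ ξ) +
        ξ ⬝ᵥ (Et t *ᵥ η) + t * (η ⬝ᵥ (Et t *ᵥ η)))) ≤ t ^ 2 * (-c) := by linarith
    exact le_of_mul_le_mul_left h6 (by positivity)
  refine ⟨(-1 : ℝ) • η, ?_⟩
  rw [Matrix.mulVec_smul, smul_dotProduct, smul_dotProduct, dotProduct_smul, smul_eq_mul,
    smul_eq_mul, smul_eq_mul]
  linarith

end Quad

/-- strictness in terms of the derivatives at `z` -/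
theorem strict_pos {M : (Fin n → ℝ) → Matrix (Fin m) (Fin m) ℝ}
    {Φ : (Fin n → ℝ) → (Fin N → ℝ)} {P : Fin N → MvPolynomial (Fin n ⊕ Fin N) ℝ}
    {Q : Fin m → Fin m → MvPolynomial (Fin n ⊕ Fin N) ℝ} {c : Fin n ⊕ Fin N → ℝ}
    (hcd : c = Sum.elim z (Φ z)) (hc : ContinuousAt Φ z)
    (heq : ∀ᶠ x in 𝓝 z, ∀ j, eval (Sum.elim x (Φ x)) (P j) = 0) (hJ : (Jm P c).det ≠ 0)
    (hM : ∀ᶠ x in 𝓝 z, ∀ i j, M x i j = eval (Sum.elim x (Φ x)) (Q i j))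
    (hsym : ∀ᶠ x in 𝓝 z, (M x).IsSymm) (h0 : (Mt Q c).PosSemidef) {ξ : Fin m → ℝ}
    (hξ : Mt Q c *ᵥ ξ = 0) {δ : Fin n → ℝ} :
    ((∃ b : ℝ, 0 < b ∧ ∀ᶠ t in 𝓝[>] (0 : ℝ), b * t ≤ ξ ⬝ᵥ (M (z + t • δ) *ᵥ ξ)) →
      0 < ∑ i, ∑ j, Dq (Q i j) c (tau P c δ) * ξ i * ξ j) ∧
    ((∃ b : ℝ, 0 < b ∧ ∀ᶠ t in 𝓝[>] (0 : ℝ), b * t ≤ ξ ⬝ᵥ (M (z + t • δ) *ᵥ ξ)) ∨
      (∃ b : ℝ, 0 < b ∧ ∃ η : Fin m → ℝ, ∀ᶠ t in 𝓝[>] (0 : ℝ),
        (ξ + t • η) ⬝ᵥ (M (z + t • δ) *ᵥ (ξ + t • η)) ≤ -(b * t ^ 2)) →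
      ∃ q : Fin m → ℝ, ∑ i, ∑ j, ξ i * ξ j * D2q P (Q i j) c (tau P c δ) <
        2 * ∑ i, q i * ∑ j, Dq (Q i j) c (tau P c δ) * ξ j -
          ∑ i, ∑ j, Mt Q c i j * q i * q j) := by
  subst hcd
  set c : Fin n ⊕ Fin N → ℝ := Sum.elim z (Φ z) with hcd
  set M1 : Matrix (Fin m) (Fin m) ℝ := Matrix.of fun i j => Dq (Q i j) c (tau P c δ) with hM1
  set M2 : Matrix (Fin m) (Fin m) ℝ := Matrix.of fun i j => D2q P (Q i j) c (tau P c δ) with hM2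
  set Et : ℝ → Matrix (Fin m) (Fin m) ℝ := fun t =>
    Matrix.of fun i j => (M (z + t • δ) i j - Mt Q c i j - t * M1 i j) / t ^ 2 with hEt
  have hMl : ∀ᶠ t in 𝓝[>] (0 : ℝ), ∀ i j, M (z + t • δ) i j =
      eval (Sum.elim (z + t • δ) (Φ (z + t • δ))) (Q i j) := (tendsto_line z δ).eventually hM
  have hexp : ∀ᶠ t in 𝓝[>] (0 : ℝ), M (z + t • δ) = Mt Q c + t • M1 + t ^ 2 • Et t := by
    filter_upwards [self_mem_nhdsWithin] with t ht
    have ht : (0 : ℝ) < t := ht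
    ext i j
    simp only [hEt, Matrix.add_apply, Matrix.smul_apply, Matrix.of_apply, smul_eq_mul]
    field_simp
    ring
  have hE : Tendsto Et (𝓝[>] 0) (𝓝 M2) := by
    refine tendsto_pi_nhds.2 fun i => tendsto_pi_nhds.2 fun j => ?_
    refine (der_second hc heq hJ δ (Q i j)).congr' ?_
    filter_upwards [hMl] with t ht
    simp only [hEt, hM1, Matrix.of_apply, ht i j, Mt, hcd]
  have hsymm : M1.IsSymm := by
    ext i j
    rw [Matrix.transpose_apply]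
    have h1 := der_first hc heq hJ δ (Q i j)
    have h2 := der_first hc heq hJ δ (Q j i)
    refine tendsto_nhds_unique h2 (h1.congr' ?_)
    filter_upwards [hMl, (tendsto_line z δ).eventually hsym] with t ht hs
    have e1 : M (z + t • δ) i j = M (z + t • δ) j i := by
      have := congrFun (congrFun hs j) i
      rwa [Matrix.transpose_apply] at this
    have e2 : eval (Sum.elim z (Φ z)) (Q i j) = eval (Sum.elim z (Φ z)) (Q j i) := by
      rw [← hM.self_of_nhds i j, ← hM.self_of_nhds j i]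
      have := congrFun (congrFun hsym.self_of_nhds j) i
      rwa [Matrix.transpose_apply] at this
    rw [← ht i j, ← ht j i, e1, e2]
  have e1 : ∑ i, ∑ j, Dq (Q i j) c (tau P c δ) * ξ i * ξ j = ξ ⬝ᵥ (M1 *ᵥ ξ) := by
    rw [dot_mulVec_eq]
    rfl
  have e2 : ∑ i, ∑ j, ξ i * ξ j * D2q P (Q i j) c (tau P c δ) = ξ ⬝ᵥ (M2 *ᵥ ξ) := by
    rw [dot_mulVec_eq]
    refine Finset.sum_congr rfl fun i _ => Finset.sum_congr rfl fun j _ => ?_
    simp only [hM2, Matrix.of_apply]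
    ring
  have e3 : ∀ q : Fin m → ℝ, ∑ i, q i * ∑ j, Dq (Q i j) c (tau P c δ) * ξ j =
      q ⬝ᵥ (M1 *ᵥ ξ) := fun q => rfl
  have e4 : ∀ q : Fin m → ℝ, ∑ i, ∑ j, Mt Q c i j * q i * q j = q ⬝ᵥ (Mt Q c *ᵥ q) :=
    fun q => (dot_mulVec_eq _ _ _).symm
  simp only [e1, e2, e3, e4]
  refine ⟨fun ⟨b, hb, h⟩ => alt_one (Mf := fun t => M (z + t • δ)) hexp hE hξ hb h, ?_⟩
  rintro (⟨b, hb, h⟩ | ⟨b, hb, η, h⟩)
  · exact pos_alt h0 hξ (alt_one (Mf := fun t => M (z + t • δ)) hexp hE hξ hb h).ne'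
  · exact alt_two (Mf := fun t => M (z + t • δ)) hexp hE h0 hsymm hξ hb h

/-- the normalisation `⟨z, y⟩ = 1` -/
noncomputable def sc (z y : Fin n → ℝ) : Fin n → ℝ := (∑ i, z i * y i)⁻¹ • y

theorem tendsto_sc (hz : ∑ i, z i ^ 2 = 1) :
    Tendsto (fun y => ∑ i, z i * y i) (𝓝 z) (𝓝 1) ∧ Tendsto (sc z) (𝓝 z) (𝓝 z) := by
  have h1 : Continuous fun y : Fin n → ℝ => ∑ i, z i * y i := by fun_prop
  have h2 : ∑ i, z i * z i = 1 := by
    rw [← hz]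
    exact Finset.sum_congr rfl fun i _ => (sq (z i)).symm
  have h3 : Tendsto (fun y => ∑ i, z i * y i) (𝓝 z) (𝓝 1) := by
    have := h1.tendsto z
    rwa [h2] at this
  refine ⟨h3, ?_⟩
  have h4 := (h3.inv₀ one_ne_zero).smul (tendsto_id (x := 𝓝 z))
  have h5 : sc z = fun x => (∑ i, z i * x i)⁻¹ • x := rfl
  rw [h5]
  simpa using h4

theorem sc_slice {y : Fin n → ℝ} (hy : ∑ i, z i * y i ≠ 0) : ∑ i, z i * sc z y i = 1 := by
  have : ∑ i, z i * sc z y i = (∑ i, z i * y i)⁻¹ * ∑ i, z i * y i := by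
    rw [Finset.mul_sum]
    refine Finset.sum_congr rfl fun i _ => ?_
    simp only [sc, Pi.smul_apply, smul_eq_mul]
    ring
  rw [this, inv_mul_cancel₀ hy]

theorem exists_unit_ker (A : Matrix (Fin m) (Fin m) ℝ) :
    ∃ ξ : Fin m → ℝ, A.det = 0 → A *ᵥ ξ = 0 ∧ ∑ i, ξ i ^ 2 = 1 := by
  by_cases h : A.det = 0
  · obtain ⟨v, hv0, hv⟩ := Matrix.exists_mulVec_eq_zero_iff.2 h
    have h1 : 0 < ∑ i, v i ^ 2 := by
      obtain ⟨i, hi⟩ := Function.ne_iff.1 hv0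
      have hi : v i ≠ 0 := by simpa using hi
      have h2 : v i ^ 2 ≤ ∑ j, v j ^ 2 :=
        Finset.single_le_sum (f := fun j => v j ^ 2) (fun j _ => sq_nonneg _)
          (Finset.mem_univ i)
      have h3 : 0 < v i ^ 2 := by positivity
      linarith
    refine ⟨(Real.sqrt (∑ i, v i ^ 2))⁻¹ • v, fun _ => ⟨?_, ?_⟩⟩
    · rw [Matrix.mulVec_smul, hv, smul_zero]
    · have h2 : ∑ i, ((Real.sqrt (∑ i, v i ^ 2))⁻¹ • v) i ^ 2 =
          ((Real.sqrt (∑ i, v i ^ 2))⁻¹) ^ 2 * ∑ i, v i ^ 2 := by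
        rw [Finset.mul_sum]
        refine Finset.sum_congr rfl fun i _ => ?_
        rw [Pi.smul_apply, smul_eq_mul, mul_pow]
      rw [h2, inv_pow, Real.sq_sqrt h1.le, inv_mul_cancel₀ h1.ne']
  · exact ⟨0, fun h' => absurd h' h⟩

/-- the functional of the pencil at a smooth boundary point -/
noncomputable def Dfun (P : Fin N → MvPolynomial (Fin n ⊕ Fin N) ℝ)
    (Q : Fin m → Fin m → MvPolynomial (Fin n ⊕ Fin N) ℝ) (u : Fin n ⊕ Fin N → ℝ)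
    (ξ : Fin m → ℝ) (v : Fin n → ℝ) : ℝ :=
  ∑ i, ∑ j, Dq (Q i j) u (tau P u v) * ξ i * ξ j

theorem Dfun_add (P : Fin N → MvPolynomial (Fin n ⊕ Fin N) ℝ)
    (Q : Fin m → Fin m → MvPolynomial (Fin n ⊕ Fin N) ℝ) (u : Fin n ⊕ Fin N → ℝ)
    (ξ : Fin m → ℝ) (v w : Fin n → ℝ) :
    Dfun P Q u ξ (v + w) = Dfun P Q u ξ v + Dfun P Q u ξ w := by
  simp only [Dfun, tau_add, Dq_add, add_mul, Finset.sum_add_distrib]

theorem Dfun_smul (P : Fin N → MvPolynomial (Fin n ⊕ Fin N) ℝ)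
    (Q : Fin m → Fin m → MvPolynomial (Fin n ⊕ Fin N) ℝ) (u : Fin n ⊕ Fin N → ℝ)
    (ξ : Fin m → ℝ) (r : ℝ) (v : Fin n → ℝ) :
    Dfun P Q u ξ (r • v) = r * Dfun P Q u ξ v := by
  simp only [Dfun, tau_smul, Dq_smul, Finset.mul_sum]
  refine Finset.sum_congr rfl fun _ _ => Finset.sum_congr rfl fun _ _ => ?_
  ring

/-- the functional is nonnegative on inner directions -/
theorem Dfun_nonneg (hp : IsHyperbolic p e) {M : (Fin n → ℝ) → Matrix (Fin m) (Fin m) ℝ}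
    {Φ : (Fin n → ℝ) → (Fin N → ℝ)} {P : Fin N → MvPolynomial (Fin n ⊕ Fin N) ℝ}
    {Q : Fin m → Fin m → MvPolynomial (Fin n ⊕ Fin N) ℝ} {y : Fin n → ℝ}
    (hc : ContinuousAt Φ y)
    (heq : ∀ᶠ x in 𝓝 y, ∀ j, eval (Sum.elim x (Φ x)) (P j) = 0)
    (hJ : (Jm P (Sum.elim y (Φ y))).det ≠ 0)
    (hM : ∀ᶠ x in 𝓝 y, ∀ i j, M x i j = eval (Sum.elim x (Φ x)) (Q i j))
    (hpsd : ∀ᶠ x in 𝓝 y, x ∈ hypCone p e → (M x).PosSemidef)
    (hy : y ∈ hypCone p e) (hy0 : eval y p = 0) (hs : 0 < dd p y e) {ξ : Fin m → ℝ}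
    (hξ : M y *ᵥ ξ = 0) {v : Fin n → ℝ} (hv : 0 < dd p y v) :
    0 ≤ Dfun P Q (Sum.elim y (Φ y)) ξ v := by
  have h1 : Tendsto (fun t : ℝ => ∑ i, ∑ j,
      ((eval (Sum.elim (y + t • v) (Φ (y + t • v))) (Q i j) -
        eval (Sum.elim y (Φ y)) (Q i j)) / t) * ξ i * ξ j) (𝓝[>] 0)
      (𝓝 (Dfun P Q (Sum.elim y (Φ y)) ξ v)) :=
    tendsto_finset_sum _ fun i _ => tendsto_finset_sum _ fun j _ =>
      ((der_first hc heq hJ v (Q i j)).mul_const _).mul_const _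
  refine ge_of_tendsto h1 ?_
  filter_upwards [enter hp hy hy0 hs hv, (tendsto_line y v).eventually hM,
    (tendsto_line y v).eventually hpsd, self_mem_nhdsWithin] with t h2 h3 h4 h5
  have h5 : (0 : ℝ) < t := h5
  have h6 := psd_nonneg (h4 h2) ξ
  rw [dot_mulVec_eq] at h6
  have h7 : ∑ i, ∑ j, M y i j * ξ i * ξ j = 0 := by
    rw [← dot_mulVec_eq, hξ, dotProduct_zero]
  have h8 : ∑ i, ∑ j, ((eval (Sum.elim (y + t • v) (Φ (y + t • v))) (Q i j) -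
      eval (Sum.elim y (Φ y)) (Q i j)) / t) * ξ i * ξ j =
      (∑ i, ∑ j, M (y + t • v) i j * ξ i * ξ j - ∑ i, ∑ j, M y i j * ξ i * ξ j) / t := by
    rw [← Finset.sum_sub_distrib, Finset.sum_div]
    refine Finset.sum_congr rfl fun i _ => ?_
    rw [← Finset.sum_sub_distrib, Finset.sum_div]
    refine Finset.sum_congr rfl fun j _ => ?_
    rw [h3 i j, hM.self_of_nhds i j]
    ring
  rw [h8, h7, sub_zero]
  exact div_nonneg h6 h5.le

theorem tendsto_Dfun {L : Type*} {F : Filter L}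
    {P : Fin N → MvPolynomial (Fin n ⊕ Fin N) ℝ}
    {Q : Fin m → Fin m → MvPolynomial (Fin n ⊕ Fin N) ℝ} {c : Fin n ⊕ Fin N → ℝ}
    {u : L → Fin n ⊕ Fin N → ℝ} (tu : Tendsto u F (𝓝 c)) (hJ : (Jm P c).det ≠ 0)
    {ξ : L → Fin m → ℝ} {ξ0 : Fin m → ℝ} (tξ : ∀ i, Tendsto (fun l => ξ l i) F (𝓝 (ξ0 i)))
    {v : L → Fin n → ℝ} {v0 : Fin n → ℝ} (tv : Tendsto v F (𝓝 v0)) :
    Tendsto (fun l => Dfun P Q (u l) (ξ l) (v l)) F (𝓝 (Dfun P Q c ξ0 v0)) := by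
  have tva : ∀ a, Tendsto (fun l => v l a) F (𝓝 (v0 a)) := fun a =>
    ((continuous_apply a).tendsto v0).comp tv
  have te : ∀ R : MvPolynomial (Fin n ⊕ Fin N) ℝ, Tendsto (fun l => eval (u l) R) F
      (𝓝 (eval c R)) := fun R => ((MvPolynomial.continuous_eval R).tendsto c).comp tu
  have tt : ∀ s, Tendsto (fun l => tau P (u l) (v l) s) F (𝓝 (tau P c v0 s)) := by
    intro s
    rcases s with a | k
    · exact tva a
    · refine Tendsto.neg (tendsto_finset_sum _ fun j _ => ?_)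
      exact (tendsto_inv_entry tu hJ k j).mul
        (tendsto_finset_sum _ fun a _ => (te _).mul (tva a))
  exact tendsto_finset_sum _ fun i _ => tendsto_finset_sum _ fun j _ =>
    ((tendsto_finset_sum _ fun s _ => (te _).mul (tt s)).mul (tξ i)).mul (tξ j)

/-- **Strict local pencils.** -/
theorem pencil_sosF (hp : IsHyperbolic p e) (hz : z ∈ bdT p e) (hP : PencilAt p e z)
    (U V : Ultrafilter (Fin n → ℝ)) (hU : (U : Filter (Fin n → ℝ)) ≤ 𝓝 z)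
    (hV : (V : Filter (Fin n → ℝ)) ≤ 𝓝 z) (sU : smT p e ∈ U) (sV : smT p e ∈ V) :
    SosF (U : Filter (Fin n → ℝ)) (V : Filter (Fin n → ℝ)) (fun y x => dd p y x) := by
  classical
  obtain ⟨d, hd⟩ := hp.1
  obtain ⟨m, M, ⟨N, Φ, P, Q, hΦ, heq, hJ, hM⟩, hsym, hpsd, hdet, hstrict⟩ := hP
  obtain ⟨ta, ts⟩ := tendsto_sc hz.2.2
  set c : Fin n ⊕ Fin N → ℝ := Sum.elim z (Φ z) with hcd
  have hJ : (Jm P c).det ≠ 0 := hJ
  have hMz : M z = Mt Q c := by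
    ext i j
    rw [hM.self_of_nhds i j]
    rfl
  have hM0 : (Mt Q c).PosSemidef := by
    rw [← hMz]
    exact hpsd.self_of_nhds hz.1
  let u : (Fin n → ℝ) → Fin n ⊕ Fin N → ℝ := fun y => Sum.elim (sc z y) (Φ (sc z y))
  have tu : Tendsto u (𝓝 z) (𝓝 c) := (tendsto_psi hΦ.self_of_nhds).comp ts
  have hapos : ∀ᶠ y in 𝓝 z, 0 < ∑ i, z i * y i := ta.eventually (lt_mem_nhds one_pos)
  -- good points
  have hMu : ∀ᶠ y in 𝓝 z, M (sc z y) = Mt Q (u y) := by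
    filter_upwards [ts.eventually hM] with y hy
    ext i j
    rw [hy i j]
    rfl
  have hscK : ∀ y : Fin n → ℝ, 0 < ∑ i, z i * y i → y ∈ smT p e → sc z y ∈ hypCone p e ∧
      eval (sc z y) p = 0 ∧ 0 < dd p (sc z y) e := by
    intro y h1 h2
    refine ⟨K_smul hp h2.1.1 (inv_nonneg.2 h1.le), ?_, ?_⟩
    · rw [sc, eval_smul' hd, h2.1.2.1, mul_zero]
    · rw [sc, dd_smul_left hd]
      exact mul_pos (pow_pos (inv_pos.2 h1) _) h2.2
  have hdet' : ∀ᶠ y in 𝓝 z, y ∈ smT p e → (M (sc z y)).det = 0 := by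
    filter_upwards [hapos, ts.eventually hdet] with y h1 h2 h3
    obtain ⟨h4, h5, h6⟩ := hscK y h1 h3
    exact h2 h4 h5 (smooth_of_dd_pos h6.ne')
  -- kernel vectors
  choose ξ hξ using fun y : Fin n → ℝ => exists_unit_ker (M (sc z y))
  have hsm : ∀ᶠ y in (U : Filter (Fin n → ℝ)), y ∈ smT p e := sU
  have haU : ∀ᶠ y in (U : Filter (Fin n → ℝ)), 0 < ∑ i, z i * y i := hU hapos
  have hsmV : ∀ᶠ y in (V : Filter (Fin n → ℝ)), y ∈ smT p e := sV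
  have hξU : ∀ᶠ y in (U : Filter (Fin n → ℝ)), M (sc z y) *ᵥ ξ y = 0 ∧ ∑ i, ξ y i ^ 2 = 1 := by
    filter_upwards [hsm, hU hdet'] with y h1 h2 using hξ y (h2 h1)
  have hb : ∀ i, ∀ᶠ y in (U : Filter (Fin n → ℝ)), |ξ y i| ≤ 1 := by
    intro i
    filter_upwards [hξU] with y hy
    rw [abs_le_one_iff_mul_self_le_one]
    have h1 : ξ y i ^ 2 ≤ ∑ j, ξ y j ^ 2 :=
      Finset.single_le_sum (f := fun j => ξ y j ^ 2) (fun j _ => sq_nonneg _)
        (Finset.mem_univ i)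
    nlinarith [hy.2]
  choose ξ0 _ tξ using fun i => exists_tendsto U (hb i)
  have hnorm0 : ∑ i, ξ0 i ^ 2 = 1 := by
    have h1 : Tendsto (fun y => ∑ i, ξ y i ^ 2) (U : Filter (Fin n → ℝ))
        (𝓝 (∑ i, ξ0 i ^ 2)) := tendsto_finset_sum _ fun i _ => (tξ i).pow 2
    refine tendsto_nhds_unique h1 (Tendsto.congr' ?_ tendsto_const_nhds)
    filter_upwards [hξU] with y hy
    exact hy.2.symm
  have hξne : ξ0 ≠ 0 := by
    rintro rfl
    simp at hnorm0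
  have hker : ∀ᶠ y in (U : Filter (Fin n → ℝ)), Mt Q (u y) *ᵥ ξ y = 0 := by
    filter_upwards [hξU, hU hMu] with y h1 h2
    rw [← h2]
    exact h1.1
  have hker0 : Mt Q c *ᵥ ξ0 = 0 := by
    funext i
    have h1 : Tendsto (fun y => (Mt Q (u y) *ᵥ ξ y) i) (U : Filter (Fin n → ℝ))
        (𝓝 ((Mt Q c *ᵥ ξ0) i)) := by
      simp only [Mt, Matrix.mulVec, dotProduct, Matrix.of_apply]
      exact tendsto_finset_sum _ fun j _ =>
        (((MvPolynomial.continuous_eval (Q i j)).tendsto c).comp (tu.mono_left hU)).mul (tξ j)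
    refine tendsto_nhds_unique h1 (Tendsto.congr' ?_ tendsto_const_nhds)
    filter_upwards [hker] with y hy
    rw [hy]
  have hlim : LimKer p e z M ξ0 := by
    intro ε hε
    have h1 : ∀ᶠ y in (U : Filter (Fin n → ℝ)), ∀ i, |sc z y i - z i| < ε := by
      rw [eventually_all]
      intro i
      have h2 : Tendsto (fun y => |sc z y i - z i|) (U : Filter (Fin n → ℝ)) (𝓝 |z i - z i|) :=
        ((((continuous_apply i).tendsto z).comp (ts.mono_left hU)).sub_const _).abs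
      rw [sub_self, abs_zero] at h2
      exact h2.eventually (gt_mem_nhds hε)
    have h2 : ∀ᶠ y in (U : Filter (Fin n → ℝ)), ∀ i, |ξ y i - ξ0 i| < ε := by
      rw [eventually_all]
      intro i
      have h2 : Tendsto (fun y => |ξ y i - ξ0 i|) (U : Filter (Fin n → ℝ)) (𝓝 |ξ0 i - ξ0 i|) :=
        ((tξ i).sub_const _).abs
      rw [sub_self, abs_zero] at h2
      exact h2.eventually (gt_mem_nhds hε)
    obtain ⟨y, h3, h4, h5, h6, h7⟩ := (h1.and (h2.and (hsm.and (haU.and hξU)))).exists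
    obtain ⟨k1, k2, k3⟩ := hscK y h6 h5
    exact ⟨sc z y, k1, k2, smooth_of_dd_pos k3.ne', h3, ξ y, h7.1, h4⟩
  -- strictness at `z`
  have hst := fun (δ : Fin n → ℝ) => strict_pos (δ := δ) hcd hΦ.self_of_nhds heq hJ hM hsym hM0
    hker0
  -- the direction of `e`
  set r : ℝ := ∑ i, z i * e i with hr
  have hzz : ∑ i, z i * z i = 1 := by
    rw [← hz.2.2]
    exact Finset.sum_congr rfl fun i _ => (sq (z i)).symm
  set δe : Fin n → ℝ := e - r • z with hδe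
  have hδe0 : ∑ i, z i * δe i = 0 := by
    have : ∑ i, z i * δe i = ∑ i, z i * e i - r * ∑ i, z i * z i := by
      rw [Finset.mul_sum, ← Finset.sum_sub_distrib]
      refine Finset.sum_congr rfl fun i _ => ?_
      simp only [hδe, Pi.sub_apply, Pi.smul_apply, smul_eq_mul]
      ring
    rw [this, hzz, ← hr]; ring
  have hδene : δe ≠ 0 := by
    intro h
    have h1 : e = r • z := sub_eq_zero.1 h
    have h2 := hp.2.1
    rw [h1, eval_smul' hd, hz.2.1, mul_zero] at h2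
    exact lt_irrefl _ h2
  have hDe : 0 < Dfun P Q c ξ0 δe := by
    refine (hst δe).1 ?_
    rcases hstrict ξ0 hξne hlim δe hδene hδe0 with h | ⟨b, hb, η, h⟩
    · exact h
    · exfalso
      have h1 : ∀ᶠ t in 𝓝[>] (0 : ℝ), 0 < 1 - t * r := by
        have h2 : Tendsto (fun t : ℝ => 1 - t * r) (𝓝[>] 0) (𝓝 (1 - 0 * r)) :=
          ((continuous_const.sub (continuous_id.mul continuous_const)).tendsto 0).mono_left
            nhdsWithin_le_nhds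
        rw [zero_mul, sub_zero] at h2
        exact h2.eventually (lt_mem_nhds one_pos)
      obtain ⟨t, k1, k2, k3, k4⟩ := (h.and (h1.and (((tendsto_line z δe).eventually hpsd).and
        (self_mem_nhdsWithin : ∀ᶠ t in 𝓝[>] (0 : ℝ), t ∈ Set.Ioi (0 : ℝ))))).exists
      have k4 : (0 : ℝ) < t := k4
      have k5 : z + t • δe ∈ hypCone p e := by
        have : z + t • δe = (1 - t * r) • z + t • e := by
          rw [hδe]; module
        rw [this]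
        exact K_add hp (K_smul hp hz.1 k2.le) (K_smul hp ((e_inOpen hp).mem hp) k4.le)
      have k6 := psd_nonneg (k3 k5) (ξ0 + t • η)
      have k7 : 0 < b * t ^ 2 := by positivity
      linarith
  -- the direction at `y`
  have tδ : Tendsto (fun y => e - r • sc z y) (U : Filter (Fin n → ℝ)) (𝓝 δe) :=
    tendsto_const_nhds.sub ((ts.mono_left hU).const_smul r)
  have hDy : ∀ᶠ y in (U : Filter (Fin n → ℝ)), 0 < Dfun P Q (u y) (ξ y) (e - r • sc z y) :=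
    (tendsto_Dfun (tu.mono_left hU) hJ tξ tδ).eventually (lt_mem_nhds hDe)
  -- the core
  have hcore := core (P := P) (Q := Q) hJ (tu.mono_left hU) (tu.mono_left hV)
    (hU (ts.eventually heq)) (hV (ts.eventually heq)) (z := z) (κ := 1)
    (by filter_upwards [hU hapos] with y hy using sc_slice hy.ne')
    (by filter_upwards [hV hapos] with y hy using sc_slice hy.ne')
    tξ hker (by
      filter_upwards [hV hMu, hV (ts.eventually hpsd), hV hapos, hsmV] with x h1 h2 h3 h4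
      rw [← h1]
      exact h2 (hscK x h3 h4).1) hM0
    (fun δ hδ hδ0 => (hst δ).2 (hstrict ξ0 hξne hlim δ hδ hδ0))
  -- conclusion
  have hl : SosF (U : Filter (Fin n → ℝ)) (V : Filter (Fin n → ℝ)) (fun y (_ : Fin n → ℝ) =>
      (∑ i, z i * y i) ^ (d - 1) * (dd p (sc z y) (e - r • sc z y) /
        Dfun P Q (u y) (ξ y) (e - r • sc z y))) := by
    refine SosF.left ?_
    filter_upwards [hU hapos, hsm, hDy] with y h1 h2 h3
    obtain ⟨k1, k2, k3⟩ := hscK y h1 h2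
    have k4 : dd p (sc z y) (e - r • sc z y) = dd p (sc z y) e := by
      rw [dd_sub, dd_smul, dd_euler hd, k2]; ring
    rw [k4]
    exact mul_nonneg (pow_nonneg h1.le _) (div_nonneg k3.le h3.le)
  have hr' : SosF (U : Filter (Fin n → ℝ)) (V : Filter (Fin n → ℝ)) (fun (_ : Fin n → ℝ) x =>
      ∑ i, z i * x i) := SosF.right (by filter_upwards [hV hapos] with x hx using hx.le)
  refine ((hl.mul hcore).mul hr').congr ?_
  have hgood : ∀ᶠ y in 𝓝 z, ContinuousAt Φ (sc z y) ∧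
      (∀ᶠ x in 𝓝 (sc z y), ∀ j, eval (Sum.elim x (Φ x)) (P j) = 0) ∧
      (∀ᶠ x in 𝓝 (sc z y), ∀ i j, M x i j = eval (Sum.elim x (Φ x)) (Q i j)) ∧
      (∀ᶠ x in 𝓝 (sc z y), x ∈ hypCone p e → (M x).PosSemidef) ∧
      (Jm P (u y)).det ≠ 0 := by
    filter_upwards [ts.eventually hΦ, ts.eventually (eventually_eventually_nhds.2 heq),
      ts.eventually (eventually_eventually_nhds.2 hM),
      ts.eventually (eventually_eventually_nhds.2 hpsd), eventually_det tu hJ]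
      with y h1 h2 h3 h4 h5 using ⟨h1, h2, h3, h4, h5⟩
  refine EqF.of_eventually (fun y => (0 < ∑ i, z i * y i) ∧ y ∈ smT p e ∧
    (0 < Dfun P Q (u y) (ξ y) (e - r • sc z y)) ∧ (M (sc z y) *ᵥ ξ y = 0) ∧
      (ContinuousAt Φ (sc z y) ∧
      (∀ᶠ x in 𝓝 (sc z y), ∀ j, eval (Sum.elim x (Φ x)) (P j) = 0) ∧
      (∀ᶠ x in 𝓝 (sc z y), ∀ i j, M x i j = eval (Sum.elim x (Φ x)) (Q i j)) ∧
      (∀ᶠ x in 𝓝 (sc z y), x ∈ hypCone p e → (M x).PosSemidef) ∧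
      (Jm P (u y)).det ≠ 0)) (fun x => 0 < ∑ i, z i * x i)
    (haU.and (hsm.and (hDy.and ((hξU.mono fun y hy => hy.1).and (hU hgood)))))
    (hV hapos) ?_
  rintro y x ⟨y1, y2, y3, y4, y5, y6, y7, y8, y9⟩ x1
  obtain ⟨k1, k2, k3⟩ := hscK y y1 y2
  have k4 : dd p (sc z y) (e - r • sc z y) = dd p (sc z y) e := by
    rw [dd_sub, dd_smul, dd_euler hd, k2]; ring
  have hy' : y = (∑ i, z i * y i) • sc z y := by
    rw [sc, smul_smul, mul_inv_cancel₀ y1.ne', one_smul]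
  have hx' : x = (∑ i, z i * x i) • sc z x := by
    rw [sc, smul_smul, mul_inv_cancel₀ x1.ne', one_smul]
  have hslice : ∀ v w : Fin n → ℝ, ∑ i, z i * v i = 1 → ∑ i, z i * w i = 1 →
      ∑ i, z i * (v - w) i = 0 := by
    intro v w hv hw
    simp only [Pi.sub_apply, mul_sub, Finset.sum_sub_distrib, hv, hw, sub_self]
  have hdir : ∑ i, z i * (e - r • sc z y) i = 0 := by
    have : ∑ i, z i * (e - r • sc z y) i = ∑ i, z i * e i - r * ∑ i, z i * sc z y i := by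
      rw [Finset.mul_sum, ← Finset.sum_sub_distrib]
      refine Finset.sum_congr rfl fun i _ => ?_
      simp only [Pi.sub_apply, Pi.smul_apply, smul_eq_mul]
      ring
    rw [this, sc_slice y1.ne', ← hr]; ring
  have hprop := prop_on (g := fun v => dd p (sc z y) v) (D := fun v => Dfun P Q (u y) (ξ y) v)
    (dd_add p _) (dd_smul p _) (Dfun_add P Q _ _) (Dfun_smul P Q _ _) z
    (fun v _ hv => Dfun_nonneg hp y5 y6 y9 y7 y8 k1 k2 k3 y4 hv) hdir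
    (by show 0 < dd p (sc z y) (e - r • sc z y); rw [k4]; exact k3) y3
    (hslice _ _ (sc_slice x1.ne') (sc_slice y1.ne'))
  have e1 : dd p y x = (∑ i, z i * y i) ^ (d - 1) * dd p (sc z y) (sc z x) *
      (∑ i, z i * x i) := by
    conv_lhs => rw [hy', hx']
    exact dd_smul_smul hd _ _ _ _
  have e2 : dd p (sc z y) (sc z x) = dd p (sc z y) (sc z x - sc z y) := by
    rw [dd_sub, dd_euler hd, k2]; ring
  have e3 : (fun a => u x (Sum.inl a) - u y (Sum.inl a)) = sc z x - sc z y := rfl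
  rw [e1, e2]
  have hprop' : dd p (sc z y) (sc z x - sc z y) = dd p (sc z y) (e - r • sc z y) /
      Dfun P Q (u y) (ξ y) (e - r • sc z y) * Dfun P Q (u y) (ξ y) (sc z x - sc z y) := hprop
  rw [hprop']
  simp only [e3]
  show _ = _ * _ * Dfun P Q (u y) (ξ y) (sc z x - sc z y) * _
  ring

/-- **Linear local pencils.** -/
theorem spec_sosF (hp : IsHyperbolic p e) (hz : z ∈ bdT p e) (hP : SpecAt p e z)
    (U V : Ultrafilter (Fin n → ℝ)) (hU : (U : Filter (Fin n → ℝ)) ≤ 𝓝 z)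
    (hV : (V : Filter (Fin n → ℝ)) ≤ 𝓝 z) (sU : smT p e ∈ U) (sV : smT p e ∈ V) :
    SosF (U : Filter (Fin n → ℝ)) (V : Filter (Fin n → ℝ)) (fun y x => dd p y x) := by
  classical
  obtain ⟨m, L, hpsd, hdet, hpos⟩ := hP
  have hsm : ∀ᶠ y in (U : Filter (Fin n → ℝ)), y ∈ smT p e := sU
  have hsmV : ∀ᶠ y in (V : Filter (Fin n → ℝ)), y ∈ smT p e := sV
  choose ξ hξ using fun y : Fin n → ℝ => exists_unit_ker (L y)
  have hξU : ∀ᶠ y in (U : Filter (Fin n → ℝ)), L y *ᵥ ξ y = 0 ∧ ∑ i, ξ y i ^ 2 = 1 := by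
    filter_upwards [hsm, hU hdet] with y h1 h2
    exact hξ y (h2 h1.1.1 h1.1.2.1 (smooth_of_dd_pos h1.2.ne'))
  have hb : ∀ i, ∀ᶠ y in (U : Filter (Fin n → ℝ)), |ξ y i| ≤ 1 := by
    intro i
    filter_upwards [hξU] with y hy
    rw [abs_le_one_iff_mul_self_le_one]
    have h1 : ξ y i ^ 2 ≤ ∑ j, ξ y j ^ 2 :=
      Finset.single_le_sum (f := fun j => ξ y j ^ 2) (fun j _ => sq_nonneg _)
        (Finset.mem_univ i)
    nlinarith [hy.2]
  choose ξ0 _ tξ using fun i => exists_tendsto U (hb i)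
  have hnorm0 : ∑ i, ξ0 i ^ 2 = 1 := by
    have h1 : Tendsto (fun y => ∑ i, ξ y i ^ 2) (U : Filter (Fin n → ℝ))
        (𝓝 (∑ i, ξ0 i ^ 2)) := tendsto_finset_sum _ fun i _ => (tξ i).pow 2
    refine tendsto_nhds_unique h1 (Tendsto.congr' ?_ tendsto_const_nhds)
    filter_upwards [hξU] with y hy
    exact hy.2.symm
  have hξne : ξ0 ≠ 0 := by
    rintro rfl
    simp at hnorm0
  have hLc : ∀ i j, Continuous fun y => L y i j := by
    intro i j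
    have h1 : Continuous fun y => L y := L.continuous_of_finiteDimensional
    exact h1.matrix_elem i j
  have hker0 : L z *ᵥ ξ0 = 0 := by
    funext i
    have h1 : Tendsto (fun y => (L y *ᵥ ξ y) i) (U : Filter (Fin n → ℝ))
        (𝓝 ((L z *ᵥ ξ0) i)) := by
      simp only [Matrix.mulVec, dotProduct]
      exact tendsto_finset_sum _ fun j _ => (((hLc i j).tendsto z).mono_left hU).mul (tξ j)
    refine tendsto_nhds_unique h1 (Tendsto.congr' ?_ tendsto_const_nhds)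
    filter_upwards [hξU] with y hy
    rw [hy.1]
  have hDe : ∀ᶠ y in (U : Filter (Fin n → ℝ)), 0 < ∑ i, ∑ j, L e i j * ξ y i * ξ y j := by
    have h1 : Tendsto (fun y => ∑ i, ∑ j, L e i j * ξ y i * ξ y j)
        (U : Filter (Fin n → ℝ)) (𝓝 (∑ i, ∑ j, L e i j * ξ0 i * ξ0 j)) :=
      tendsto_finset_sum _ fun i _ => tendsto_finset_sum _ fun j _ =>
        ((tξ i).const_mul _).mul (tξ j)
    refine h1.eventually (lt_mem_nhds ?_)
    rw [← dot_mulVec_eq]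
    exact hpos ξ0 hξne hker0
  have hcore : SosF (U : Filter (Fin n → ℝ)) (V : Filter (Fin n → ℝ))
      (fun y x => ∑ i, ∑ j, L x i j * ξ y i * ξ y j) := by
    refine sosF_psd (M := fun x => L x) ?_ ξ
    filter_upwards [hsmV, hV hpsd] with x h1 h2 using h2 h1.1.1
  have hl : SosF (U : Filter (Fin n → ℝ)) (V : Filter (Fin n → ℝ)) (fun y (_ : Fin n → ℝ) =>
      dd p y e / ∑ i, ∑ j, L e i j * ξ y i * ξ y j) := by
    refine SosF.left ?_
    filter_upwards [hsm, hDe] with y h1 h2 using div_nonneg h1.2.le h2.le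
  refine (hl.mul hcore).congr ?_
  refine EqF.of_eventually (fun y => y ∈ smT p e ∧ (L y *ᵥ ξ y = 0) ∧
    (0 < ∑ i, ∑ j, L e i j * ξ y i * ξ y j) ∧
    (∀ᶠ x in 𝓝 y, x ∈ hypCone p e → (L x).PosSemidef)) (fun _ => True)
    (hsm.and ((hξU.mono fun y hy => hy.1).and (hDe.and
      (hU (eventually_eventually_nhds.2 hpsd))))) (Eventually.of_forall fun _ => trivial) ?_
  rintro y x ⟨y1, y2, y3, y4⟩ _
  have hnn : ∀ v : Fin n → ℝ, 0 < dd p y v → 0 ≤ ∑ i, ∑ j, L v i j * ξ y i * ξ y j := by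
    intro v hv
    obtain ⟨t, h1, h2, h3⟩ := ((enter hp y1.1.1 y1.1.2.1 y1.2 hv).and
      (((tendsto_line y v).eventually y4).and
        (self_mem_nhdsWithin : ∀ᶠ t in 𝓝[>] (0 : ℝ), t ∈ Set.Ioi (0 : ℝ)))).exists
    have h3 : (0 : ℝ) < t := h3
    have h4 := psd_nonneg (h2 h1) (ξ y)
    rw [map_add, map_smul, Matrix.add_mulVec, y2, zero_add, Matrix.smul_mulVec,
      dotProduct_smul, smul_eq_mul] at h4
    rw [← dot_mulVec_eq]
    exact nonneg_of_mul_nonneg_right h4 h3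
  have hprop := prop_on (g := fun v => dd p y v)
    (D := fun v => ∑ i, ∑ j, L v i j * ξ y i * ξ y j) (dd_add p _) (dd_smul p _)
    (fun v w => by
      simp only [map_add, Matrix.add_apply, add_mul, Finset.sum_add_distrib])
    (fun r v => by
      simp only [map_smul, Matrix.smul_apply, smul_eq_mul, Finset.mul_sum]
      refine Finset.sum_congr rfl fun _ _ => Finset.sum_congr rfl fun _ _ => ?_
      ring) (0 : Fin n → ℝ) (fun v _ hv => hnn v hv) (w := e) (by simp) y1.2 y3 (v := x)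
    (by simp)
  exact hprop

end Vale.Agent.P256.H186
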