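import Vale.Agent.P256.H186.LocTop

/-! Products of polynomials in four linear forms and of `LocalCone` polynomials; only the
irreducible factors which are positive at `e` are asked to be good. -/

set_option linter.all false

namespace Vale.Agent.P256.H186

open MvPolynomial Vale.Agent.P256 Vale.Agent.P256.H387 Vale.Agent.P256.H76

variable {n : ℕ} {p : MvPolynomial (Fin n) ℝ} {e : Fin n → ℝ}

theorem loc_top_pos (hp : IsHyperbolic p e)
    (h : ∀ q r : MvPolynomial (Fin n) ℝ, p = q * r → Irreducible q →
      0 < MvPolynomial.eval e q → GoodFactor q e) :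
    IsSpectrahedralShadow (hypCone p e) := by
  refine (shad_of_irreducible hp fun q r hqr hirr hq => ?_).shadow
  rcases h q r hqr hirr hq.2.1 with ⟨B, hB⟩ | ⟨k, B, q', hk, hl⟩
  · obtain ⟨q', hq', hk⟩ := descend hq B hB
    rw [hypCone_comp B hk]
    exact (GShad.of_shadow (H201.shadow_le_four le_rfl hq')).preimage B
  · rw [hypCone_comp B hk]
    exact (GShad.of_shadow (shadow_of_localCone hl)).preimage B

end Vale.Agent.P256.H186
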