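import Vale.Agent.P256.St.Sum
import Vale.Agent.P256.C5.Class

/-! Mixed derivatives: the polynomials `p + s D_b p` and `(r + s) p + r s D_b p`. -/

namespace Vale.Agent.P256.Mx

open MvPolynomial

variable {n : ℕ} {p g : MvPolynomial (Fin n) ℝ} {e b v : Fin n → ℝ}

/-- hyperbolic, and the cone is a spectrahedral shadow -/
def HS (p : MvPolynomial (Fin n) ℝ) (e : Fin n → ℝ) : Prop :=
  IsHyperbolic p e ∧ GShad (hypCone p e)

/-! ### directional derivatives -/

theorem pd_eq (a : Fin n → ℝ) (q : MvPolynomial (Fin n) ℝ) : polarDeriv a q = DL a q := by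
  rw [DL_apply]; rfl

theorem pd_comm (a b : Fin n → ℝ) (q : MvPolynomial (Fin n) ℝ) :
    polarDeriv a (polarDeriv b q) = polarDeriv b (polarDeriv a q) := by
  rw [pd_eq, pd_eq, pd_eq, pd_eq]
  exact LinearMap.congr_fun (DL_comm a b) q

theorem pd_add_dir (a b : Fin n → ℝ) (q : MvPolynomial (Fin n) ℝ) :
    polarDeriv (a + b) q = polarDeriv a q + polarDeriv b q := by
  rw [pd_eq, pd_eq, pd_eq, DL_add]; rfl

theorem pd_smul_dir (c : ℝ) (a : Fin n → ℝ) (q : MvPolynomial (Fin n) ℝ) :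
    polarDeriv (c • a) q = C c * polarDeriv a q := by
  rw [pd_eq, pd_eq, DL_smul, LinearMap.smul_apply, MvPolynomial.smul_eq_C_mul]

theorem pd_zero_dir (q : MvPolynomial (Fin n) ℝ) : polarDeriv 0 q = 0 := by
  have := pd_smul_dir 0 (0 : Fin n → ℝ) q
  rwa [zero_smul, C_0, zero_mul] at this

theorem pd_add (a : Fin n → ℝ) (p q : MvPolynomial (Fin n) ℝ) :
    polarDeriv a (p + q) = polarDeriv a p + polarDeriv a q := by
  rw [pd_eq, pd_eq, pd_eq, map_add]

theorem pd_C_mul (a : Fin n → ℝ) (c : ℝ) (q : MvPolynomial (Fin n) ℝ) :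
    polarDeriv a (C c * q) = C c * polarDeriv a q := by
  rw [pd_eq, pd_eq, ← MvPolynomial.smul_eq_C_mul, map_smul, MvPolynomial.smul_eq_C_mul]

theorem pd_homog {k : ℕ} (hk : p.IsHomogeneous k) (a : Fin n → ℝ) :
    (polarDeriv a p).IsHomogeneous (k - 1) := homog_dirD hk a

/-! ### one more variable -/

/-- put a coordinate in front -/
def cn (c : ℝ) (x : Fin n → ℝ) : Fin (n + 1) → ℝ := Fin.cons c x

/-- forget the first coordinate -/
def tl (n : ℕ) : (Fin (n + 1) → ℝ) →ₗ[ℝ] (Fin n → ℝ) where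
  toFun y := fun i => y i.succ
  map_add' _ _ := rfl
  map_smul' _ _ := rfl

@[simp] theorem cn_zero (c : ℝ) (x : Fin n → ℝ) : cn c x 0 = c := rfl

@[simp] theorem cn_one (c d : ℝ) (x : Fin n → ℝ) : cn c (cn d x) 1 = d := rfl

@[simp] theorem tl_cn (c : ℝ) (x : Fin n → ℝ) : tl n (cn c x) = x := rfl

theorem tl_at_zero (y : Fin (n + 2) → ℝ) : tl (n + 1) y 0 = y 1 := rfl

theorem cn_add_smul (c d t : ℝ) (x y : Fin n → ℝ) :
    cn c x + t • cn d y = cn (c + t * d) (x + t • y) := by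
  funext i
  refine Fin.cases ?_ (fun j => ?_) i
  · rfl
  · rfl

/-- `p` as a polynomial in one more variable -/
noncomputable def up (p : MvPolynomial (Fin n) ℝ) : MvPolynomial (Fin (n + 1)) ℝ :=
  precomp (tl n) p

theorem eval_up (p : MvPolynomial (Fin n) ℝ) (y : Fin (n + 1) → ℝ) :
    eval y (up p) = eval (tl n y) p := eval_precomp _ _ _

theorem up_zero : up (0 : MvPolynomial (Fin n) ℝ) = 0 := by
  rw [up, precomp, map_zero]

theorem up_homog {k : ℕ} (hk : p.IsHomogeneous k) : (up p).IsHomogeneous k := by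
  have := hk.aeval (linX (tl n)) (n := 1) (homog_linX (tl n))
  rwa [one_mul] at this

theorem HS.pre {m : ℕ} {q : MvPolynomial (Fin m) ℝ} (A : (Fin n → ℝ) →ₗ[ℝ] (Fin m → ℝ))
    (h : ∀ x, eval x p = eval (A x) q) (hq : HS q (A e)) : HS p e := by
  refine ⟨hyp_pre A h hq.1, ?_⟩
  rw [hypCone_pre A h]
  exact hq.2.preimage A

theorem HS.up (h : HS p e) (c : ℝ) : HS (up p) (cn c e) :=
  HS.pre (tl n) (eval_up p) h

theorem HS.dir {a : Fin n → ℝ} (h : HS p e) (ha : InOpen p e a) : HS p a :=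
  ⟨garding1 h.1 ha, by rw [K_eq h.1 ha]; exact h.2⟩

theorem HS.smul {c : ℝ} (hc : 0 < c) (h : HS p e) : HS (C c * p) e := by
  obtain ⟨⟨⟨d, hd⟩, h2, h3⟩, h4⟩ := h
  refine ⟨⟨⟨d, ?_⟩, ?_, fun x t ht => h3 x t ?_⟩, ?_⟩
  · have := (isHomogeneous_C (Fin n) c).mul hd
    rwa [zero_add] at this
  · rw [map_mul, eval_C]
    exact mul_pos hc h2
  · rw [map_mul, aeval_C] at ht
    refine (mul_eq_zero.1 ht).resolve_left ?_
    simp only [Complex.coe_algebraMap, Complex.ofReal_eq_zero]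
    exact hc.ne'
  · have : hypCone (C c * p) e = hypCone p e := by
      ext x
      simp only [hypCone, Set.mem_ofPred_eq, map_mul, eval_C, mul_eq_zero, hc.ne', false_or]
    rw [this]
    exact h4

/-- sums of hyperbolic polynomials with the same derivative in a boundary direction -/
theorem HS.sum {p1 p2 q : MvPolynomial (Fin n) ℝ} {z : Fin n → ℝ} {d : ℕ} (h1 : HS p1 e)
    (h2 : HS p2 e) (hd1 : p1.IsHomogeneous d) (hd2 : p2.IsHomogeneous d) (hq : IsHyperbolic q e)
    (hz1 : z ∈ hypCone p1 e) (hz2 : z ∈ hypCone p2 e) (a1 : St.AffZ p1 q z)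
    (a2 : St.AffZ p2 q z) : HS (p1 + p2) e := by
  refine ⟨St.hyp_sum h1.1 h2.1 hd1 hd2 hq hz1 hz2 a1 a2, ?_⟩
  let L1 : (Fin (n + 1) → ℝ) →ₗ[ℝ] (Fin n → ℝ) :=
    { toFun := fun y i => y i.succ + y 0 * z i
      map_add' := fun x y => by funext i; simp only [Pi.add_apply]; ring
      map_smul' := fun c x => by
        funext i; simp only [Pi.smul_apply, smul_eq_mul, RingHom.id_apply]; ring }
  let L2 : (Fin (n + 1) → ℝ) →ₗ[ℝ] (Fin n → ℝ) :=
    { toFun := fun y i => y i.succ - y 0 * z i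
      map_add' := fun x y => by funext i; simp only [Pi.add_apply]; ring
      map_smul' := fun c x => by
        funext i; simp only [Pi.smul_apply, smul_eq_mul, RingHom.id_apply]; ring }
  have h3 := St.GShad.proj ((h1.2.preimage L1).inter (h2.2.preimage L2))
  rw [St.hypCone_sum h1.1 h2.1 hd1 hd2 hq hz1 hz2 a1 a2]
  have h4 : {x | ∃ τ : ℝ, x + τ • z ∈ hypCone p1 e ∧ x - τ • z ∈ hypCone p2 e} =
      {x : Fin n → ℝ | ∃ τ : ℝ, (Fin.cons τ x : Fin (n + 1) → ℝ) ∈
        (L1 ⁻¹' hypCone p1 e) ∩ (L2 ⁻¹' hypCone p2 e)} := by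
    ext x
    simp only [Set.mem_ofPred_eq, Set.mem_inter_iff, Set.mem_preimage]
    have e1 : ∀ τ : ℝ, L1 (Fin.cons τ x) = x + τ • z := by
      intro τ
      funext i
      change (Fin.cons τ x : Fin (n + 1) → ℝ) i.succ + (Fin.cons τ x : Fin (n + 1) → ℝ) 0 * z i = _
      rw [Fin.cons_succ, Fin.cons_zero]
      rfl
    have e2 : ∀ τ : ℝ, L2 (Fin.cons τ x) = x - τ • z := by
      intro τ
      funext i
      change (Fin.cons τ x : Fin (n + 1) → ℝ) i.succ - (Fin.cons τ x : Fin (n + 1) → ℝ) 0 * z i = _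
      rw [Fin.cons_succ, Fin.cons_zero]
      rfl
    simp only [e1, e2]
  rw [h4]
  exact h3

/-! ### the two auxiliary polynomials -/

/-- `p + s D_b p` -/
noncomputable def F1 (p : MvPolynomial (Fin n) ℝ) (b : Fin n → ℝ) :
    MvPolynomial (Fin (n + 1)) ℝ := up p + X 0 * up (polarDeriv b p)

/-- `(r + s) p + r s D_b p` -/
noncomputable def F2 (p : MvPolynomial (Fin n) ℝ) (b : Fin n → ℝ) :
    MvPolynomial (Fin (n + 2)) ℝ :=
  (X 0 + X 1) * up (up p) + X 0 * X 1 * up (up (polarDeriv b p))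

theorem eval_F1 (p : MvPolynomial (Fin n) ℝ) (b : Fin n → ℝ) (y : Fin (n + 1) → ℝ) :
    eval y (F1 p b) = eval (tl n y) p + y 0 * eval (tl n y) (polarDeriv b p) := by
  rw [F1, map_add, map_mul, eval_up, eval_up, eval_X]

theorem eval_F2 (p : MvPolynomial (Fin n) ℝ) (b : Fin n → ℝ) (y : Fin (n + 2) → ℝ) :
    eval y (F2 p b) = (y 0 + y 1) * eval (tl n (tl (n + 1) y)) p +
      y 0 * y 1 * eval (tl n (tl (n + 1) y)) (polarDeriv b p) := by
  rw [F2, map_add, map_mul, map_mul, map_mul, map_add, eval_up, eval_up, eval_up, eval_up, eval_X,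
    eval_X]

theorem F1_homog {k : ℕ} (hk : p.IsHomogeneous k) : (F1 p b).IsHomogeneous k := by
  refine (up_homog hk).add ?_
  rcases k with _ | k
  · rw [polarDeriv_const hk, up_zero, mul_zero]
    exact isHomogeneous_zero _ _ _
  · have := (isHomogeneous_X ℝ (0 : Fin (n + 1))).mul (up_homog (pd_homog hk b))
    rwa [Nat.add_sub_cancel, add_comm 1 k] at this

theorem F2_homog {k : ℕ} (hk : p.IsHomogeneous k) : (F2 p b).IsHomogeneous (k + 1) := by
  refine IsHomogeneous.add ?_ ?_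
  · have := ((isHomogeneous_X ℝ (0 : Fin (n + 2))).add (isHomogeneous_X ℝ 1)).mul
      (up_homog (up_homog hk))
    rwa [add_comm 1 k] at this
  · rcases k with _ | k
    · rw [polarDeriv_const hk, up_zero, up_zero, mul_zero]
      exact isHomogeneous_zero _ _ _
    · have := ((isHomogeneous_X ℝ (0 : Fin (n + 2))).mul (isHomogeneous_X ℝ 1)).mul
        (up_homog (up_homog (pd_homog hk b)))
      rwa [Nat.add_sub_cancel, show 1 + 1 + k = k + 1 + 1 by ring] at this

theorem pd_eval_smul {k : ℕ} (hk : g.IsHomogeneous k) (b : Fin n → ℝ) (c : ℝ)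
    (x : Fin n → ℝ) : c * eval (c • x) (polarDeriv b g) = c ^ k * eval x (polarDeriv b g) := by
  rcases k with _ | k
  · rw [polarDeriv_const hk, map_zero, map_zero, mul_zero, mul_zero]
  · have h1 : (polarDeriv b g).IsHomogeneous k := pd_homog hk b
    rw [eval_smul' h1, pow_succ]
    ring

/-- positivity on the ray of `e` -/
theorem eval_ray_nonneg {k : ℕ} (hk : g.IsHomogeneous k) (hbg : 0 ≤ eval e (polarDeriv b g))
    {t : ℝ} (ht : 0 < t) : 0 ≤ eval (t • e) (polarDeriv b g) := by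
  have h1 := pd_eval_smul hk b t e
  have h2 : 0 ≤ t * eval (t • e) (polarDeriv b g) := by rw [h1]; positivity
  exact nonneg_of_mul_nonneg_right h2 ht

theorem eval_ray_pos {k : ℕ} (hk : g.IsHomogeneous k) (hg : 0 < eval e g) {t : ℝ} (ht : 0 < t) :
    0 < eval (t • e) g := by
  rw [eval_smul' hk]
  positivity

/-! ### the extension step -/

/-- `r + s` -/
def rr (n : ℕ) : (Fin (n + 2) → ℝ) →ₗ[ℝ] ℝ where
  toFun y := y 0 + y 1
  map_add' x y := by simp only [Pi.add_apply]; ring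
  map_smul' c x := by simp only [Pi.smul_apply, smul_eq_mul, RingHom.id_apply]; ring

/-- `(s s', 0)` -/
noncomputable def bb (n : ℕ) :
    (Fin (n + 2) → ℝ) →ₗ[ℝ] (Fin (n + 2) → ℝ) →ₗ[ℝ] (Fin (n + 1) → ℝ) :=
  LinearMap.mk₂ ℝ (fun y y' => (y 1 * y' 1) • (cn 1 0 : Fin (n + 1) → ℝ))
    (fun x x' y => by simp only [Pi.add_apply, add_mul, add_smul])
    (fun c x y => by simp only [Pi.smul_apply, smul_eq_mul, smul_smul, mul_assoc])
    (fun x y y' => by simp only [Pi.add_apply, mul_add, add_smul])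
    (fun c x y => by
      simp only [Pi.smul_apply, smul_eq_mul, smul_smul]
      congr 1
      ring)

theorem bb_apply (y y' : Fin (n + 2) → ℝ) :
    bb n y y' = (y 1 * y' 1) • (cn 1 0 : Fin (n + 1) → ℝ) := rfl

/-- the quadratic extension of `F1` -/
noncomputable def Pq (g : MvPolynomial (Fin n) ℝ) (b : Fin n → ℝ) :
    MvPolynomial (Fin (n + 2)) ℝ := aeval (coPoly (rr n) (tl (n + 1)) (bb n)) (F1 g b)

theorem eval_Pq' (g : MvPolynomial (Fin n) ℝ) (b : Fin n → ℝ) (y : Fin (n + 2) → ℝ) :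
    eval y (Pq g b) = eval (rr n y • tl (n + 1) y - bb n y y) (F1 g b) := by
  rw [Pq, eval_aeval']
  congr 1
  congr 1
  funext i
  exact eval_coPoly _ _ _ i y

theorem eval_Pq {k : ℕ} (hk : g.IsHomogeneous k) (b : Fin n → ℝ) (y : Fin (n + 2) → ℝ) :
    (y 0 + y 1) * eval y (Pq g b) = (y 0 + y 1) ^ k * eval y (F2 g b) := by
  rw [eval_Pq', eval_F1, eval_F2]
  have h1 : tl n (rr n y • tl (n + 1) y - bb n y y) = (y 0 + y 1) • tl n (tl (n + 1) y) := by
    rw [map_sub, map_smul, bb_apply, map_smul, tl_cn, smul_zero, sub_zero]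
    rfl
  have h2 : (rr n y • tl (n + 1) y - bb n y y) 0 = y 0 * y 1 := by
    show (y 0 + y 1) * y 1 - (y 1 * y 1) * 1 = _
    ring
  rw [h1, h2, eval_smul' hk]
  have h3 := pd_eval_smul hk b (y 0 + y 1) (tl n (tl (n + 1) y))
  linear_combination (y 0 * y 1) * h3

theorem hyp_r (e : Fin n → ℝ) :
    IsHyperbolic (X 0 + X 1 : MvPolynomial (Fin (n + 2)) ℝ) (cn 1 (cn 0 e)) := by
  refine ⟨⟨1, (isHomogeneous_X ℝ 0).add (isHomogeneous_X ℝ 1)⟩, ?_, fun x t ht => ?_⟩
  · rw [map_add, eval_X, eval_X]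
    simp
  · rw [map_add, aeval_X, aeval_X, cn_zero, cn_one] at ht
    have h1 : t = ((x 0 + x 1 : ℝ) : ℂ) := by
      push_cast at ht ⊢
      linear_combination ht
    rw [h1]
    exact Complex.ofReal_im _

theorem K_r (e : Fin n → ℝ) :
    hypCone (X 0 + X 1 : MvPolynomial (Fin (n + 2)) ℝ) (cn 1 (cn 0 e)) = {y | 0 ≤ rr n y} := by
  ext y
  simp only [hypCone, Set.mem_ofPred_eq, map_add, eval_X, Pi.sub_apply, Pi.smul_apply, cn_zero,
    cn_one, smul_eq_mul]
  constructor
  · intro h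
    exact h (y 0 + y 1) (by ring)
  · intro h t ht
    have h1 : t = y 0 + y 1 := by linarith
    rw [h1]
    exact h

theorem HS.F2 {k : ℕ} (hk : g.IsHomogeneous k) (h : HS (F1 g b) (cn 0 e))
    (hbg : 0 ≤ eval e (polarDeriv b g)) : HS (F2 g b) (cn 1 (cn 0 e)) := by
  have hg : 0 < eval e g := by
    have := h.1.2.1
    rw [eval_F1, tl_cn, cn_zero, zero_mul, add_zero] at this
    exact this
  have hE0 : (cn 1 (cn 0 e) : Fin (n + 2) → ℝ) 1 = 0 := rfl
  have hBK : ∀ y, bb n y y ∈ hypCone (F1 g b) (cn 0 e) := by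
    intro y
    rw [mem_hypCone_iff (F1_homog hk)]
    intro t ht
    rw [eval_F1, bb_apply, map_add, map_smul, map_smul, tl_cn, tl_cn, smul_zero, zero_add]
    have h1 := eval_ray_pos hk hg ht
    have h2 := eval_ray_nonneg hk hbg ht
    have h3 : ((y 1 * y 1) • (cn 1 0 : Fin (n + 1) → ℝ) + t • cn 0 e) 0 = y 1 * y 1 := by
      show (y 1 * y 1) * 1 + t * 0 = _
      ring
    rw [h3]
    have h4 := mul_nonneg (mul_self_nonneg (y 1)) h2
    exact (by linarith : (0:ℝ) < _).ne'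
  have hr : rr n (cn 1 (cn 0 e)) = 1 := by
    show (1 : ℝ) + 0 = 1
    ring
  have hB : ∀ y, bb n (cn 1 (cn 0 e)) y + bb n y (cn 1 (cn 0 e)) = 0 := by
    intro y
    rw [bb_apply, bb_apply, hE0]
    simp
  have q1 := quad_hyp h.1 hBK (eval_Pq' g b) hr rfl hB
  have q2 := quad_gshad h.1 h.2 hBK (eval_Pq' g b) hr rfl hB
  have hid : (X 0 + X 1) ^ k * Mx.F2 g b = (X 0 + X 1) * Pq g b := by
    apply MvPolynomial.funext
    intro y
    rw [map_mul, map_mul, map_pow, map_add, eval_X, eval_X, eval_Pq hk]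
  have hQ := hyp_mul (hyp_r e) q1
  have hF : IsHyperbolic (Mx.F2 g b) (cn 1 (cn 0 e)) := by
    refine ⟨⟨_, F2_homog hk⟩, ?_, fun x t ht => hQ.2.2 x t ?_⟩
    · rw [eval_F2, tl_cn, tl_cn, cn_zero, cn_one]
      linarith
    · rw [← hid, map_mul, ht, mul_zero]
  refine ⟨hF, ?_⟩
  -- the cone is in the half space
  have hhalf : ∀ y ∈ hypCone (Mx.F2 g b) (cn 1 (cn 0 e)), 0 ≤ rr n y := by
    intro y hy
    have h0 : (cn 0 (cn 0 e) : Fin (n + 2) → ℝ) ∈ hypCone (Mx.F2 g b) (cn 1 (cn 0 e)) := by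
      rw [mem_hypCone_iff (F2_homog hk)]
      intro t ht
      rw [cn_add_smul, cn_add_smul, eval_F2, tl_cn, tl_cn, cn_zero, cn_one]
      have h1 : e + t • e = (1 + t) • e := by module
      have h2 := eval_ray_pos hk hg (t := 1 + t) (by linarith)
      rw [h1]
      have h3 := mul_pos ht h2
      have h4 : (0 + t * 1 + (0 + t * 0)) * eval ((1 + t) • e) g +
        (0 + t * 1) * (0 + t * 0) * eval ((1 + t) • e) (polarDeriv b g) =
          t * eval ((1 + t) • e) g := by ring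
      rw [h4]
      exact h3.ne'
    set x := tl n (tl (n + 1) y) with hx
    have h1 : ∀ ε : ℝ, 0 < ε → 0 ≤ (y 0 + y 1) * eval (e + ε • x) g +
        ε * (y 0 * y 1) * eval (e + ε • x) (polarDeriv b g) := by
      intro ε hε
      have h2 := K_eval_nonneg hF (K_add hF h0 (K_smul hF hy hε.le))
      rw [eval_F2, map_add, map_add, map_smul, map_smul, tl_cn, tl_cn] at h2
      have h3 : (cn 0 (cn 0 e) + ε • y : Fin (n + 2) → ℝ) 0 = ε * y 0 := by
        show 0 + ε * y 0 = _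
        ring
      have h4 : (cn 0 (cn 0 e) + ε • y : Fin (n + 2) → ℝ) 1 = ε * y 1 := by
        show 0 + ε * y 1 = _
        ring
      rw [h3, h4, ← hx] at h2
      have h5 : (ε * y 0 + ε * y 1) * eval (e + ε • x) g +
        ε * y 0 * (ε * y 1) * eval (e + ε • x) (polarDeriv b g) =
          ε * ((y 0 + y 1) * eval (e + ε • x) g +
            ε * (y 0 * y 1) * eval (e + ε • x) (polarDeriv b g)) := by ring
      rw [h5] at h2
      exact nonneg_of_mul_nonneg_right h2 hε
    have hc : Continuous fun ε : ℝ => (y 0 + y 1) * eval (e + ε • x) g +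
        ε * (y 0 * y 1) * eval (e + ε • x) (polarDeriv b g) := by
      have c1 : Continuous fun ε : ℝ => e + ε • x := by fun_prop
      have c2 := (MvPolynomial.continuous_eval g).comp c1
      have c3 := (MvPolynomial.continuous_eval (polarDeriv b g)).comp c1
      exact (continuous_const.mul c2).add ((continuous_id.mul continuous_const).mul c3)
    have hl := (hc.tendsto 0).mono_left (nhdsWithin_le_nhds (s := Set.Ioi 0))
    have h6 := ge_of_tendsto hl (by
      filter_upwards [self_mem_nhdsWithin] with ε hε using h1 ε hε)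
    simp only [zero_smul, add_zero, zero_mul] at h6
    exact nonneg_of_mul_nonneg_left h6 hg
  have hK : hypCone (Mx.F2 g b) (cn 1 (cn 0 e)) =
      hypCone ((X 0 + X 1) * Pq g b) (cn 1 (cn 0 e)) := by
    ext y
    constructor
    · intro hy t ht
      rw [← hid, map_mul, map_pow] at ht
      rcases mul_eq_zero.1 ht with h1 | h1
      · have h3 : y ∈ hypCone (X 0 + X 1 : MvPolynomial (Fin (n + 2)) ℝ) (cn 1 (cn 0 e)) := by
          rw [K_r]
          exact hhalf y hy
        refine h3 t ?_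
        by_contra h4
        exact pow_ne_zero k h4 h1
      · exact hy t h1
    · intro hy t ht
      exact hy t (by rw [← hid, map_mul, ht, mul_zero])
  rw [hK, hypCone_mul, K_r]
  exact (GShad.halfspace (rr n)).inter q2

end Vale.Agent.P256.Mx
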