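import Vale.Agent.P256.H186.Mix9

/-! The class `Mixed`. -/

set_option linter.all false

namespace Vale.Agent.P256.Mx

open MvPolynomial Matrix
open scoped ComplexOrder

variable {n m : ℕ} {p : MvPolynomial (Fin n) ℝ} {e v : Fin n → ℝ} {D : Set (Fin n → ℝ)}

theorem RG.smul {c : ℝ} (hc : 0 < c) (h : RG p e D) : RG (C c * p) e D := by
  obtain ⟨k, q, A, hpA, hq, hD⟩ := h
  have hK : hypCone (C c * q) (A e) = hypCone q (A e) := by
    ext x
    simp only [hypCone, Set.mem_ofPred_eq, map_mul, eval_C, mul_eq_zero, hc.ne', false_or]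
  refine ⟨k, C c * q, A, fun x => ?_, hq.smul hc, fun a ha => ?_⟩
  · rw [map_mul, map_mul, eval_C, eval_C, hpA]
  · obtain ⟨l, hl, hs⟩ := hD a ha
    refine ⟨l, fun u hu => ⟨?_, ?_⟩, hs⟩
    · rw [hK]
      exact (hl u hu).1
    · rw [pd_C_mul, pd_C_mul, (hl u hu).2, mul_zero]

theorem RG.deriv (h : RG p e D) {a : Fin n → ℝ} (ha : a ∈ D) (hne : polarDeriv a p ≠ 0) :
    RG (polarDeriv a p) e D := by
  obtain ⟨k, q, A, hpA, hq, hD⟩ := h
  obtain ⟨l, hl, hs⟩ := hD a ha
  have h1 := hq.inv.sum l hl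
  rw [hs] at h1
  have hev := eval_polar_pre A hpA a
  have hq0 : polarDeriv (A a) q ≠ 0 := by
    intro h0
    apply hne
    apply MvPolynomial.funext
    intro x
    rw [hev, h0, map_zero, map_zero]
  obtain ⟨h2, h3⟩ := h1.zero_or.resolve_left hq0
  refine ⟨k, polarDeriv (A a) q, A, hev, h2, fun a' ha' => ?_⟩
  obtain ⟨l', hl', hs'⟩ := hD a' ha'
  exact ⟨l', fun u hu => ⟨h3 u (hl' u hu), h1.sq u (hl' u hu)⟩, hs'⟩

theorem RG.hs (h : RG p e D) : HS p e := by
  obtain ⟨k, q, A, hpA, hq, hD⟩ := h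
  exact HS.pre A hpA hq

theorem RG.hermDet (h : HermDet p e) (hD : D ⊆ hypCone p e) : RG p e D := by
  obtain ⟨m, c, B, hc, hB, he, hp⟩ := h
  let M : (Fin n → ℝ) →ₗ[ℝ] Matrix (Fin m) (Fin m) ℂ :=
    { toFun := fun x => ∑ i, (x i : ℂ) • B i
      map_add' := fun x y => by
        simp only [Pi.add_apply, Complex.ofReal_add, add_smul, Finset.sum_add_distrib]
      map_smul' := fun r x => by
        simp only [Pi.smul_apply, smul_eq_mul, Complex.ofReal_mul, mul_smul, Finset.smul_sum,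
          RingHom.id_apply]
        refine Finset.sum_congr rfl fun i _ => ?_
        ext a b
        simp }
  have hM : ∀ x, M x = ∑ i, (x i : ℂ) • B i := fun _ => rfl
  have hs : ∀ x, (M x).IsHermitian := by
    intro x
    rw [hM, Matrix.IsHermitian, conjTranspose_sum]
    refine Finset.sum_congr rfl fun i _ => ?_
    rw [conjTranspose_smul, (hB i).eq]
    congr 1
    exact Complex.conj_ofReal _
  have hc' : (c : ℂ) ≠ 0 := by exact_mod_cast hc.ne'
  have h1 : ∀ x, ((eval x (C c⁻¹ * p) : ℝ) : ℂ) = (M x).det := by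
    intro x
    rw [map_mul, eval_C]
    push_cast
    rw [hp, hM, ← mul_assoc, inv_mul_cancel₀ hc', one_mul]
  have hK : hypCone (C c⁻¹ * p) e = hypCone p e := by
    ext x
    simp only [hypCone, Set.mem_ofPred_eq, map_mul, eval_C, mul_eq_zero,
      (inv_pos.2 hc).ne', false_or]
  have h2 : RG (C c⁻¹ * p) e D := RG.herm M hs he h1 (fun a ha => by rw [hK]; exact hD ha)
  have h3 : C c * (C c⁻¹ * p) = p := by
    rw [← mul_assoc, ← C_mul, mul_inv_cancel₀ hc.ne', C_1, one_mul]
  have h4 := h2.smul hc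
  rwa [h3] at h4

theorem mixed_rg (h : Mixed e D p) : RG p e D := by
  induction h with
  | herm h hD => exact RG.hermDet h hD
  | quad hp hd hD => exact RG.quad hp hd hD
  | pull A hpA hq hS hD => exact ⟨_, _, A, hpA, ⟨hq, GShad.of_shadow hS⟩, hD⟩
  | mul _ _ ih ih' => exact ih.mul ih'
  | deriv a ha _ hne ih => exact ih.deriv ha hne

/-- **Main theorem on the class `Mixed`.** -/
theorem mixed_main (h : Mixed e D p) : IsHyperbolic p e ∧ IsSpectrahedralShadow (hypCone p e) :=
  ⟨(mixed_rg h).hs.1, (mixed_rg h).hs.2.shadow⟩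

theorem mixed_list (h : Mixed e D p) (as : List (Fin n → ℝ)) (has : ∀ a ∈ as, a ∈ D)
    (hne : as.foldr polarDeriv p ≠ 0) : Mixed e D (as.foldr polarDeriv p) := by
  induction as with
  | nil => exact h
  | cons a as ih =>
    rw [List.foldr_cons] at hne ⊢
    refine .deriv a (has a List.mem_cons_self)
      (ih (fun b hb => has b (List.mem_cons_of_mem a hb)) ?_) hne
    intro h0
    rw [h0, polarDeriv_zero] at hne
    exact hne rfl

theorem cone_prod {r : ℕ} (P : Fin r → MvPolynomial (Fin n) ℝ) (s : Finset (Fin r)) {x : Fin n → ℝ}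
    (hx : x ∈ hypCone (∏ i ∈ s, P i) e) : ∀ i ∈ s, x ∈ hypCone (P i) e := by
  intro i hi t ht
  apply hx t
  rw [map_prod]
  exact Finset.prod_eq_zero hi ht

/-- mixed derivatives of products of definite Hermitian determinants and hyperbolic quadratic
forms -/
theorem mixed_prod {r : ℕ} (P : Fin r → MvPolynomial (Fin n) ℝ)
    (hP : ∀ i, HermDet (P i) e ∨ (IsHyperbolic (P i) e ∧ (P i).IsHomogeneous 2))
    (as : List (Fin n → ℝ)) (has : ∀ a ∈ as, a ∈ hypCone (∏ i, P i) e)
    (hne : as.foldr polarDeriv (∏ i, P i) ≠ 0) :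
    IsHyperbolic (as.foldr polarDeriv (∏ i, P i)) e ∧
      IsSpectrahedralShadow (hypCone (as.foldr polarDeriv (∏ i, P i)) e) := by
  have h1 : RG (∏ i, P i) e (hypCone (∏ i, P i) e) := by
    refine RG.prod _ _ fun i _ => ?_
    have hD : hypCone (∏ i, P i) e ⊆ hypCone (P i) e := fun x hx =>
      cone_prod P Finset.univ hx i (Finset.mem_univ i)
    rcases hP i with h | ⟨h, h'⟩
    · exact RG.hermDet h hD
    · exact RG.quad h h' hD
  have h2 := h1.main as has hne
  exact ⟨h2.1, h2.2.shadow⟩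

end Vale.Agent.P256.Mx
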