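import Vale.Agent.P256.H186.Mix1

/-! Mixed derivatives: the recursion over the rank one directions. -/

namespace Vale.Agent.P256.Mx

open MvPolynomial

variable {n : ℕ} {p g : MvPolynomial (Fin n) ℝ} {e b v : Fin n → ℝ} {R : Set (Fin n → ℝ)}

/-- All derivatives of `p` in directions of `R` are zero, or hyperbolic with a shadow cone which
contains `R`; and `p` is affine along the directions of `R`. -/
structure Inv (R : Set (Fin n → ℝ)) (p : MvPolynomial (Fin n) ℝ) (e : Fin n → ℝ) : Prop where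
  der : ∀ T : List (Fin n → ℝ), (∀ v ∈ T, v ∈ R) → T.foldr polarDeriv p = 0 ∨
    (HS (T.foldr polarDeriv p) e ∧ ∀ v ∈ R, v ∈ hypCone (T.foldr polarDeriv p) e)
  sq : ∀ v ∈ R, polarDeriv v (polarDeriv v p) = 0

theorem Inv.zero_or (h : Inv R p e) : p = 0 ∨ (HS p e ∧ ∀ v ∈ R, v ∈ hypCone p e) :=
  h.der [] (fun _ hv => absurd hv (List.not_mem_nil))

theorem Inv.pd (h : Inv R p e) (hv : v ∈ R) : Inv R (polarDeriv v p) e where
  der T hT := by
    have := h.der (T ++ [v]) (by
      intro u hu
      rcases List.mem_append.1 hu with h1 | h1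
      · exact hT u h1
      · rw [List.mem_singleton] at h1
        rw [h1]
        exact hv)
    rwa [List.foldr_append] at this
  sq u hu := by rw [pd_comm u v p, pd_comm u v (polarDeriv u p), h.sq u hu, polarDeriv_zero]

theorem Inv.aff (h : Inv R p e) (hv : v ∈ R) : St.AffZ p (polarDeriv v p) v :=
  .of_polar rfl (h.sq v hv)

theorem Inv.aff' (h : Inv R p e) (hv : v ∈ R) (b : Fin n → ℝ) :
    St.AffZ (polarDeriv b p) (polarDeriv b (polarDeriv v p)) v := by
  refine .of_polar (pd_comm v b p) ?_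
  rw [pd_comm v b, h.sq v hv, polarDeriv_zero]

theorem Inv.pos (h : Inv R p e) {w : Fin n → ℝ} (hw : w = 0 ∨ w ∈ R) {t : ℝ} (ht : 0 < t)
    {u : Fin n → ℝ} (hu : u ∈ R) :
    polarDeriv u p = 0 ∨ 0 < eval (w + t • e) (polarDeriv u p) := by
  rcases (h.pd hu).zero_or with h1 | ⟨h1, h2⟩
  · exact Or.inl h1
  · right
    obtain ⟨d, hd⟩ := h1.1.1
    have hwK : w ∈ hypCone (polarDeriv u p) e := by
      rcases hw with rfl | hw
      · exact K_zero h1.1
      · exact h2 w hw
    have h3 := (K_eval_ge h1.1 hd hwK ht.le le_rfl).2.2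
    have h4 := mul_pos h1.1.2.1 (pow_pos ht d)
    linarith

theorem Inv.sum_pos (h : Inv R p e) {w : Fin n → ℝ} (hw : w = 0 ∨ w ∈ R) {t : ℝ} (ht : 0 < t) :
    ∀ l : List (Fin n → ℝ), (∀ u ∈ l, u ∈ R) →
      polarDeriv l.sum p = 0 ∨ 0 < eval (w + t • e) (polarDeriv l.sum p) := by
  intro l
  induction l with
  | nil => intro _; left; rw [List.sum_nil, pd_zero_dir]
  | cons u l ih =>
    intro hl
    rw [List.sum_cons, pd_add_dir]
    have h1 := h.pos hw ht (hl u List.mem_cons_self)
    have h2 := ih (fun u' hu' => hl u' (List.mem_cons_of_mem u hu'))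
    rcases h1 with h1 | h1 <;> rcases h2 with h2 | h2
    · left; rw [h1, h2, add_zero]
    · right; rw [h1, zero_add]; exact h2
    · right; rw [h2, add_zero]; exact h1
    · right; rw [map_add]; exact add_pos h1 h2

theorem Inv.sum_e_nonneg (h : Inv R p e) (l : List (Fin n → ℝ)) (hl : ∀ u ∈ l, u ∈ R) :
    0 ≤ eval e (polarDeriv l.sum p) := by
  rcases h.sum_pos (w := 0) (Or.inl rfl) one_pos l hl with h1 | h1
  · rw [h1, map_zero]
  · rw [zero_add, one_smul] at h1
    exact h1.le

/-- put a zero in front -/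
def inj0 (n : ℕ) : (Fin n → ℝ) →ₗ[ℝ] (Fin (n + 1) → ℝ) where
  toFun x := cn 0 x
  map_add' x y := by
    funext i
    refine Fin.cases ?_ (fun j => ?_) i
    · show (0 : ℝ) = 0 + 0
      ring
    · rfl
  map_smul' c x := by
    funext i
    refine Fin.cases ?_ (fun j => ?_) i
    · show (0 : ℝ) = c * 0
      ring
    · rfl

theorem inj0_apply (x : Fin n → ℝ) : inj0 n x = cn 0 x := rfl

/-! ### the first recursion -/

theorem hs_F1 : ∀ l : List (Fin n → ℝ), (∀ u ∈ l, u ∈ R) → ∀ p : MvPolynomial (Fin n) ℝ,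
    Inv R p e → p ≠ 0 → HS (F1 p l.sum) (cn 0 e) := by
  intro l
  induction l with
  | nil =>
    intro _ p h hp
    have h1 := (h.zero_or.resolve_left hp).1.up 0
    have h2 : F1 p (List.sum []) = up p := by
      rw [List.sum_nil, F1, pd_zero_dir, up_zero, mul_zero, add_zero]
    rw [h2]
    exact h1
  | cons v l ih =>
    intro hl p h hp
    have hv : v ∈ R := hl v List.mem_cons_self
    have hl' : ∀ u ∈ l, u ∈ R := fun u hu => hl u (List.mem_cons_of_mem v hu)
    have i1 := ih hl' p h hp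
    have hG := h.pd hv
    have hbg := hG.sum_e_nonneg l hl'
    have i2' := ih hl' (polarDeriv v p) hG
    have a1p := h.aff hv
    have a2p := h.aff' hv l.sum
    have a1g := hG.aff hv
    have a2g := hG.aff' hv l.sum
    rw [List.sum_cons]
    generalize l.sum = b at *
    have hsplit : polarDeriv (v + b) p = polarDeriv v p + polarDeriv b p := pd_add_dir v b p
    have hsq := h.sq v hv
    have hvK := (h.zero_or.resolve_left hp).2 v hv
    obtain ⟨d, hd⟩ := (h.zero_or.resolve_left hp).1.1.1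
    have hpe := (h.zero_or.resolve_left hp).1.1.2.1
    by_cases hg0 : polarDeriv v p = 0
    · have : F1 p (v + b) = F1 p b := by rw [F1, F1, hsplit, hg0, zero_add]
      rw [this]
      exact i1
    have i2 := i2' hg0
    have hge := (hG.zero_or.resolve_left hg0).1.1.2.1
    have hvKg := (hG.zero_or.resolve_left hg0).2 v hv
    have hd1 : d ≠ 0 := by
      rintro rfl
      exact hg0 (polarDeriv_const hd v)
    obtain ⟨k, rfl⟩ : ∃ k, d = k + 1 := ⟨d - 1, by omega⟩
    have hgd : (polarDeriv v p).IsHomogeneous k := pd_homog hd v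
    generalize polarDeriv v p = g at *
    have i3 := i2.F2 hgd hbg
    have a1 : St.AffZ (up (F1 p b)) (up (F1 g b)) (cn 1 (cn 0 v)) := by
      intro y τ
      rw [eval_up, eval_up, eval_up, map_add, map_smul, tl_cn, eval_F1, eval_F1, eval_F1, map_add,
        map_smul, tl_cn, a1p, a2p]
      have h1 : (tl (n + 1) y + τ • cn 0 v) 0 = tl (n + 1) y 0 := by
        show tl (n + 1) y 0 + τ * 0 = _
        ring
      rw [h1]
      ring
    have a2 : St.AffZ (F2 g b) (up (F1 g b)) (cn 1 (cn 0 v)) := by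
      intro y τ
      rw [eval_up, eval_F2, eval_F2, eval_F1, map_add, map_add, map_smul, map_smul, tl_cn, tl_cn,
        a1g, a2g, hsq, polarDeriv_zero, map_zero]
      have h1 : (y + τ • cn 1 (cn 0 v)) 0 = y 0 + τ := by
        show y 0 + τ * 1 = _
        ring
      have h2 : (y + τ • cn 1 (cn 0 v)) 1 = y 1 := by
        show y 1 + τ * 0 = _
        ring
      rw [h1, h2, tl_at_zero]
      ring
    have hz1 : (cn 1 (cn 0 v) : Fin (n + 2) → ℝ) ∈ hypCone (up (F1 p b)) (cn 1 (cn 0 e)) := by
      rw [mem_hypCone_iff (up_homog (F1_homog hd))]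
      intro t ht
      rw [eval_up, map_add, map_smul, tl_cn, tl_cn, cn_add_smul, eval_F1, tl_cn, cn_zero, mul_zero,
        add_zero, zero_mul, add_zero]
      exact (mem_hypCone_iff hd v).1 hvK t ht
    have hz2 : (cn 1 (cn 0 v) : Fin (n + 2) → ℝ) ∈ hypCone (F2 g b) (cn 1 (cn 0 e)) := by
      rw [mem_hypCone_iff (F2_homog hgd)]
      intro t ht
      rw [cn_add_smul, cn_add_smul, eval_F2, tl_cn, tl_cn, cn_zero, cn_one, mul_zero, add_zero,
        mul_zero, zero_mul, add_zero, add_zero, mul_one]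
      exact mul_ne_zero (by linarith) ((mem_hypCone_iff hgd v).1 hvKg t ht)
    have hs := HS.sum (i1.up 1) i3 (up_homog (F1_homog hd)) (F2_homog hgd) (i2.up 1).1 hz1 hz2
      a1 a2
    have hs' := hs.dir (a := cn 0 (cn 0 e)) (by
      intro t ht
      rw [cn_add_smul, cn_add_smul, map_add, eval_up, tl_cn, eval_F1, eval_F2, tl_cn, tl_cn, tl_cn,
        cn_zero, cn_zero, cn_one]
      have h1 : e + t • e = (1 + t) • e := by module
      have h2 := eval_ray_pos hd hpe (t := 1 + t) (by linarith)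
      have h3 := eval_ray_pos hgd hge (t := 1 + t) (by linarith)
      have h4 := mul_nonneg ht h3.le
      rw [h1]
      have h5 : eval ((1 + t) • e) p + (0 + t * 0) * eval ((1 + t) • e) (polarDeriv b p) +
          ((0 + t * 1 + (0 + t * 0)) * eval ((1 + t) • e) g +
            (0 + t * 1) * (0 + t * 0) * eval ((1 + t) • e) (polarDeriv b g)) =
          eval ((1 + t) • e) p + t * eval ((1 + t) • e) g := by ring
      rw [h5]
      exact (by linarith : (0 : ℝ) < _).ne')
    refine HS.pre (inj0 (n + 1)) (fun y => ?_) hs'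
    rw [inj0_apply, map_add, eval_up, tl_cn, eval_F1, eval_F1, eval_F2, tl_cn, cn_zero, hsplit,
      map_add]
    have h1 : (cn 0 y : Fin (n + 2) → ℝ) 1 = y 0 := rfl
    rw [h1]
    ring

/-! ### lineality -/

theorem lineal_zero (hp : IsHyperbolic p e) (h1 : v ∈ hypCone p e) (h2 : -v ∈ hypCone p e) :
    polarDeriv v p = 0 := by
  have c1 : ∀ x ∈ hypCone p e, ∀ u : Fin n → ℝ, u ∈ hypCone p e → -u ∈ hypCone p e →
      eval (x + u) p = eval x p := by
    intro x hx u hu hu'
    have a1 := K_mono hp hx hu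
    have a2 := K_mono hp (K_add hp hx hu) hu'
    rw [add_neg_cancel_right] at a2
    exact le_antisymm a2 a1
  have c2 : ∀ x ∈ hypCone p e, ∀ τ : ℝ, eval (x + τ • v) p = eval x p := by
    intro x hx τ
    rcases le_total 0 τ with hτ | hτ
    · refine c1 x hx _ (K_smul hp h1 hτ) ?_
      rw [← smul_neg]
      exact K_smul hp h2 hτ
    · have hτ' : 0 ≤ -τ := by linarith
      have e1 : τ • v = (-τ) • (-v) := by rw [smul_neg, neg_smul, neg_neg]
      rw [e1]
      refine c1 x hx _ (K_smul hp h2 hτ') ?_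
      rw [← smul_neg, neg_neg]
      exact K_smul hp h1 hτ'
  have c3 : ∀ x ∈ hypCone p e, eval x (polarDeriv v p) = 0 := by
    intro x hx
    have e1 : line p x v = Polynomial.C (eval x p) := by
      apply Polynomial.funext
      intro τ
      rw [eval_line, c2 x hx, Polynomial.eval_C]
    have e2 := eval_derivative_line p x v 0
    rw [e1, Polynomial.derivative_C, Polynomial.eval_zero, zero_smul, add_zero] at e2
    rw [polarDeriv_eq, eval_dirD, ← e2]
  apply MvPolynomial.funext
  intro x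
  rw [map_zero]
  obtain ⟨C₀, hC, hC'⟩ := exists_C_add hp x
  have e1 : line (polarDeriv v p) x e = 0 := by
    apply Polynomial.eq_zero_of_infinite_isRoot
    apply Set.Infinite.mono (s := Set.Ici C₀) _ (Set.Ici_infinite C₀)
    intro s hs
    show Polynomial.IsRoot _ _
    rw [Polynomial.IsRoot.def, eval_line]
    exact c3 _ ((hC' s hs).1.mem hp)
  have e2 := eval_line (polarDeriv v p) x e 0
  rw [e1, Polynomial.eval_zero, zero_smul, add_zero] at e2
  exact e2.symm

theorem Inv.degen (h : Inv R p e) (hp : p ≠ 0) (hv : v ∈ R) {u : Fin n → ℝ} (hu : u ∈ R)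
    (hg : polarDeriv v p ≠ 0) (hug : polarDeriv u (polarDeriv v p) = 0) :
    ∃ c : ℝ, 0 ≤ c ∧ polarDeriv u p = C c * polarDeriv v p := by
  rcases h.pos (w := 0) (Or.inl rfl) one_pos hu with h1 | h1
  · exact ⟨0, le_rfl, by rw [h1, C_0, zero_mul]⟩
  have h2 := (h.pos (w := 0) (Or.inl rfl) one_pos hv).resolve_left hg
  rw [zero_add, one_smul] at h1 h2
  obtain ⟨hP, _⟩ := h.zero_or.resolve_left hp
  obtain ⟨d, hd⟩ := hP.1.1
  set c := eval e (polarDeriv u p) / eval e (polarDeriv v p) with hc
  have hc0 : 0 < c := div_pos h1 h2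
  refine ⟨c, hc0.le, ?_⟩
  set y : Fin n → ℝ := u + (-c) • v with hy
  have hyp : polarDeriv y p = polarDeriv u p + C (-c) * polarDeriv v p := by
    rw [hy, pd_add_dir, pd_smul_dir]
  have hye : eval e (polarDeriv y p) = 0 := by
    rw [hyp, map_add, map_mul, eval_C, hc, neg_mul, div_mul_cancel₀ _ h2.ne', add_neg_cancel]
  have hyy : polarDeriv y (polarDeriv y p) = 0 := by
    rw [hyp, hy, pd_add_dir, pd_smul_dir, pd_add, pd_add, pd_C_mul, pd_C_mul, h.sq u hu,
      h.sq v hv, hug, pd_comm v u, hug]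
    simp
  have haff : St.AffZ p (polarDeriv y p) y := .of_polar rfl hyy
  have key : ∀ t : ℝ, 0 < t → ∀ τ : ℝ, eval (t • e + τ • y) p ≠ 0 := by
    intro t ht τ
    have k1 := pd_eval_smul hd y t e
    rw [hye, mul_zero] at k1
    have k2 := (mul_eq_zero.1 k1).resolve_left ht.ne'
    rw [haff, k2, mul_zero, add_zero]
    exact (eval_ray_pos hd hP.1.2.1 ht).ne'
  have k1 : y ∈ hypCone p e := by
    rw [mem_hypCone_iff hd]
    intro t ht
    have := key t ht 1
    rwa [one_smul, add_comm] at this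
  have k2 : -y ∈ hypCone p e := by
    rw [mem_hypCone_iff hd]
    intro t ht
    have := key t ht (-1)
    rwa [neg_one_smul, add_comm] at this
  have k3 := lineal_zero hP.1 k1 k2
  rw [hyp, C_neg, neg_mul, ← sub_eq_add_neg, sub_eq_zero] at k3
  exact k3

theorem Inv.degen_sum (h : Inv R p e) (hp : p ≠ 0) (hv : v ∈ R) (hg : polarDeriv v p ≠ 0) :
    ∀ l : List (Fin n → ℝ), (∀ u ∈ l, u ∈ R) → polarDeriv l.sum (polarDeriv v p) = 0 →
      ∃ c : ℝ, 0 ≤ c ∧ polarDeriv l.sum p = C c * polarDeriv v p := by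
  intro l
  induction l with
  | nil =>
    intro _ _
    exact ⟨0, le_rfl, by rw [List.sum_nil, pd_zero_dir, C_0, zero_mul]⟩
  | cons u l ih =>
    intro hl h0
    have hu : u ∈ R := hl u List.mem_cons_self
    have hl' : ∀ u' ∈ l, u' ∈ R := fun u' hu' => hl u' (List.mem_cons_of_mem u hu')
    rw [List.sum_cons, pd_add_dir] at h0
    have h1 := (h.pd hv).pos (w := 0) (Or.inl rfl) one_pos hu
    have h2 := (h.pd hv).sum_pos (w := 0) (Or.inl rfl) one_pos l hl'
    have h3 := congrArg (eval (0 + (1 : ℝ) • e)) h0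
    rw [map_add, map_zero] at h3
    have h4 : polarDeriv u (polarDeriv v p) = 0 := by
      rcases h1 with h1 | h1
      · exact h1
      · exfalso
        rcases h2 with h2 | h2
        · rw [h2, map_zero] at h3
          linarith
        · linarith
    have h5 : polarDeriv l.sum (polarDeriv v p) = 0 := by
      rw [h4, zero_add] at h0
      exact h0
    obtain ⟨c1, hc1, e1⟩ := h.degen hp hv hu hg h4
    obtain ⟨c2, hc2, e2⟩ := ih hl' h5
    refine ⟨c1 + c2, add_nonneg hc1 hc2, ?_⟩
    rw [List.sum_cons, pd_add_dir, e1, e2, C_add, add_mul]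

/-! ### the second recursion -/

theorem hs_pd : ∀ l : List (Fin n → ℝ), (∀ u ∈ l, u ∈ R) → ∀ p : MvPolynomial (Fin n) ℝ,
    Inv R p e → polarDeriv l.sum p ≠ 0 → HS (polarDeriv l.sum p) e := by
  intro l
  induction l with
  | nil =>
    intro _ p _ h0
    exact absurd (by rw [List.sum_nil, pd_zero_dir]) h0
  | cons v l ih =>
    intro hl p h h0
    have hp : p ≠ 0 := by
      rintro rfl
      exact h0 (polarDeriv_zero _)
    have hv : v ∈ R := hl v List.mem_cons_self
    have hl' : ∀ u ∈ l, u ∈ R := fun u hu => hl u (List.mem_cons_of_mem v hu)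
    have hG := h.pd hv
    have hsplit : polarDeriv (v + l.sum) p = polarDeriv v p + polarDeriv l.sum p :=
      pd_add_dir v l.sum p
    rw [List.sum_cons] at h0 ⊢
    rw [hsplit] at h0 ⊢
    by_cases hb0 : polarDeriv l.sum p = 0
    · rw [hb0, add_zero] at h0 ⊢
      exact (hG.zero_or.resolve_left h0).1
    by_cases hg0 : polarDeriv v p = 0
    · rw [hg0, zero_add]
      exact ih hl' p h hb0
    by_cases hbg0 : polarDeriv l.sum (polarDeriv v p) = 0
    · obtain ⟨c, hc, hcb⟩ := h.degen_sum hp hv hg0 l hl' hbg0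
      have e1 : polarDeriv v p + polarDeriv l.sum p = C (1 + c) * polarDeriv v p := by
        rw [hcb, C_add, C_1]
        ring
      rw [e1]
      exact (hG.zero_or.resolve_left hg0).1.smul (by linarith)
    have i1 := ih hl' p h hb0
    have i2 := hs_F1 l hl' (polarDeriv v p) hG hg0
    have i3 := ih hl' (polarDeriv v p) hG hbg0
    have hsp := fun (t : ℝ) (ht : 0 < t) =>
      (h.sum_pos (w := v) (Or.inr hv) ht l hl').resolve_left hb0
    have hspg := fun (t : ℝ) (ht : 0 < t) =>
      (hG.sum_pos (w := v) (Or.inr hv) ht l hl').resolve_left hbg0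
    have a2p := h.aff' hv l.sum
    have a1g := hG.aff hv
    have a2g := hG.aff' hv l.sum
    have hsq := h.sq v hv
    obtain ⟨d, hd⟩ := (h.zero_or.resolve_left hp).1.1.1
    have hd1 : d ≠ 0 := by
      rintro rfl
      exact hg0 (polarDeriv_const hd v)
    obtain ⟨k, rfl⟩ : ∃ k, d = k + 1 := ⟨d - 1, by omega⟩
    have hgd : (polarDeriv v p).IsHomogeneous k := pd_homog hd v
    have hbd : (polarDeriv l.sum p).IsHomogeneous k := pd_homog hd l.sum
    have hgK := (hG.zero_or.resolve_left hg0).2 v hv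
    have hgh := (hG.zero_or.resolve_left hg0).1.1
    generalize l.sum = b at *
    generalize polarDeriv v p = g at *
    have a1 : St.AffZ (up (polarDeriv b p)) (up (polarDeriv b g)) (cn 1 v) := by
      intro y τ
      rw [eval_up, eval_up, eval_up, map_add, map_smul, tl_cn, a2p]
    have a2 : St.AffZ (F1 g b) (up (polarDeriv b g)) (cn 1 v) := by
      intro y τ
      rw [eval_up, eval_F1, eval_F1, map_add, map_smul, tl_cn, a1g, a2g, hsq, polarDeriv_zero,
        map_zero]
      have h1 : (y + τ • cn 1 v) 0 = y 0 + τ := by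
        show y 0 + τ * 1 = _
        ring
      rw [h1]
      ring
    have hz1 : (cn 1 v : Fin (n + 1) → ℝ) ∈ hypCone (up (polarDeriv b p)) (cn 0 e) := by
      rw [mem_hypCone_iff (up_homog hbd)]
      intro t ht
      rw [eval_up, map_add, map_smul, tl_cn, tl_cn]
      exact (hsp t ht).ne'
    have hz2 : (cn 1 v : Fin (n + 1) → ℝ) ∈ hypCone (F1 g b) (cn 0 e) := by
      rw [mem_hypCone_iff (F1_homog hgd)]
      intro t ht
      rw [cn_add_smul, eval_F1, tl_cn, cn_zero, mul_zero, add_zero, one_mul]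
      have h1 := hspg t ht
      have h2 := (K_eval_ge hgh hgd hgK ht.le le_rfl).2.1
      exact (by linarith : (0 : ℝ) < _).ne'
    have hs := HS.sum (i1.up 0) i2 (up_homog hbd) (F1_homog hgd) (i3.up 0).1 hz1 hz2 a1 a2
    refine HS.pre (inj0 n) (fun y => ?_) hs
    rw [inj0_apply, map_add, map_add, eval_up, tl_cn, eval_F1, tl_cn, cn_zero]
    ring

/-! ### iteration -/

theorem foldr_comm (a : Fin n → ℝ) (p : MvPolynomial (Fin n) ℝ) (T : List (Fin n → ℝ)) :
    T.foldr polarDeriv (polarDeriv a p) = polarDeriv a (T.foldr polarDeriv p) := by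
  induction T with
  | nil => rfl
  | cons v T ih => rw [List.foldr_cons, List.foldr_cons, ih, pd_comm]

theorem Inv.foldr (h : Inv R p e) (T : List (Fin n → ℝ)) (hT : ∀ v ∈ T, v ∈ R) :
    Inv R (T.foldr polarDeriv p) e := by
  induction T with
  | nil => exact h
  | cons v T ih =>
    rw [List.foldr_cons]
    exact (ih fun u hu => hT u (List.mem_cons_of_mem v hu)).pd (hT v List.mem_cons_self)

theorem Inv.sum (h : Inv R p e) (l : List (Fin n → ℝ)) (hl : ∀ u ∈ l, u ∈ R) :
    Inv R (polarDeriv l.sum p) e where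
  der T hT := by
    rw [foldr_comm]
    by_cases h0 : polarDeriv l.sum (T.foldr polarDeriv p) = 0
    · exact Or.inl h0
    · right
      have hT' := h.foldr T hT
      have h1 := hs_pd l hl _ hT' h0
      refine ⟨h1, fun v hv => ?_⟩
      obtain ⟨d, hd⟩ := h1.1.1
      rw [mem_hypCone_iff hd]
      intro t ht
      exact ((hT'.sum_pos (Or.inr hv) ht l hl).resolve_left h0).ne'
  sq u hu := by rw [pd_comm u l.sum p, pd_comm u l.sum (polarDeriv u p), h.sq u hu,
    polarDeriv_zero]

theorem Inv.list (h : Inv R p e) : ∀ as : List (Fin n → ℝ),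
    (∀ a ∈ as, ∃ l : List (Fin n → ℝ), (∀ u ∈ l, u ∈ R) ∧ l.sum = a) →
      Inv R (as.foldr polarDeriv p) e := by
  intro as
  induction as with
  | nil => intro _; exact h
  | cons a as ih =>
    intro has
    rw [List.foldr_cons]
    obtain ⟨l, hl, rfl⟩ := has a List.mem_cons_self
    exact (ih fun b hb => has b (List.mem_cons_of_mem _ hb)).sum l hl

end Vale.Agent.P256.Mx
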