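import Vale.Agent.P256.H186.Mix2
import Mathlib.Analysis.LocallyConvex.SeparatingDual

/-! Mixed derivatives: definite determinants. -/

namespace Vale.Agent.P256.Mx

open MvPolynomial Matrix

variable {n : ℕ} {p : MvPolynomial (Fin n) ℝ} {e v : Fin n → ℝ} {R : Set (Fin n → ℝ)}

/-- `p` is a positive multiple of a definite determinant in which the directions of `R` have rank
at most one -/
def DetR (R : Set (Fin n → ℝ)) (p : MvPolynomial (Fin n) ℝ) (e : Fin n → ℝ) : Prop :=
  ∃ (m : ℕ) (c : ℝ) (M : (Fin n → ℝ) →ₗ[ℝ] Matrix (Fin m) (Fin m) ℝ), 0 < c ∧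
    (∀ x, (M x).IsSymm) ∧ (M e).PosDef ∧ (∀ x, eval x p = c * (M x).det) ∧
    ∀ v ∈ R, ∃ u : Fin m → ℝ, M v = vecMulVec u u

/-- the derivative of a polynomial which is affine on lines of direction `v` -/
theorem pd_of_affine {f : (Fin n → ℝ) → ℝ}
    (h : ∀ (x : Fin n → ℝ) (τ : ℝ), eval (x + τ • v) p = eval x p + τ * f x)
    (x : Fin n → ℝ) : eval x (polarDeriv v p) = f x := by
  have e1 : line p x v = Polynomial.C (eval x p) + Polynomial.X * Polynomial.C (f x) := by
    apply Polynomial.funext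
    intro τ
    rw [eval_line, h, Polynomial.eval_add, Polynomial.eval_mul, Polynomial.eval_C,
      Polynomial.eval_C, Polynomial.eval_X]
  have e2 := eval_derivative_line p x v 0
  rw [e1, zero_smul, add_zero] at e2
  rw [polarDeriv_eq, eval_dirD, ← e2]
  simp

theorem psd_rank_one {m : ℕ} (u : Fin m → ℝ) : (vecMulVec u u).PosSemidef := by
  have := posSemidef_vecMulVec_self_star u
  rwa [star_trivial] at this

theorem DetR.hs (h : DetR R p e) : HS p e ∧ ∀ v ∈ R, v ∈ hypCone p e := by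
  obtain ⟨m, c, M, hc, hs, he, hp, hR⟩ := h
  have h1 : ∀ x, eval x (C c⁻¹ * p) = (M x).det := by
    intro x
    rw [map_mul, eval_C, hp, ← mul_assoc, inv_mul_cancel₀ hc.ne', one_mul]
  have h2 : HS (C c⁻¹ * p) e := det_hyp_shad M hs he h1
  have h3 : C c * (C c⁻¹ * p) = p := by
    rw [← mul_assoc, ← C_mul, mul_inv_cancel₀ hc.ne', C_1, one_mul]
  have h4 := h2.smul hc
  rw [h3] at h4
  refine ⟨h4, fun v hv => ?_⟩
  obtain ⟨d, hd⟩ := h4.1.1
  rw [mem_hypCone_iff hd]
  intro t ht
  obtain ⟨u, hu⟩ := hR v hv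
  rw [hp, map_add, map_smul, hu]
  have h5 : (vecMulVec u u + t • M e).PosDef := by
    rw [add_comm]
    exact (he.smul ht).add_posSemidef (psd_rank_one u)
  exact mul_ne_zero hc.ne' h5.det_pos.ne'

/-- the first unit vector -/
def e0 (m : ℕ) : Fin (m + 1) → ℝ := Pi.single 0 1

theorem e0_zero (m : ℕ) : e0 m 0 = 1 := by simp [e0]

theorem e0_succ {m : ℕ} (j : Fin m) : e0 m j.succ = 0 := by simp [e0]

theorem exists_frame {m : ℕ} {u : Fin (m + 1) → ℝ} (hu : u ≠ 0) :
    ∃ G : Matrix (Fin (m + 1)) (Fin (m + 1)) ℝ, IsUnit G ∧ G *ᵥ u = e0 m := by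
  have h0 : e0 m ≠ 0 := by
    intro h
    have := congrFun h 0
    simp [e0_zero] at this
  obtain ⟨A, hA⟩ := SeparatingDual.exists_continuousLinearEquiv_apply_eq (R := ℝ) hu h0
  refine ⟨LinearMap.toMatrix' A.toLinearEquiv.toLinearMap, ?_, ?_⟩
  · have h1 : LinearMap.toMatrix' A.toLinearEquiv.toLinearMap *
        LinearMap.toMatrix' A.toLinearEquiv.symm.toLinearMap = 1 := by
      rw [← LinearMap.toMatrix'_comp, LinearEquiv.comp_coe, LinearEquiv.symm_trans_self]
      exact LinearMap.toMatrix'_id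
    exact IsUnit.of_mul_eq_one _ h1
  · rw [LinearMap.toMatrix'_mulVec]
    exact hA

theorem det_add_corner {m : ℕ} (N : Matrix (Fin (m + 1)) (Fin (m + 1)) ℝ) (τ : ℝ) :
    (N + τ • vecMulVec (e0 m) (e0 m)).det =
      N.det + τ * (N.submatrix Fin.succ Fin.succ).det := by
  rw [det_succ_row_zero, det_succ_row_zero N, Fin.sum_univ_succ, Fin.sum_univ_succ]
  have h1 : ∀ j : Fin (m + 1), (N + τ • vecMulVec (e0 m) (e0 m)).submatrix
      Fin.succ j.succAbove = N.submatrix Fin.succ j.succAbove := by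
    intro j
    ext a b
    rw [submatrix_apply, submatrix_apply, Matrix.add_apply, Matrix.smul_apply, vecMulVec_apply,
      e0_succ, zero_mul, smul_zero, add_zero]
  have h2 : (N + τ • vecMulVec (e0 m) (e0 m)) 0 0 = N 0 0 + τ := by
    rw [Matrix.add_apply, Matrix.smul_apply, vecMulVec_apply, e0_zero, smul_eq_mul, mul_one,
      mul_one]
  have h3 : ∀ j : Fin m, (N + τ • vecMulVec (e0 m) (e0 m)) 0 j.succ = N 0 j.succ := by
    intro j
    rw [Matrix.add_apply, Matrix.smul_apply, vecMulVec_apply, e0_succ, mul_zero, smul_zero,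
      add_zero]
  have h4 : (Fin.succAbove (0 : Fin (m + 1)) : Fin m → Fin (m + 1)) = Fin.succ := by
    funext j
    exact Fin.zero_succAbove j
  have h5 := h1 0
  rw [h4] at h5
  simp only [h1, h2, h3, h4, h5, Fin.val_zero, pow_zero, one_mul]
  ring

theorem DetR.sq_pd (h : DetR R p e) (hv : v ∈ R) :
    polarDeriv v (polarDeriv v p) = 0 ∧ (polarDeriv v p = 0 ∨ DetR R (polarDeriv v p) e) := by
  obtain ⟨m, c, M, hc, hs, he, hp, hR⟩ := h
  obtain ⟨u, hu⟩ := hR v hv
  by_cases hu0 : u = 0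
  · have h1 : polarDeriv v p = 0 := by
      apply MvPolynomial.funext
      intro x
      rw [pd_of_affine (f := fun _ => 0) (fun x τ => ?_) x, map_zero]
      rw [hp, hp, map_add, map_smul, hu, hu0, zero_vecMulVec, smul_zero, add_zero, mul_zero,
        add_zero]
    exact ⟨by rw [h1, polarDeriv_zero], Or.inl h1⟩
  obtain ⟨m, rfl⟩ : ∃ m', m = m' + 1 := by
    rcases m with _ | m
    · exact absurd (Subsingleton.elim u 0) hu0
    · exact ⟨m, rfl⟩
  obtain ⟨G, hG, hGu⟩ := exists_frame hu0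
  have hGd : G.det ≠ 0 := by
    have := (Matrix.isUnit_iff_isUnit_det G).1 hG
    exact this.ne_zero
  -- the compression
  let M' : (Fin n → ℝ) →ₗ[ℝ] Matrix (Fin m) (Fin m) ℝ :=
    { toFun := fun x => (G * M x * Gᵀ).submatrix Fin.succ Fin.succ
      map_add' := fun x y => by rw [map_add, Matrix.mul_add, Matrix.add_mul]; rfl
      map_smul' := fun r x => by rw [map_smul, Matrix.mul_smul, Matrix.smul_mul]; rfl }
  have hM' : ∀ x, M' x = (G * M x * Gᵀ).submatrix Fin.succ Fin.succ := fun x => rfl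
  have hrk : ∀ w : Fin (m + 1) → ℝ, G * vecMulVec w w * Gᵀ = vecMulVec (G *ᵥ w) (G *ᵥ w) := by
    intro w
    rw [mul_vecMulVec, vecMulVec_mul, vecMul_transpose]
  have hNv : G * M v * Gᵀ = vecMulVec (e0 m) (e0 m) := by
    rw [hu, hrk, hGu]
  have hM'v : M' v = 0 := by
    rw [hM', hNv]
    ext a b
    rw [submatrix_apply, vecMulVec_apply, e0_succ, zero_mul, Matrix.zero_apply]
  have hdet : ∀ x, (G * M x * Gᵀ).det = G.det ^ 2 * (M x).det := by
    intro x
    rw [det_mul, det_mul, det_transpose]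
    ring
  have hG2 : 0 < G.det ^ 2 := by positivity
  have haff : ∀ (x : Fin n → ℝ) (τ : ℝ), eval (x + τ • v) p =
      eval x p + τ * (c / G.det ^ 2 * (M' x).det) := by
    intro x τ
    have h1 := hdet (x + τ • v)
    have h2 : G * M (x + τ • v) * Gᵀ = G * M x * Gᵀ +
        τ • vecMulVec (e0 m) (e0 m) := by
      rw [map_add, map_smul, Matrix.mul_add, Matrix.add_mul, Matrix.mul_smul, Matrix.smul_mul, hNv]
    rw [h2, det_add_corner, hdet x] at h1
    rw [hp, hp, hM']
    field_simp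
    linarith
  have hpd := pd_of_affine haff
  refine ⟨?_, Or.inr ⟨m, c / G.det ^ 2, M', div_pos hc hG2, ?_, ?_, hpd, ?_⟩⟩
  · apply MvPolynomial.funext
    intro x
    rw [pd_of_affine (f := fun _ => 0) (fun x τ => ?_) x, map_zero]
    rw [hpd, hpd, map_add, map_smul, hM'v, smul_zero, add_zero, mul_zero, add_zero]
  · intro x
    rw [hM', Matrix.IsSymm, transpose_submatrix, transpose_mul, transpose_mul,
      transpose_transpose, (hs x).eq, Matrix.mul_assoc]
  · rw [hM']
    have h1 : (G * M e * Gᴴ).PosDef :=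
      he.mul_mul_conjTranspose_same (Matrix.vecMul_injective_iff_isUnit.2 hG)
    rw [conjTranspose_eq_transpose_of_trivial] at h1
    exact h1.submatrix (Fin.succ_injective m)
  · intro w hw
    obtain ⟨u', hu'⟩ := hR w hw
    refine ⟨fun i => (G *ᵥ u') i.succ, ?_⟩
    rw [hM', hu', hrk]
    rfl

theorem DetR.foldr (h : DetR R p e) (T : List (Fin n → ℝ)) (hT : ∀ v ∈ T, v ∈ R) :
    T.foldr polarDeriv p = 0 ∨ DetR R (T.foldr polarDeriv p) e := by
  induction T with
  | nil => exact Or.inr h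
  | cons v T ih =>
    rw [List.foldr_cons]
    rcases ih fun u hu => hT u (List.mem_cons_of_mem v hu) with h1 | h1
    · left
      rw [h1, polarDeriv_zero]
    · exact (h1.sq_pd (hT v List.mem_cons_self)).2

theorem DetR.inv (h : DetR R p e) : Inv R p e where
  der T hT := (h.foldr T hT).imp id fun h1 => h1.hs
  sq _ hv := (h.sq_pd hv).1

/-- a positive semidefinite matrix is a sum of matrices of rank one -/
theorem psd_list {m : ℕ} {S : Matrix (Fin m) (Fin m) ℝ} (hS : S.PosSemidef) :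
    ∃ l : List (Fin m → ℝ), (l.map fun u => vecMulVec u u).sum = S := by
  obtain ⟨B, hB⟩ : ∃ B : Matrix (Fin m) (Fin m) ℝ, S = B.transpose * B := by
    open scoped MatrixOrder Matrix.Norms.L2Operator in
    obtain ⟨B, hB⟩ := CStarAlgebra.nonneg_iff_eq_star_mul_self.mp hS.nonneg
    refine ⟨B, ?_⟩
    rw [hB, Matrix.star_eq_conjTranspose, Matrix.conjTranspose_eq_transpose_of_trivial]
  refine ⟨List.ofFn fun k => B k, ?_⟩
  rw [List.map_ofFn, List.sum_ofFn, hB]
  ext i j
  rw [Matrix.sum_apply, Matrix.mul_apply]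
  rfl

/-- mixed derivatives of definite determinants -/
theorem det_main {m : ℕ} (M : (Fin n → ℝ) →ₗ[ℝ] Matrix (Fin m) (Fin m) ℝ)
    (hs : ∀ x, (M x).IsSymm) (he : (M e).PosDef) (hp : ∀ x, eval x p = (M x).det)
    (as : List (Fin n → ℝ)) (has : ∀ a ∈ as, (M a).PosSemidef)
    (hne : as.foldr polarDeriv p ≠ 0) : HS (as.foldr polarDeriv p) e := by
  let A : (Fin n → ℝ) →ₗ[ℝ] (Fin (m * m) → ℝ) := vecE ∘ₗ M
  have hA : ∀ x, A x = vecE (M x) := fun x => rfl
  have hpA : ∀ x, eval x p = eval (A x) (detP m) := by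
    intro x
    rw [hp, hA, eval_detP, symM_vecE (hs x)]
  have h1 : DetR {y | ∃ u : Fin m → ℝ, symM y = vecMulVec u u} (detP m) (A e) := by
    refine ⟨m, 1, symM, one_pos, symM_symm, ?_, fun y => ?_, fun y hy => hy⟩
    · rw [hA, symM_vecE (hs e)]
      exact he
    · rw [one_mul, eval_detP]
  have h2 := h1.inv.list (as.map A) (by
    intro a' ha'
    obtain ⟨a, ha, rfl⟩ := List.mem_map.1 ha'
    obtain ⟨l, hl⟩ := psd_list (has a ha)
    refine ⟨(l.map fun u => vecMulVec u u).map vecE, ?_, ?_⟩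
    · intro y hy
      rw [List.map_map] at hy
      obtain ⟨u, _, rfl⟩ := List.mem_map.1 hy
      refine ⟨u, ?_⟩
      show symM (vecE (vecMulVec u u)) = _
      refine symM_vecE ?_
      ext i j
      rw [transpose_apply, vecMulVec_apply, vecMulVec_apply, mul_comm]
    · rw [hA, ← hl, map_list_sum])
  have hev := eval_list_pre A hpA as
  rcases h2.zero_or with h3 | h3
  · exfalso
    apply hne
    apply MvPolynomial.funext
    intro x
    rw [hev, h3, map_zero, map_zero]
  · exact HS.pre A hev h3.1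

end Vale.Agent.P256.Mx
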