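import Vale.Agent.P256.H186.Mix3

/-! Mixed derivatives of definite determinants in directions of the closed cone. -/

namespace Vale.Agent.P256.Mx

open MvPolynomial Matrix

variable {n : ℕ} {p : MvPolynomial (Fin n) ℝ} {e : Fin n → ℝ}

/-- the cone of a definite determinant -/
theorem psd_of_mem {m : ℕ} (M : (Fin n → ℝ) →ₗ[ℝ] Matrix (Fin m) (Fin m) ℝ)
    (hs : ∀ x, (M x).IsSymm) (he : (M e).PosDef) (hp : ∀ x, eval x p = (M x).det)
    {a : Fin n → ℝ} (ha : a ∈ hypCone p e) : (M a).PosSemidef := by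
  let A : (Fin n → ℝ) →ₗ[ℝ] (Fin (m * m) → ℝ) := vecE ∘ₗ M
  have hA : ∀ x, A x = vecE (M x) := fun x => rfl
  have hpA : ∀ x, eval x p = eval (A x) (detP m) := by
    intro x
    rw [hp, hA, eval_detP, symM_vecE (hs x)]
  have hopen : InOpen (detP m) (vecE (1 : Matrix (Fin m) (Fin m) ℝ)) (A e) := by
    intro t ht
    rw [hA, ← map_smul, ← map_add, eval_detP, symM_vecE ((hs e).add (isSymm_one.smul t))]
    have h1 : (M e + t • (1 : Matrix (Fin m) (Fin m) ℝ)).PosDef :=
      he.add_posSemidef (Matrix.PosSemidef.one.smul ht)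
    exact h1.det_pos.ne'
  rw [hypCone_pre A hpA, Set.mem_preimage, K_eq detP_hyp hopen, detP_cone, Set.mem_ofPred_eq,
    hA, symM_vecE (hs a)] at ha
  exact ha

theorem det_top {m : ℕ} (A : Fin n → Matrix (Fin m) (Fin m) ℝ) (hA : ∀ i, (A i).IsSymm)
    (he : (∑ i, e i • A i).PosDef) (hp : ∀ x, eval x p = (∑ i, x i • A i).det)
    (as : List (Fin n → ℝ)) (has : ∀ a ∈ as, a ∈ hypCone p e)
    (hne : as.foldr polarDeriv p ≠ 0) :
    IsHyperbolic (as.foldr polarDeriv p) e ∧
      IsSpectrahedralShadow (hypCone (as.foldr polarDeriv p) e) := by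
  let M : (Fin n → ℝ) →ₗ[ℝ] Matrix (Fin m) (Fin m) ℝ :=
    { toFun := fun x => ∑ i, x i • A i
      map_add' := fun x y => by
        simp only [Pi.add_apply, add_smul, Finset.sum_add_distrib]
      map_smul' := fun c x => by
        simp only [Pi.smul_apply, smul_eq_mul, mul_smul, Finset.smul_sum, RingHom.id_apply] }
  have hs : ∀ x, (M x).IsSymm := by
    intro x
    show (∑ i, x i • A i).IsSymm
    rw [Matrix.IsSymm, Matrix.transpose_sum]
    refine Finset.sum_congr rfl fun j _ => ?_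
    rw [Matrix.transpose_smul, (hA j).eq]
  have h1 := det_main M hs he hp as (fun a ha => psd_of_mem M hs he hp (has a ha)) hne
  exact ⟨h1.1, h1.2.shadow⟩

end Vale.Agent.P256.Mx
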