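import Vale.Agent.P256.H186.Mix2

/-! The closure of a linear image of a cone given by a linear matrix inequality is a spectrahedral
shadow. -/

set_option linter.all false

namespace Vale.Agent.P256.Mx

open Matrix Topology Filter

section Cl

variable {n : ℕ} {α ι : Type} [Fintype α] [Fintype ι]

/-- the bilinear form of the matrix `F w` -/
def bq (F : (α → ℝ) →ₗ[ℝ] Matrix ι ι ℝ) (w : α → ℝ) (ξ η : ι → ℝ) : ℝ := ξ ⬝ᵥ (F w *ᵥ η)

variable {F : (α → ℝ) →ₗ[ℝ] Matrix ι ι ℝ} {V : Submodule ℝ (ι → ℝ)}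

theorem bq_add (w w' : α → ℝ) (ξ η : ι → ℝ) :
    bq F (w + w') ξ η = bq F w ξ η + bq F w' ξ η := by
  rw [bq, bq, bq, map_add, add_mulVec, dotProduct_add]

theorem bq_smul (c : ℝ) (w : α → ℝ) (ξ η : ι → ℝ) : bq F (c • w) ξ η = c * bq F w ξ η := by
  rw [bq, bq, map_smul, smul_mulVec, dotProduct_smul, smul_eq_mul]

theorem bq_add_left (w : α → ℝ) (ξ ξ' η : ι → ℝ) :
    bq F w (ξ + ξ') η = bq F w ξ η + bq F w ξ' η := by
  rw [bq, bq, bq, add_dotProduct]

theorem bq_smul_left (w : α → ℝ) (c : ℝ) (ξ η : ι → ℝ) :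
    bq F w (c • ξ) η = c * bq F w ξ η := by
  rw [bq, bq, smul_dotProduct, smul_eq_mul]

theorem bq_add_right (w : α → ℝ) (ξ η η' : ι → ℝ) :
    bq F w ξ (η + η') = bq F w ξ η + bq F w ξ η' := by
  rw [bq, bq, bq, mulVec_add, dotProduct_add]

theorem bq_smul_right (w : α → ℝ) (c : ℝ) (ξ η : ι → ℝ) :
    bq F w ξ (c • η) = c * bq F w ξ η := by
  rw [bq, bq, mulVec_smul, dotProduct_smul, smul_eq_mul]

theorem bq_symm (hF : ∀ w, (F w).IsSymm) (w : α → ℝ) (ξ η : ι → ℝ) :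
    bq F w ξ η = bq F w η ξ := by
  rw [bq, bq, dotProduct_mulVec, ← mulVec_transpose, (hF w).eq, dotProduct_comm]

theorem bq_zero (w : α → ℝ) (ξ : ι → ℝ) : bq F w 0 ξ = 0 := by
  rw [bq, zero_dotProduct]

theorem bq_expand (hF : ∀ w, (F w).IsSymm) (w : α → ℝ) (ξ η : ι → ℝ) (s : ℝ) :
    bq F w (ξ + s • η) (ξ + s • η) =
      bq F w ξ ξ + 2 * s * bq F w η ξ + s ^ 2 * bq F w η η := by
  rw [bq_add_left, bq_add_right, bq_add_right, bq_smul_left, bq_smul_left, bq_smul_right,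
    bq_smul_right, bq_symm hF w ξ η]
  ring

theorem cont_w (ξ η : ι → ℝ) : Continuous fun w => bq F w ξ η := by
  have h1 : Continuous F := F.continuous_of_finiteDimensional
  exact Continuous.dotProduct continuous_const (Continuous.matrix_mulVec h1 continuous_const)

theorem cont_xi (w : α → ℝ) : Continuous fun ξ : ι → ℝ => bq F w ξ ξ :=
  Continuous.dotProduct continuous_id (Continuous.matrix_mulVec continuous_const continuous_id)

/-- `F w` is positive semidefinite on `V` -/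
def Lam (F : (α → ℝ) →ₗ[ℝ] Matrix ι ι ℝ) (V : Submodule ℝ (ι → ℝ)) : Set (α → ℝ) :=
  {w | ∀ ξ ∈ V, 0 ≤ bq F w ξ ξ}

theorem Lam_zero : (0 : α → ℝ) ∈ Lam F V := by
  intro ξ _
  rw [bq, map_zero, zero_mulVec, dotProduct_zero]

theorem Lam_add {w w' : α → ℝ} (h : w ∈ Lam F V) (h' : w' ∈ Lam F V) : w + w' ∈ Lam F V := by
  intro ξ hξ
  rw [bq_add]
  exact add_nonneg (h ξ hξ) (h' ξ hξ)

theorem Lam_smul {w : α → ℝ} (h : w ∈ Lam F V) {c : ℝ} (hc : 0 ≤ c) : c • w ∈ Lam F V := by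
  intro ξ hξ
  rw [bq_smul]
  exact mul_nonneg hc (h ξ hξ)

theorem Lam_closed : IsClosed (Lam F V) := by
  have h1 : Lam F V = ⋂ ξ : ι → ℝ, ⋂ _ : ξ ∈ V, {w | 0 ≤ bq F w ξ ξ} := by
    ext w
    simp [Lam]
  rw [h1]
  exact isClosed_iInter fun ξ => isClosed_iInter fun _ =>
    isClosed_le continuous_const (cont_w ξ ξ)

theorem cs (hF : ∀ w, (F w).IsSymm) {w : α → ℝ} (hw : w ∈ Lam F V) {ξ : ι → ℝ} (hξ : ξ ∈ V)
    (h0 : bq F w ξ ξ = 0) {η : ι → ℝ} (hη : η ∈ V) : bq F w η ξ = 0 := by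
  have h1 : ∀ s : ℝ, 0 ≤ 2 * s * bq F w η ξ + s ^ 2 * bq F w η η := by
    intro s
    have h2 := hw _ (V.add_mem hξ (V.smul_mem s hη))
    rw [bq_expand hF, h0, zero_add] at h2
    exact h2
  set b := bq F w η ξ
  set c := bq F w η η with hc
  have hc0 : 0 ≤ c := hw η hη
  have h3 := h1 (-b / (c + 1))
  have hc1 : 0 < c + 1 := by linarith
  have h4 : 2 * (-b / (c + 1)) * b + (-b / (c + 1)) ^ 2 * c =
      -(b ^ 2 * (c + 2)) / (c + 1) ^ 2 := by
    field_simp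
    ring
  rw [h4] at h3
  have h5 : 0 ≤ -(b ^ 2 * (c + 2)) := by
    by_contra h6
    push Not at h6
    have := div_neg_of_neg_of_pos h6 (by positivity : 0 < (c + 1) ^ 2)
    linarith
  have h6 : b ^ 2 = 0 := by nlinarith [sq_nonneg b]
  exact pow_eq_zero_iff (two_ne_zero) |>.1 h6

theorem Lam_of_unit {w : α → ℝ} (h : ∀ ξ ∈ V, ‖ξ‖ = 1 → 0 ≤ bq F w ξ ξ) : w ∈ Lam F V := by
  intro ξ hξ
  by_cases h0 : ξ = 0
  · rw [h0, bq_zero]
  have h1 : 0 < ‖ξ‖ := norm_pos_iff.2 h0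
  have h2 := h (‖ξ‖⁻¹ • ξ) (V.smul_mem _ hξ) (by
    rw [norm_smul, norm_inv, norm_norm, inv_mul_cancel₀ h1.ne'])
  rw [bq_smul_left, bq_smul_right, ← mul_assoc] at h2
  have h3 : 0 < ‖ξ‖⁻¹ * ‖ξ‖⁻¹ := by positivity
  exact nonneg_of_mul_nonneg_right h2 h3

theorem closed_image {D : Set (α → ℝ)} (hD : IsClosed D)
    (hs : ∀ w ∈ D, ∀ c : ℝ, 0 ≤ c → c • w ∈ D) (π : (α → ℝ) →ₗ[ℝ] (Fin n → ℝ))
    (h0 : ∀ w ∈ D, π w = 0 → w = 0) : IsClosed (π '' D) := by
  have hπ : Continuous π := π.continuous_of_finiteDimensional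
  have hK : IsCompact (D ∩ Metric.sphere 0 1) := (isCompact_sphere 0 1).inter_left hD
  have hunit : ∀ w ∈ D, w ≠ 0 → ‖w‖⁻¹ • w ∈ D ∩ Metric.sphere 0 1 := by
    intro w hw hw0
    refine ⟨hs w hw _ (by positivity), ?_⟩
    rw [mem_sphere_zero_iff_norm, norm_smul, norm_inv, norm_norm,
      inv_mul_cancel₀ (norm_pos_iff.2 hw0).ne']
  obtain ⟨δ, hδ, hδ'⟩ : ∃ δ : ℝ, 0 < δ ∧ ∀ w ∈ D, δ * ‖w‖ ≤ ‖π w‖ := by
    by_cases hne : (D ∩ Metric.sphere 0 1).Nonempty
    · obtain ⟨w₀, hw₀, hmin⟩ := hK.exists_isMinOn hne (hπ.norm.continuousOn)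
      have hw₀0 : w₀ ≠ 0 := by
        rintro rfl
        have := hw₀.2
        rw [mem_sphere_zero_iff_norm, norm_zero] at this
        exact zero_ne_one this
      refine ⟨‖π w₀‖, norm_pos_iff.2 fun h => hw₀0 (h0 w₀ hw₀.1 h), fun w hw => ?_⟩
      by_cases hw0 : w = 0
      · rw [hw0, norm_zero, mul_zero]
        positivity
      have h1 : 0 < ‖w‖ := norm_pos_iff.2 hw0
      have h2 := hmin (hunit w hw hw0)
      simp only [Set.mem_ofPred_eq, map_smul, norm_smul, norm_inv, norm_norm] at h2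
      rwa [inv_mul_eq_div, le_div_iff₀ h1] at h2
    · refine ⟨1, one_pos, fun w hw => ?_⟩
      by_cases hw0 : w = 0
      · rw [hw0, norm_zero, mul_zero]
        positivity
      exact absurd ⟨_, hunit w hw hw0⟩ hne
  refine isSeqClosed_iff_isClosed.1 fun y y' hy hy' => ?_
  choose w hw using hy
  obtain ⟨C, hC⟩ := (Metric.isBounded_range_of_tendsto y hy').exists_norm_le
  have hb : ∀ k, w k ∈ Metric.closedBall (0 : α → ℝ) (C / δ) := by
    intro k
    rw [mem_closedBall_zero_iff, le_div_iff₀ hδ, mul_comm]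
    have h1 := hδ' (w k) (hw k).1
    rw [(hw k).2] at h1
    exact h1.trans (hC _ (Set.mem_range_self k))
  obtain ⟨w', -, φ, hφ, hlim⟩ := (isCompact_closedBall (0 : α → ℝ) (C / δ)).tendsto_subseq hb
  refine ⟨w', hD.mem_of_tendsto hlim (Eventually.of_forall fun k => (hw (φ k)).1), ?_⟩
  have h1 : Tendsto (fun k => π (w (φ k))) atTop (𝓝 (π w')) := (hπ.tendsto w').comp hlim
  have h2 : Tendsto (fun k => π (w (φ k))) atTop (𝓝 y') := by
    have : (fun k => π (w (φ k))) = y ∘ φ := by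
      funext k
      exact (hw (φ k)).2
    rw [this]
    exact hy'.comp hφ.tendsto_atTop
  exact tendsto_nhds_unique h1 h2

theorem finsler (hF : ∀ w, (F w).IsSymm) {w w1 : α → ℝ} (h1 : w1 ∈ Lam F V)
    (h2 : ∀ ξ ∈ V, ξ ≠ 0 → (∀ η ∈ V, bq F w1 η ξ = 0) → 0 < bq F w ξ ξ) :
    ∃ τ : ℝ, w + τ • w1 ∈ Lam F V := by
  have hVc : IsClosed (V : Set (ι → ℝ)) := V.closed_of_finiteDimensional
  have hK : IsCompact ((V : Set (ι → ℝ)) ∩ {ξ | bq F w ξ ξ ≤ 0} ∩ Metric.sphere 0 1) :=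
    (isCompact_sphere 0 1).inter_left (hVc.inter (isClosed_le (cont_xi w) continuous_const))
  by_cases hne : ((V : Set (ι → ℝ)) ∩ {ξ | bq F w ξ ξ ≤ 0} ∩ Metric.sphere 0 1).Nonempty
  · obtain ⟨ξ₀, hξ₀, hmin⟩ := hK.exists_isMinOn hne (cont_xi (F := F) w1).continuousOn
    obtain ⟨ξ₁, hξ₁, hmin'⟩ := hK.exists_isMinOn hne (cont_xi (F := F) w).continuousOn
    have hξ₀0 : ξ₀ ≠ 0 := by
      rintro rfl
      have := hξ₀.2
      rw [mem_sphere_zero_iff_norm, norm_zero] at this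
      exact zero_ne_one this
    have hδ : 0 < bq F w1 ξ₀ ξ₀ := by
      rcases (h1 ξ₀ hξ₀.1.1).eq_or_lt with h | h
      · exfalso
        have := h2 ξ₀ hξ₀.1.1 hξ₀0 fun η hη => cs hF h1 hξ₀.1.1 h.symm hη
        exact absurd hξ₀.1.2 (not_le.2 this)
      · exact h
    have hm : bq F w ξ₁ ξ₁ ≤ 0 := hξ₁.1.2
    refine ⟨-bq F w ξ₁ ξ₁ / bq F w1 ξ₀ ξ₀, Lam_of_unit fun ξ hξ hn => ?_⟩
    rw [bq_add, bq_smul]
    have hτ : 0 ≤ -bq F w ξ₁ ξ₁ / bq F w1 ξ₀ ξ₀ := div_nonneg (by linarith) hδ.le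
    by_cases h3 : bq F w ξ ξ ≤ 0
    · have hmem : ξ ∈ (V : Set (ι → ℝ)) ∩ {ξ | bq F w ξ ξ ≤ 0} ∩ Metric.sphere 0 1 :=
        ⟨⟨hξ, h3⟩, by rw [mem_sphere_zero_iff_norm, hn]⟩
      have h4 : bq F w1 ξ₀ ξ₀ ≤ bq F w1 ξ ξ := hmin hmem
      have h5 : bq F w ξ₁ ξ₁ ≤ bq F w ξ ξ := hmin' hmem
      have h6 := mul_le_mul_of_nonneg_left h4 hτ
      rw [div_mul_cancel₀ _ hδ.ne'] at h6
      linarith
    · push Not at h3
      have h4 := mul_nonneg hτ (h1 ξ hξ)
      linarith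
  · refine ⟨0, Lam_of_unit fun ξ hξ hn => ?_⟩
    rw [zero_smul, add_zero]
    by_contra h3
    push Not at h3
    exact hne ⟨ξ, ⟨hξ, h3.le⟩, by rw [mem_sphere_zero_iff_norm, hn]⟩

/-- the radical on `V` -/
def rad (F : (α → ℝ) →ₗ[ℝ] Matrix ι ι ℝ) (w : α → ℝ) (V : Submodule ℝ (ι → ℝ)) :
    Submodule ℝ (ι → ℝ) where
  carrier := {ξ | ξ ∈ V ∧ ∀ η ∈ V, bq F w η ξ = 0}
  zero_mem' := ⟨V.zero_mem, fun η _ => by rw [bq, mulVec_zero, dotProduct_zero]⟩
  add_mem' := fun {a b} ha hb => ⟨V.add_mem ha.1 hb.1, fun η hη => by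
    rw [bq_add_right, ha.2 η hη, hb.2 η hη, add_zero]⟩
  smul_mem' := fun c a ha => ⟨V.smul_mem c ha.1, fun η hη => by
    rw [bq_smul_right, ha.2 η hη, mul_zero]⟩

theorem rad_le (w : α → ℝ) : rad F w V ≤ V := fun _ h => h.1

theorem exists_pos (hF : ∀ w, (F w).IsSymm)
    (h : ∀ ξ ∈ V, ξ ≠ 0 → ∃ w ∈ Lam F V, bq F w ξ ξ ≠ 0) :
    ∃ w ∈ Lam F V, ∀ ξ ∈ V, ξ ≠ 0 → 0 < bq F w ξ ξ := by
  classical
  have hex : ∃ k : ℕ, ∃ w ∈ Lam F V, Module.finrank ℝ (rad F w V) = k :=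
    ⟨_, 0, Lam_zero, rfl⟩
  obtain ⟨w₁, hw₁, hk⟩ := Nat.find_spec hex
  have hmin := fun (w : α → ℝ) (hw : w ∈ Lam F V) =>
    Nat.find_min' hex ⟨w, hw, rfl⟩
  refine ⟨w₁, hw₁, fun ξ hξ hξ0 => ?_⟩
  rcases (hw₁ ξ hξ).eq_or_lt with h0 | h0
  · exfalso
    obtain ⟨w, hw, hne⟩ := h ξ hξ hξ0
    have hpos : 0 < bq F w ξ ξ := lt_of_le_of_ne (hw ξ hξ) hne.symm
    have hlt : rad F (w + w₁) V < rad F w₁ V := by
      refine lt_of_le_of_ne ?_ ?_
      · intro ζ hζ
        have h3 := hζ.2 ζ hζ.1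
        rw [bq_add] at h3
        have h4 := hw ζ hζ.1
        have h5 := hw₁ ζ hζ.1
        exact ⟨hζ.1, fun η hη => cs hF hw₁ hζ.1 (by linarith) hη⟩
      · intro heq
        have h3 : ξ ∈ rad F w₁ V := ⟨hξ, fun η hη => cs hF hw₁ hξ h0.symm hη⟩
        rw [← heq] at h3
        have h4 := h3.2 ξ hξ
        rw [bq_add, ← h0, add_zero] at h4
        exact hne h4
    have h6 := Submodule.finrank_lt_finrank_of_lt hlt
    have h7 := hmin (w + w₁) (Lam_add hw hw₁)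
    rw [hk] at h6
    omega
  · exact h0

/-! ### linear images are shadows -/

theorem GShad.zero_set : GShad ({0} : Set (Fin n → ℝ)) := GShad.of_shadow CShad.zero.shadow

theorem exists_param {E : Type} [AddCommGroup E] [Module ℝ E] [FiniteDimensional ℝ E]
    (W : Submodule ℝ E) : ∃ (k : ℕ) (T : (Fin k → ℝ) →ₗ[ℝ] E), (∀ x, T x ∈ W) ∧
      ∀ w ∈ W, ∃ x, T x = w := by
  let b := Module.finBasis ℝ W
  refine ⟨Module.finrank ℝ W, W.subtype ∘ₗ b.equivFun.symm.toLinearMap, fun x => ?_,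
    fun w hw => ⟨b.equivFun ⟨w, hw⟩, ?_⟩⟩
  · exact (b.equivFun.symm x).2
  · show ((b.equivFun.symm (b.equivFun ⟨w, hw⟩) : W) : E) = w
    rw [LinearEquiv.symm_apply_apply]

theorem image_shad (hF : ∀ w, (F w).IsSymm) (π : (α → ℝ) →ₗ[ℝ] (Fin n → ℝ)) :
    GShad (π '' Lam F V) := by
  classical
  obtain ⟨k, T, hT, hT'⟩ := exists_param V
  set Tm : Matrix ι (Fin k) ℝ := LinearMap.toMatrix' T with hTm
  have hTmx : ∀ x, Tm *ᵥ x = T x := fun x => LinearMap.toMatrix'_mulVec T x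
  let M₂ : (α → ℝ) →ₗ[ℝ] Matrix (Fin k) (Fin k) ℝ :=
    { toFun := fun w => Tmᵀ * F w * Tm
      map_add' := fun x y => by rw [map_add, Matrix.mul_add, Matrix.add_mul]
      map_smul' := fun c x => by
        rw [map_smul, Matrix.mul_smul, Matrix.smul_mul, RingHom.id_apply] }
  have hM₂ : ∀ w, M₂ w = Tmᵀ * F w * Tm := fun _ => rfl
  have hsym : ∀ w, (M₂ w).IsSymm := by
    intro w
    rw [hM₂, Matrix.IsSymm, transpose_mul, transpose_mul, transpose_transpose, (hF w).eq,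
      Matrix.mul_assoc]
  have hpsd : ∀ w, (M₂ w).PosSemidef ↔ w ∈ Lam F V := by
    intro w
    have hq : ∀ x : Fin k → ℝ, star x ⬝ᵥ (M₂ w *ᵥ x) = bq F w (T x) (T x) := by
      intro x
      rw [star_trivial, hM₂, bq, ← hTmx, ← mulVec_mulVec, ← mulVec_mulVec, dotProduct_mulVec,
        vecMul_transpose]
    rw [Matrix.posSemidef_iff_dotProduct_mulVec]
    constructor
    · rintro ⟨_, h2⟩ ξ hξ
      obtain ⟨x, rfl⟩ := hT' ξ hξ
      rw [← hq]
      exact h2 x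
    · intro h
      refine ⟨?_, fun x => ?_⟩
      · rw [Matrix.IsHermitian, conjTranspose_eq_transpose_of_trivial]
        exact hsym w
      · rw [hq]
        exact h _ (hT x)
  have h1 := GShad.exists_lmi (N := n) (GShad.zero_set (n := n)) 0 M₂
    (fun _ => Matrix.isSymm_zero) hsym LinearMap.id (-π)
  have h2 : {x : Fin n → ℝ | ∃ z : α → ℝ,
      ((0 : (Fin n → ℝ) →ₗ[ℝ] Matrix (Fin k) (Fin k) ℝ) x + M₂ z).PosSemidef ∧
      (LinearMap.id : (Fin n → ℝ) →ₗ[ℝ] (Fin n → ℝ)) x + (-π) z ∈ ({0} : Set (Fin n → ℝ))} =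
      π '' Lam F V := by
    ext x
    simp only [LinearMap.zero_apply, zero_add, LinearMap.id_coe, id_eq, LinearMap.neg_apply,
      Set.mem_singleton_iff, Set.mem_ofPred_eq, Set.mem_image, hpsd]
    constructor
    · rintro ⟨z, hz, h3⟩
      exact ⟨z, hz, (add_neg_eq_zero.1 h3).symm⟩
    · rintro ⟨z, hz, h3⟩
      exact ⟨z, hz, by rw [h3, add_neg_cancel]⟩
  rwa [h2] at h1

end Cl

/-- **Closures of linear images of cones defined by linear matrix inequalities.** -/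
theorem closure_shad {n : ℕ} {ι : Type} [Fintype ι] : ∀ (d : ℕ) (α : Type) [Fintype α]
    (F : (α → ℝ) →ₗ[ℝ] Matrix ι ι ℝ) (_ : ∀ w, (F w).IsSymm)
    (π : (α → ℝ) →ₗ[ℝ] (Fin n → ℝ)) (V : Submodule ℝ (ι → ℝ)),
    Module.finrank ℝ V = d → GShad (closure (π '' Lam F V)) := by
  intro d
  induction d using Nat.strong_induction_on with
  | _ d ih =>
    intro α _ F hF π V hV
    by_cases hc1 : ∃ ξ ∈ V, ξ ≠ 0 ∧ ∀ w ∈ Lam F V, bq F w ξ ξ = 0
    · obtain ⟨ξ, hξ, hξ0, hall⟩ := hc1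
      obtain ⟨C, hC⟩ := (Submodule.span ℝ {ξ}).exists_isCompl
      have hlt : C ⊓ V < V := by
        refine lt_of_le_of_ne inf_le_right fun heq => hξ0 ?_
        have h1 : ξ ∈ C := by
          rw [← heq] at hξ
          exact hξ.1
        have h2 : ξ ∈ Submodule.span ℝ {ξ} ⊓ C := ⟨Submodule.mem_span_singleton_self ξ, h1⟩
        rw [hC.inf_eq_bot] at h2
        exact (Submodule.mem_bot ℝ).1 h2
      have hdec : ∀ ζ ∈ V, ∃ (η : ι → ℝ) (c : ℝ), η ∈ C ⊓ V ∧ ζ = η + c • ξ := by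
        intro ζ hζ
        have h1 : ζ ∈ Submodule.span ℝ {ξ} ⊔ C := by
          rw [hC.sup_eq_top]
          exact Submodule.mem_top
        obtain ⟨y, hy, z, hz, hyz⟩ := Submodule.mem_sup.1 h1
        obtain ⟨c, rfl⟩ := Submodule.mem_span_singleton.1 hy
        refine ⟨z, c, ⟨hz, ?_⟩, by rw [← hyz, add_comm]⟩
        have h2 : z = ζ - c • ξ := by rw [← hyz, add_sub_cancel_left]
        rw [h2]
        exact V.sub_mem hζ (V.smul_mem c hξ)
      let W₁ : Submodule ℝ (α → ℝ) :=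
        { carrier := {w | ∀ η ∈ V, bq F w η ξ = 0}
          zero_mem' := fun η _ => by rw [bq, map_zero, zero_mulVec, dotProduct_zero]
          add_mem' := fun {a b} ha hb η hη => by rw [bq_add, ha η hη, hb η hη, add_zero]
          smul_mem' := fun c a ha η hη => by rw [bq_smul, ha η hη, mul_zero] }
      obtain ⟨k, T, hT, hT'⟩ := exists_param W₁
      have hbT : ∀ x ξ η, bq (F ∘ₗ T) x ξ η = bq F (T x) ξ η := fun _ _ _ => rfl
      have hset : π '' Lam F V = (π ∘ₗ T) '' Lam (F ∘ₗ T) (C ⊓ V) := by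
        ext y
        constructor
        · rintro ⟨w, hw, rfl⟩
          have hwW : w ∈ W₁ := fun η hη => cs hF hw hξ (hall w hw) hη
          obtain ⟨x, rfl⟩ := hT' w hwW
          exact ⟨x, fun ζ hζ => hw ζ hζ.2, rfl⟩
        · rintro ⟨x, hx, rfl⟩
          refine ⟨T x, fun ζ hζ => ?_, rfl⟩
          obtain ⟨η, c, hη, rfl⟩ := hdec ζ hζ
          have h1 : ∀ η ∈ V, bq F (T x) η ξ = 0 := hT x
          have h2 := hx η hη
          rw [hbT] at h2
          have h3 := h1 η hη.2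
          have h4 := h1 ξ hξ
          rw [bq_expand hF, bq_symm hF _ ξ η, h3, h4]
          simpa using h2
      rw [hset]
      refine ih _ ?_ _ (F ∘ₗ T) (fun w => hF _) (π ∘ₗ T) (C ⊓ V) rfl
      rw [← hV]
      exact Submodule.finrank_lt_finrank_of_lt hlt
    · push Not at hc1
      obtain ⟨we, hwe, hpos⟩ := exists_pos hF hc1
      by_cases hc2 : ∃ w1, π w1 = 0 ∧ w1 ∈ Lam F V ∧ ∃ ξ ∈ V, bq F w1 ξ ξ ≠ 0
      · obtain ⟨w1, hπ1, hw1, ξ, hξ, hne⟩ := hc2
        have hlt : rad F w1 V < V := by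
          refine lt_of_le_of_ne (rad_le w1) fun heq => hne ?_
          have h1 : ξ ∈ rad F w1 V := by rw [heq]; exact hξ
          exact h1.2 ξ hξ
        have hcl : closure (π '' Lam F V) = closure (π '' Lam F (rad F w1 V)) := by
          apply subset_antisymm
          · exact closure_mono (Set.image_mono fun w hw ζ hζ => hw ζ hζ.1)
          · refine closure_minimal ?_ isClosed_closure
            rintro _ ⟨w, hw, rfl⟩
            have hc : Continuous (fun ε : ℝ => π (w + ε • we)) := by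
              have h1 : Continuous π := π.continuous_of_finiteDimensional
              fun_prop
            have h1 := (hc.tendsto 0).mono_left (nhdsWithin_le_nhds (s := Set.Ioi 0))
            rw [zero_smul, add_zero] at h1
            refine mem_closure_of_tendsto h1 ?_
            filter_upwards [self_mem_nhdsWithin] with ε hε
            have hε' : (0 : ℝ) < ε := hε
            obtain ⟨τ, hτ⟩ := finsler (w := w + ε • we) hF hw1 (by
              intro ζ hζ hζ0 hrad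
              rw [bq_add, bq_smul]
              have h2 := hw ζ ⟨hζ, hrad⟩
              have h3 := mul_pos hε' (hpos ζ hζ hζ0)
              linarith)
            refine ⟨_, hτ, ?_⟩
            rw [map_add, map_smul, hπ1, smul_zero, add_zero]
        rw [hcl]
        refine ih _ ?_ _ F hF π _ rfl
        rw [← hV]
        exact Submodule.finrank_lt_finrank_of_lt hlt
      · push Not at hc2
        let L₀ : Submodule ℝ (α → ℝ) :=
          { carrier := {w | π w = 0 ∧ ∀ ξ ∈ V, ∀ η ∈ V, bq F w η ξ = 0}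
            zero_mem' := ⟨map_zero π, fun ξ _ η _ => by
              rw [bq, map_zero, zero_mulVec, dotProduct_zero]⟩
            add_mem' := fun {a b} ha hb => ⟨by rw [map_add, ha.1, hb.1, add_zero],
              fun ξ hξ η hη => by rw [bq_add, ha.2 ξ hξ η hη, hb.2 ξ hξ η hη, add_zero]⟩
            smul_mem' := fun c a ha => ⟨by rw [map_smul, ha.1, smul_zero],
              fun ξ hξ η hη => by rw [bq_smul, ha.2 ξ hξ η hη, mul_zero]⟩ }
        obtain ⟨C, hC⟩ := L₀.exists_isCompl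
        have hset : π '' Lam F V = π '' (Lam F V ∩ (C : Set (α → ℝ))) := by
          apply subset_antisymm
          · rintro _ ⟨w, hw, rfl⟩
            have h1 : w ∈ L₀ ⊔ C := by
              rw [hC.sup_eq_top]
              exact Submodule.mem_top
            obtain ⟨l, hl, c, hc, rfl⟩ := Submodule.mem_sup.1 h1
            refine ⟨c, ⟨fun ξ hξ => ?_, hc⟩, ?_⟩
            · have h2 := hw ξ hξ
              rwa [bq_add, hl.2 ξ hξ ξ hξ, zero_add] at h2
            · rw [map_add, hl.1, zero_add]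
          · exact Set.image_mono Set.inter_subset_left
        have hclosed : IsClosed (π '' Lam F V) := by
          rw [hset]
          refine closed_image (Lam_closed.inter C.closed_of_finiteDimensional) ?_ π ?_
          · rintro w ⟨hw, hwC⟩ c hc
            exact ⟨Lam_smul hw hc, C.smul_mem c hwC⟩
          · rintro w ⟨hw, hwC⟩ h0
            have h1 := hc2 w h0 hw
            have h2 : w ∈ L₀ := ⟨h0, fun ξ hξ η hη => cs hF hw hξ (h1 ξ hξ) hη⟩
            have h3 : w ∈ L₀ ⊓ C := ⟨h2, hwC⟩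
            rw [hC.inf_eq_bot] at h3
            exact (Submodule.mem_bot ℝ).1 h3
        rw [hclosed.closure_eq]
        exact image_shad hF π

end Vale.Agent.P256.Mx
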