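import Vale.Agent.P256.H186.Mix5

/-! The derivative of a hyperbolic polynomial in a rank one direction `v` of its cone:
`K(D_v p) = closure (K(p) + ℝ v)`, and it is a shadow if `K(p)` is. -/

set_option linter.all false

namespace Vale.Agent.P256.Mx

open MvPolynomial Matrix Topology Filter

variable {n : ℕ} {p : MvPolynomial (Fin n) ℝ} {e v : Fin n → ℝ}

theorem rk1_hyp (hp : IsHyperbolic p e) (hv : v ∈ hypCone p e)
    (h0 : polarDeriv v (polarDeriv v p) = 0) (hne : polarDeriv v p ≠ 0) :
    IsHyperbolic (polarDeriv v p) e ∧ ∀ x ∈ hypCone p e, x ∈ hypCone (polarDeriv v p) e := by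
  obtain ⟨d, hd⟩ := hp.1
  have hd1 : d ≠ 0 := by
    rintro rfl
    exact hne (polarDeriv_const hd v)
  obtain ⟨k, rfl⟩ : ∃ k, d = k + 1 := ⟨d - 1, by omega⟩
  have hgd : (polarDeriv v p).IsHomogeneous k := pd_homog hd v
  have haff : St.AffZ p (polarDeriv v p) v := .of_polar rfl h0
  have htr : translate p v = p + polarDeriv v p := by
    apply MvPolynomial.funext
    intro y
    rw [eval_translate, map_add, add_comm v y]
    have := haff y 1
    rwa [one_smul, one_mul] at this
  have hpart : ∀ j, part p v j = (if j = k + 1 then p else 0) +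
      (if j = k then polarDeriv v p else 0) := by
    intro j
    rw [part, htr, map_add, homogeneousComponent_of_mem ((mem_homogeneousSubmodule _ _).2 hd),
      homogeneousComponent_of_mem ((mem_homogeneousSubmodule _ _).2 hgd)]
  have hk : part p v k = polarDeriv v p := by
    rw [hpart, if_neg (by omega), if_pos rfl, zero_add]
  have hlt : ∀ j < k, part p v j = 0 := by
    intro j hj
    rw [hpart, if_neg (by omega), if_neg (by omega), zero_add]
  obtain ⟨m, hm, he⟩ := exists_mult hp hv
  have hmk : m = k := by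
    rcases lt_trichotomy m k with h1 | h1 | h1
    · rw [hlt m h1, map_zero] at he
      exact absurd he (lt_irrefl _)
    · exact h1
    · exact absurd ((hk.symm.trans (hm k h1))) hne
  subst hmk
  have h1 := part_hyp hp hm he
  rw [hk] at h1
  refine ⟨h1, fun x hx => ?_⟩
  have h2 := K_sub_part hp hv hm he hx
  rwa [hk] at h2

theorem rk1_cone (hp : IsHyperbolic p e) (hv : v ∈ hypCone p e)
    (h0 : polarDeriv v (polarDeriv v p) = 0) (hne : polarDeriv v p ≠ 0) :
    hypCone (polarDeriv v p) e = closure {x | ∃ τ : ℝ, x + τ • v ∈ hypCone p e} := by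
  obtain ⟨hh, hsub⟩ := rk1_hyp hp hv h0 hne
  obtain ⟨d, hd⟩ := hh.1
  have haff : St.AffZ p (polarDeriv v p) v := .of_polar rfl h0
  have haff' : St.AffZ (polarDeriv v p) 0 v := .of_polar h0 (by rw [polarDeriv_zero])
  apply subset_antisymm
  · intro x hx
    have hc : Continuous (fun ε : ℝ => x + ε • e) := by fun_prop
    have h1 := (hc.tendsto 0).mono_left (nhdsWithin_le_nhds (s := Set.Ioi 0))
    rw [zero_smul, add_zero] at h1
    refine mem_closure_of_tendsto h1 ?_
    filter_upwards [self_mem_nhdsWithin] with ε hε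
    have hε' : (0 : ℝ) < ε := hε
    -- positivity of the derivative on the ray
    have hpos : ∀ s : ℝ, ε ≤ s → 0 < eval (x + s • e) (polarDeriv v p) := by
      intro s hs
      have h2 := (K_eval_ge hh hd hx (by linarith : (0 : ℝ) ≤ s) le_rfl).2.2
      have h3 := mul_pos hh.2.1 (pow_pos (by linarith : (0 : ℝ) < s) d)
      linarith
    obtain ⟨C₀, hC₀, hC⟩ := exists_C_add hp x
    set f : ℝ → ℝ := fun s => -eval (x + s • e) p / eval (x + s • e) (polarDeriv v p) with hf
    have hcs : Continuous (fun s : ℝ => x + s • e) := by fun_prop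
    have hfc : ContinuousOn f (Set.Icc ε (max ε C₀)) := by
      refine ContinuousOn.div ?_ ?_ fun s hs => (hpos s hs.1).ne'
      · exact ((MvPolynomial.continuous_eval p).comp hcs).neg.continuousOn
      · exact ((MvPolynomial.continuous_eval (polarDeriv v p)).comp hcs).continuousOn
    obtain ⟨s₀, hs₀, hmax⟩ := isCompact_Icc.exists_isMaxOn
      (Set.nonempty_Icc.2 (le_max_left ε C₀)) hfc
    refine ⟨max (f s₀) 0 + 1, ?_⟩
    obtain ⟨d', hd'⟩ := hp.1
    rw [mem_hypCone_iff hd']
    intro t ht
    have e1 : x + ε • e + (max (f s₀) 0 + 1) • v + t • e =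
        (x + (ε + t) • e) + (max (f s₀) 0 + 1) • v := by module
    rw [e1, haff]
    have hst : ε ≤ ε + t := by linarith
    have hp1 := hpos (ε + t) hst
    have hm0 : 0 ≤ max (f s₀) 0 := le_max_right _ _
    rcases le_total C₀ (ε + t) with h2 | h2
    · have h3 := ((open_mono hp (hC _ h2).1 0 le_rfl).1)
      have h4 := mul_pos (by linarith : 0 < max (f s₀) 0 + 1) hp1
      exact (by linarith : (0 : ℝ) < _).ne'
    · have h3 : f (ε + t) ≤ f s₀ := hmax ⟨hst, h2.trans (le_max_right _ _)⟩
      have h4 : f s₀ ≤ max (f s₀) 0 := le_max_left _ _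
      have h5 : -eval (x + (ε + t) • e) p =
          f (ε + t) * eval (x + (ε + t) • e) (polarDeriv v p) := by
        rw [hf]
        simp only
        rw [div_mul_cancel₀ _ hp1.ne']
      have h6 := mul_le_mul_of_nonneg_right (h3.trans h4) hp1.le
      have h7 : eval (x + (ε + t) • e) p + (max (f s₀) 0 + 1) *
          eval (x + (ε + t) • e) (polarDeriv v p) =
          (max (f s₀) 0 * eval (x + (ε + t) • e) (polarDeriv v p) -
            f (ε + t) * eval (x + (ε + t) • e) (polarDeriv v p)) +
            eval (x + (ε + t) • e) (polarDeriv v p) := by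
        rw [← h5]
        ring
      rw [h7]
      exact (by linarith : (0 : ℝ) < _).ne'
  · refine closure_minimal ?_ (isClosed_K hh)
    rintro x ⟨τ, hx⟩
    have h1 := hsub _ hx
    rw [mem_hypCone_iff hd] at h1 ⊢
    intro t ht
    have h2 := h1 t ht
    have e1 : x + τ • v + t • e = (x + t • e) + τ • v := by abel
    rwa [e1, haff', map_zero, mul_zero, add_zero] at h2

/-! ### conic representations -/

section

variable {α ι : Type} [Fintype α] [Fintype ι]

theorem Lam_top {F : (α → ℝ) →ₗ[ℝ] Matrix ι ι ℝ} (hF : ∀ w, (F w).IsSymm) :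
    Lam F ⊤ = {w | (F w).PosSemidef} := by
  ext w
  rw [Set.mem_ofPred_eq, Matrix.posSemidef_iff_dotProduct_mulVec]
  constructor
  · intro h
    refine ⟨?_, fun x => ?_⟩
    · rw [Matrix.IsHermitian, conjTranspose_eq_transpose_of_trivial]
      exact hF w
    · rw [star_trivial]
      exact h x Submodule.mem_top
  · rintro ⟨_, h⟩ x _
    have := h x
    rwa [star_trivial] at this

end

theorem conic_rep (hp : IsHyperbolic p e) (hS : GShad (hypCone p e)) :
    ∃ (α ι : Type) (_ : Fintype α) (_ : Fintype ι) (F : (α → ℝ) →ₗ[ℝ] Matrix ι ι ℝ)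
      (π : (α → ℝ) →ₗ[ℝ] (Fin n → ℝ)), (∀ w, (F w).IsSymm) ∧
      hypCone p e = π '' {w | (F w).PosSemidef} := by
  obtain ⟨ι, κ, hι, hκ, A₀, A, B, hA₀, hA, hB, hK⟩ := hS
  let L : (Option (Fin n ⊕ κ) → ℝ) →ₗ[ℝ] Matrix ι ι ℝ :=
    { toFun := fun w => w none • A₀ + ∑ i, w (some (Sum.inl i)) • A i +
        ∑ j, w (some (Sum.inr j)) • B j
      map_add' := fun x y => by
        simp only [Pi.add_apply, add_smul, Finset.sum_add_distrib]
        abel
      map_smul' := fun c x => by
        simp only [Pi.smul_apply, smul_eq_mul, mul_smul, Finset.smul_sum, RingHom.id_apply,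
          smul_add] }
  have hL : ∀ w, L w = w none • A₀ + ∑ i, w (some (Sum.inl i)) • A i +
        ∑ j, w (some (Sum.inr j)) • B j := fun _ => rfl
  have hLs : ∀ w, (L w).IsSymm := by
    intro w
    rw [hL, Matrix.IsSymm, transpose_add, transpose_add, transpose_smul, transpose_sum,
      transpose_sum, hA₀.eq]
    congr 1
    · congr 1
      exact Finset.sum_congr rfl fun i _ => by rw [transpose_smul, (hA i).eq]
    · exact Finset.sum_congr rfl fun i _ => by rw [transpose_smul, (hB i).eq]
  let F : (Option (Fin n ⊕ κ) → ℝ) →ₗ[ℝ] Matrix (ι ⊕ Unit) (ι ⊕ Unit) ℝ :=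
    { toFun := fun w => fromBlocks (L w) 0 0 (w none • (1 : Matrix Unit Unit ℝ))
      map_add' := fun x y => by
        rw [fromBlocks_add, map_add, Pi.add_apply, add_smul, add_zero, add_zero]
      map_smul' := fun c x => by
        rw [fromBlocks_smul, map_smul, Pi.smul_apply, smul_eq_mul, mul_smul, smul_zero,
          smul_zero, RingHom.id_apply] }
  have hF : ∀ w, F w = fromBlocks (L w) 0 0 (w none • (1 : Matrix Unit Unit ℝ)) := fun _ => rfl
  let π : (Option (Fin n ⊕ κ) → ℝ) →ₗ[ℝ] (Fin n → ℝ) :=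
    { toFun := fun w i => w (some (Sum.inl i))
      map_add' := fun _ _ => rfl
      map_smul' := fun _ _ => rfl }
  have hmem : ∀ (x : Fin n → ℝ), x ∈ hypCone p e ↔ ∃ u : κ → ℝ,
      (A₀ + ∑ i, x i • A i + ∑ j, u j • B j).PosSemidef := by
    intro x
    conv_lhs => rw [hK]
    rfl
  have hFs : ∀ w, (F w).IsSymm := by
    intro w
    rw [hF, Matrix.IsSymm, fromBlocks_transpose, (hLs w).eq, transpose_zero, transpose_zero,
      transpose_smul, transpose_one]
  refine ⟨Option (Fin n ⊕ κ), ι ⊕ Unit, inferInstance, inferInstance, F, π, hFs, ?_⟩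
  ext x
  constructor
  · intro hx
    obtain ⟨u, hu⟩ := (hmem x).1 hx
    refine ⟨fun o => o.elim 1 (Sum.elim x u), ?_, rfl⟩
    rw [Set.mem_ofPred_eq, hF, psd_fromBlocks]
    refine ⟨?_, ?_⟩
    · rw [hL]
      simp only [Option.elim_none, Option.elim_some, Sum.elim_inl, Sum.elim_inr, one_smul]
      exact hu
    · simp only [Option.elim_none, one_smul]
      exact Matrix.PosSemidef.one
  · rintro ⟨w, hw, rfl⟩
    rw [Set.mem_ofPred_eq, hF, psd_fromBlocks] at hw
    obtain ⟨h1, h2⟩ := hw
    have hs : 0 ≤ w none := by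
      have h3 := h2.diag_nonneg (i := ())
      simpa using h3
    obtain ⟨u₀, hu₀⟩ := (hmem 0).1 (K_zero hp)
    have h3 := h1.add hu₀
    have hs1 : 0 < w none + 1 := by linarith
    have h4 := h3.smul (inv_nonneg.2 hs1.le)
    have h5 : (w none + 1)⁻¹ • π w ∈ hypCone p e := by
      rw [hmem]
      refine ⟨fun j => (w none + 1)⁻¹ * (w (some (Sum.inr j)) + u₀ j), ?_⟩
      have h6 : A₀ + ∑ i, ((w none + 1)⁻¹ • π w) i • A i +
          ∑ j, ((w none + 1)⁻¹ * (w (some (Sum.inr j)) + u₀ j)) • B j =
          (w none + 1)⁻¹ • (L w + (A₀ + ∑ i, (0 : Fin n → ℝ) i • A i + ∑ j, u₀ j • B j)) := by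
        have e1 : ∑ i, ((w none + 1)⁻¹ • π w) i • A i =
            (w none + 1)⁻¹ • ∑ i, w (some (Sum.inl i)) • A i := by
          rw [Finset.smul_sum]
          refine Finset.sum_congr rfl fun i _ => ?_
          rw [smul_smul]
          rfl
        have e2 : ∑ j, ((w none + 1)⁻¹ * (w (some (Sum.inr j)) + u₀ j)) • B j =
            (w none + 1)⁻¹ • (∑ j, w (some (Sum.inr j)) • B j + ∑ j, u₀ j • B j) := by
          rw [← Finset.sum_add_distrib, Finset.smul_sum]
          refine Finset.sum_congr rfl fun j _ => ?_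
          rw [mul_smul, add_smul]
        have e3 : A₀ = (w none + 1)⁻¹ • ((w none + 1) • A₀) := by
          rw [smul_smul, inv_mul_cancel₀ hs1.ne', one_smul]
        have e4 : ∑ i, (0 : Fin n → ℝ) i • A i = 0 := by simp
        rw [e1, e2, e4, hL]
        conv_lhs => rw [e3]
        rw [← smul_add, ← smul_add]
        congr 1
        rw [add_smul, one_smul]
        abel
      rw [h6]
      exact h4
    have h7 := K_smul hp h5 hs1.le
    rwa [smul_smul, mul_inv_cancel₀ hs1.ne', one_smul] at h7

/-- the rank one derivative of a polynomial with shadow cone -/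
theorem HS.rk1 (h : HS p e) (hv : v ∈ hypCone p e)
    (h0 : polarDeriv v (polarDeriv v p) = 0) (hne : polarDeriv v p ≠ 0) :
    HS (polarDeriv v p) e ∧ ∀ x ∈ hypCone p e, x ∈ hypCone (polarDeriv v p) e := by
  obtain ⟨hh, hsub⟩ := rk1_hyp h.1 hv h0 hne
  refine ⟨⟨hh, ?_⟩, hsub⟩
  rw [rk1_cone h.1 hv h0 hne]
  obtain ⟨α, ι, hα, hι, F, π, hF, hK⟩ := conic_rep h.1 h.2
  let R : (Option α → ℝ) →ₗ[ℝ] (α → ℝ) :=
    { toFun := fun w a => w (some a)
      map_add' := fun _ _ => rfl
      map_smul' := fun _ _ => rfl }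
  let π' : (Option α → ℝ) →ₗ[ℝ] (Fin n → ℝ) :=
    { toFun := fun w => π (R w) - w none • v
      map_add' := fun x y => by
        rw [map_add, map_add, Pi.add_apply, add_smul]
        abel
      map_smul' := fun c x => by
        rw [map_smul, map_smul, Pi.smul_apply, smul_eq_mul, mul_smul, RingHom.id_apply,
          smul_sub] }
  have hπ' : ∀ w, π' w = π (R w) - w none • v := fun _ => rfl
  have hset : {x | ∃ τ : ℝ, x + τ • v ∈ hypCone p e} = π' '' Lam (F ∘ₗ R) ⊤ := by
    rw [Lam_top (F := F ∘ₗ R) (fun w => hF _)]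
    ext x
    constructor
    · rintro ⟨τ, hτ⟩
      rw [hK] at hτ
      obtain ⟨w, hw, hwx⟩ := hτ
      refine ⟨fun o => o.elim τ w, hw, ?_⟩
      rw [hπ']
      show π w - τ • v = x
      rw [hwx, add_sub_cancel_right]
    · rintro ⟨w, hw, rfl⟩
      refine ⟨w none, ?_⟩
      rw [hπ', sub_add_cancel, hK]
      exact ⟨R w, hw, rfl⟩
  rw [hset]
  exact closure_shad _ _ (F ∘ₗ R) (fun w => hF _) π' ⊤ rfl

theorem foldr_zero (T : List (Fin n → ℝ)) :
    T.foldr polarDeriv (0 : MvPolynomial (Fin n) ℝ) = 0 := by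
  induction T with
  | nil => rfl
  | cons v T ih => rw [List.foldr_cons, ih, polarDeriv_zero]

/-- all iterated derivatives in rank one directions have shadow cones -/
theorem HS.inv (h : HS p e) :
    Inv {v | v ∈ hypCone p e ∧ polarDeriv v (polarDeriv v p) = 0} p e where
  der T := by
    induction T with
    | nil => intro _; exact Or.inr ⟨h, fun v hv => hv.1⟩
    | cons v T ih =>
      intro hT
      rw [List.foldr_cons]
      have hv := hT v List.mem_cons_self
      rcases ih fun u hu => hT u (List.mem_cons_of_mem v hu) with h1 | ⟨h1, h2⟩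
      · left
        rw [h1, polarDeriv_zero]
      · by_cases h3 : polarDeriv v (T.foldr polarDeriv p) = 0
        · exact Or.inl h3
        · right
          have h4 : polarDeriv v (polarDeriv v (T.foldr polarDeriv p)) = 0 := by
            rw [← foldr_comm, ← foldr_comm, hv.2, foldr_zero]
          have h5 := h1.rk1 (h2 v hv) h4 h3
          exact ⟨h5.1, fun u hu => h5.2 u (h2 u hu)⟩
  sq _ hv := hv.2

/-- **Mixed derivatives in directions generated by rank one vectors.** -/
theorem rank_one_main {k : ℕ} {q : MvPolynomial (Fin k) ℝ}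
    (A : (Fin n → ℝ) →ₗ[ℝ] (Fin k → ℝ)) (hpA : ∀ x, eval x p = eval (A x) q)
    (hq : HS q (A e)) (as : List (Fin n → ℝ))
    (has : ∀ a ∈ as, ∃ l : List (Fin k → ℝ), (∀ u ∈ l, u ∈ hypCone q (A e) ∧
      polarDeriv u (polarDeriv u q) = 0) ∧ l.sum = A a)
    (hne : as.foldr polarDeriv p ≠ 0) : HS (as.foldr polarDeriv p) e := by
  have h2 := hq.inv.list (as.map A) (by
    intro a' ha'
    obtain ⟨a, ha, rfl⟩ := List.mem_map.1 ha'
    exact has a ha)
  have hev := eval_list_pre A hpA as
  rcases h2.zero_or with h3 | h3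
  · exfalso
    apply hne
    apply MvPolynomial.funext
    intro x
    rw [hev, h3, map_zero, map_zero]
  · exact HS.pre A hev h3.1

end Vale.Agent.P256.Mx
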