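import Vale.Agent.P256.H875.Defs

/-! Definitions for the statement on mixed derivatives. -/

namespace Vale.Agent.P256

open MvPolynomial
open scoped ComplexOrder

variable {n : ℕ}

/-- `v` is a vector of rank (at most) one of the hyperbolicity cone of `p`: it is in the cone, and
the second derivative `D_v D_v p` is zero, i.e. `p` is affine on all lines of direction `v`. -/
def RankOne (p : MvPolynomial (Fin n) ℝ) (e v : Fin n → ℝ) : Prop :=
  v ∈ hypCone p e ∧ polarDeriv v (polarDeriv v p) = 0

/-- `p` is a definite Hermitian determinant: `p x = c * det (∑ i, x i • A i)` with `0 < c`,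
Hermitian matrices `A i` and a positive definite matrix `∑ i, e i • A i`. -/
def HermDet (p : MvPolynomial (Fin n) ℝ) (e : Fin n → ℝ) : Prop :=
  ∃ (m : ℕ) (c : ℝ) (A : Fin n → Matrix (Fin m) (Fin m) ℂ), 0 < c ∧ (∀ i, (A i).IsHermitian) ∧
    (∑ i, (e i : ℂ) • A i).PosDef ∧
    ∀ x : Fin n → ℝ, ((eval x p : ℝ) : ℂ) = c * (∑ i, (x i : ℂ) • A i).det

/-- `Mixed e D p`, for a set `D` of directions: `p` is obtained in finitely many steps from
definite Hermitian determinants and hyperbolic quadratic forms, whose cones contain `D`, and from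
polynomials `q (A x)` with a linear map `A` and a hyperbolic polynomial `q` whose cone is a
spectrahedral shadow in which each `A a`, `a ∈ D`, is a sum of rank one vectors, by products and
by nonzero derivatives in directions of `D`. -/
inductive Mixed (e : Fin n → ℝ) (D : Set (Fin n → ℝ)) : MvPolynomial (Fin n) ℝ → Prop
  | herm {p : MvPolynomial (Fin n) ℝ} : HermDet p e → D ⊆ hypCone p e → Mixed e D p
  | quad {p : MvPolynomial (Fin n) ℝ} :
      IsHyperbolic p e → p.IsHomogeneous 2 → D ⊆ hypCone p e → Mixed e D p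
  | pull {p : MvPolynomial (Fin n) ℝ} {k : ℕ} {q : MvPolynomial (Fin k) ℝ}
      (A : (Fin n → ℝ) →ₗ[ℝ] (Fin k → ℝ)) :
      (∀ x, eval x p = eval (A x) q) → IsHyperbolic q (A e) →
      IsSpectrahedralShadow (hypCone q (A e)) →
      (∀ a ∈ D, ∃ l : List (Fin k → ℝ), (∀ u ∈ l, RankOne q (A e) u) ∧ l.sum = A a) →
      Mixed e D p
  | mul {p p' : MvPolynomial (Fin n) ℝ} : Mixed e D p → Mixed e D p' → Mixed e D (p * p')
  | deriv {p : MvPolynomial (Fin n) ℝ} (a : Fin n → ℝ) :
      a ∈ D → Mixed e D p → polarDeriv a p ≠ 0 → Mixed e D (polarDeriv a p)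

end Vale.Agent.P256
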