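import Vale.Agent.P256.H186.Mix4
import Vale.Agent.P256.H186.Mix6
import Vale.Agent.P256.H186.MixDefs
import Vale.Agent.P256.C5.Ord

/-! Products, and hyperbolic quadratic forms. -/

set_option linter.all false

namespace Vale.Agent.P256.Mx

open MvPolynomial Matrix

variable {n : ℕ} {p : MvPolynomial (Fin n) ℝ} {e v : Fin n → ℝ} {D : Set (Fin n → ℝ)}

/-- `p` is the pull back of a polynomial with shadow cone, in which the directions of `D` are sums
of rank one vectors -/
def RG (p : MvPolynomial (Fin n) ℝ) (e : Fin n → ℝ) (D : Set (Fin n → ℝ)) : Prop :=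
  ∃ (k : ℕ) (q : MvPolynomial (Fin k) ℝ) (A : (Fin n → ℝ) →ₗ[ℝ] (Fin k → ℝ)),
    (∀ x, eval x p = eval (A x) q) ∧ HS q (A e) ∧ ∀ a ∈ D, ∃ l : List (Fin k → ℝ),
      (∀ u ∈ l, RankOne q (A e) u) ∧ l.sum = A a

theorem RG.main (h : RG p e D) (as : List (Fin n → ℝ)) (has : ∀ a ∈ as, a ∈ D)
    (hne : as.foldr polarDeriv p ≠ 0) : HS (as.foldr polarDeriv p) e := by
  obtain ⟨k, q, A, hpA, hq, hD⟩ := h
  exact rank_one_main A hpA hq as (fun a ha => hD a (has a ha)) hne

theorem sq_zero_of_affine {f : (Fin n → ℝ) → ℝ}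
    (h : ∀ (x : Fin n → ℝ) (τ : ℝ), eval (x + τ • v) p = eval x p + τ * f x)
    (h' : ∀ (x : Fin n → ℝ) (τ : ℝ), f (x + τ • v) = f x) :
    polarDeriv v (polarDeriv v p) = 0 := by
  have hpd := pd_of_affine h
  apply MvPolynomial.funext
  intro x
  rw [pd_of_affine (f := fun _ => 0) (fun x τ => ?_) x, map_zero]
  rw [hpd, hpd, h', mul_zero, add_zero]

/-! ### products -/

section prod

variable {k l : ℕ}

/-- the first coordinates -/
def fs (k l : ℕ) : (Fin (k + l) → ℝ) →ₗ[ℝ] (Fin k → ℝ) where
  toFun y i := y (Fin.castAdd l i)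
  map_add' _ _ := rfl
  map_smul' _ _ := rfl

/-- the last coordinates -/
def sn (k l : ℕ) : (Fin (k + l) → ℝ) →ₗ[ℝ] (Fin l → ℝ) where
  toFun y i := y (Fin.natAdd k i)
  map_add' _ _ := rfl
  map_smul' _ _ := rfl

/-- append, as a linear map -/
def ap (A : (Fin n → ℝ) →ₗ[ℝ] (Fin k → ℝ)) (B : (Fin n → ℝ) →ₗ[ℝ] (Fin l → ℝ)) :
    (Fin n → ℝ) →ₗ[ℝ] (Fin (k + l) → ℝ) where
  toFun x := Fin.append (A x) (B x)
  map_add' x y := by
    funext i
    refine Fin.addCases (fun j => ?_) (fun j => ?_) i
    · rw [Fin.append_left, Pi.add_apply, Fin.append_left, Fin.append_left, map_add]; rfl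
    · rw [Fin.append_right, Pi.add_apply, Fin.append_right, Fin.append_right, map_add]; rfl
  map_smul' c x := by
    funext i
    refine Fin.addCases (fun j => ?_) (fun j => ?_) i
    · rw [Fin.append_left, Pi.smul_apply, Fin.append_left, map_smul]; rfl
    · rw [Fin.append_right, Pi.smul_apply, Fin.append_right, map_smul]; rfl

theorem fs_append (x : Fin k → ℝ) (y : Fin l → ℝ) : fs k l (Fin.append x y) = x := by
  funext i
  exact Fin.append_left _ _ _

theorem sn_append (x : Fin k → ℝ) (y : Fin l → ℝ) : sn k l (Fin.append x y) = y := by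
  funext i
  exact Fin.append_right _ _ _

theorem ap_apply (A : (Fin n → ℝ) →ₗ[ℝ] (Fin k → ℝ)) (B : (Fin n → ℝ) →ₗ[ℝ] (Fin l → ℝ))
    (x : Fin n → ℝ) : ap A B x = Fin.append (A x) (B x) := rfl

theorem append_ext {y : Fin (k + l) → ℝ} {a : Fin k → ℝ} {b : Fin l → ℝ}
    (h1 : fs k l y = a) (h2 : sn k l y = b) : y = Fin.append a b := by
  funext i
  refine Fin.addCases (fun j => ?_) (fun j => ?_) i
  · rw [Fin.append_left, ← h1]; rfl
  · rw [Fin.append_right, ← h2]; rfl

end prod

theorem RG.mul {p' : MvPolynomial (Fin n) ℝ} (h : RG p e D) (h' : RG p' e D) :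
    RG (p * p') e D := by
  obtain ⟨k, q, A, hpA, hq, hD⟩ := h
  obtain ⟨l, q', A', hpA', hq', hD'⟩ := h'
  have c1 : HS (precomp (fs k l) q) (ap A A' e) := by
    refine HS.pre (fs k l) (eval_precomp _ _) ?_
    rw [ap_apply, fs_append]
    exact hq
  have c2 : HS (precomp (sn k l) q') (ap A A' e) := by
    refine HS.pre (sn k l) (eval_precomp _ _) ?_
    rw [ap_apply, sn_append]
    exact hq'
  have hK : hypCone (precomp (fs k l) q * precomp (sn k l) q') (ap A A' e) =
      {y | fs k l y ∈ hypCone q (A e) ∧ sn k l y ∈ hypCone q' (A' e)} := by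
    rw [hypCone_mul, hypCone_pre (fs k l) (eval_precomp _ _),
      hypCone_pre (sn k l) (eval_precomp _ _), ap_apply, fs_append, sn_append]
    rfl
  refine ⟨k + l, precomp (fs k l) q * precomp (sn k l) q', ap A A', fun x => ?_, ⟨?_, ?_⟩,
    fun a ha => ?_⟩
  · rw [map_mul, map_mul, eval_precomp, eval_precomp, ap_apply, fs_append, sn_append, hpA, hpA']
  · exact hyp_mul c1.1 c2.1
  · rw [hypCone_mul]
    exact c1.2.inter c2.2
  · obtain ⟨l₁, hl₁, hs₁⟩ := hD a ha
    obtain ⟨l₂, hl₂, hs₂⟩ := hD' a ha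
    refine ⟨l₁.map (fun u => Fin.append u 0) ++ l₂.map (fun u => Fin.append 0 u), ?_, ?_⟩
    · intro w hw
      rcases List.mem_append.1 hw with hw | hw
      · obtain ⟨u, hu, rfl⟩ := List.mem_map.1 hw
        obtain ⟨h1, h2⟩ := hl₁ u hu
        refine ⟨?_, ?_⟩
        · rw [hK, Set.mem_ofPred_eq, fs_append, sn_append]
          exact ⟨h1, K_zero hq'.1⟩
        · have haff : St.AffZ q (polarDeriv u q) u := .of_polar rfl h2
          have haff' : St.AffZ (polarDeriv u q) 0 u := .of_polar h2 (polarDeriv_zero _)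
          refine sq_zero_of_affine (f := fun y => eval (fs k l y) (polarDeriv u q) *
            eval (sn k l y) q') (fun y τ => ?_) (fun y τ => ?_)
          · rw [map_mul, map_mul, eval_precomp, eval_precomp, eval_precomp, eval_precomp, map_add,
              map_add, map_smul, map_smul, fs_append, sn_append, smul_zero, add_zero, haff]
            ring
          · simp only [map_add, map_smul, fs_append, sn_append, smul_zero, add_zero]
            rw [haff', map_zero, mul_zero, add_zero]
      · obtain ⟨u, hu, rfl⟩ := List.mem_map.1 hw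
        obtain ⟨h1, h2⟩ := hl₂ u hu
        refine ⟨?_, ?_⟩
        · rw [hK, Set.mem_ofPred_eq, fs_append, sn_append]
          exact ⟨K_zero hq.1, h1⟩
        · have haff : St.AffZ q' (polarDeriv u q') u := .of_polar rfl h2
          have haff' : St.AffZ (polarDeriv u q') 0 u := .of_polar h2 (polarDeriv_zero _)
          refine sq_zero_of_affine (f := fun y => eval (fs k l y) q *
            eval (sn k l y) (polarDeriv u q')) (fun y τ => ?_) (fun y τ => ?_)
          · rw [map_mul, map_mul, eval_precomp, eval_precomp, eval_precomp, eval_precomp, map_add,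
              map_add, map_smul, map_smul, fs_append, sn_append, smul_zero, add_zero, haff]
            ring
          · simp only [map_add, map_smul, fs_append, sn_append, smul_zero, add_zero]
            rw [haff', map_zero, mul_zero, add_zero]
    · rw [List.sum_append, ap_apply]
      apply append_ext
      · rw [map_add, map_list_sum, map_list_sum, List.map_map, List.map_map]
        have e1 : ((fs k l : (Fin (k + l) → ℝ) → (Fin k → ℝ)) ∘ fun u : Fin k → ℝ =>
            (Fin.append u 0 : Fin (k + l) → ℝ)) = id := by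
          funext u
          exact fs_append _ _
        have e2 : ((fs k l : (Fin (k + l) → ℝ) → (Fin k → ℝ)) ∘ fun u : Fin l → ℝ =>
            (Fin.append 0 u : Fin (k + l) → ℝ)) = fun _ => 0 := by
          funext u
          exact fs_append _ _
        rw [e1, e2, List.map_id, hs₁]
        simp
      · rw [map_add, map_list_sum, map_list_sum, List.map_map, List.map_map]
        have e1 : ((sn k l : (Fin (k + l) → ℝ) → (Fin l → ℝ)) ∘ fun u : Fin k → ℝ =>
            (Fin.append u 0 : Fin (k + l) → ℝ)) = fun _ => 0 := by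
          funext u
          exact sn_append _ _
        have e2 : ((sn k l : (Fin (k + l) → ℝ) → (Fin l → ℝ)) ∘ fun u : Fin l → ℝ =>
            (Fin.append 0 u : Fin (k + l) → ℝ)) = id := by
          funext u
          exact sn_append _ _
        rw [e1, e2, List.map_id, hs₂]
        simp

theorem RG.one : RG (1 : MvPolynomial (Fin n) ℝ) e D := by
  refine ⟨0, 1, 0, fun x => by rw [map_one, map_one], ⟨hyp_one _, ?_⟩, fun a _ => ⟨[], ?_, ?_⟩⟩
  · rw [hypCone_one]
    exact GShad.univ
  · intro u hu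
    exact absurd hu List.not_mem_nil
  · rw [List.sum_nil, LinearMap.zero_apply]

theorem RG.prod {ι : Type*} (s : Finset ι) (P : ι → MvPolynomial (Fin n) ℝ)
    (h : ∀ i ∈ s, RG (P i) e D) : RG (∏ i ∈ s, P i) e D := by
  classical
  induction s using Finset.induction_on with
  | empty => rw [Finset.prod_empty]; exact RG.one
  | insert i s hi ih =>
    rw [Finset.prod_insert hi]
    exact (h i (Finset.mem_insert_self i s)).mul
      (ih fun j hj => h j (Finset.mem_insert_of_mem hj))

/-! ### determinants -/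

theorem RG.det {m : ℕ} (M : (Fin n → ℝ) →ₗ[ℝ] Matrix (Fin m) (Fin m) ℝ)
    (hs : ∀ x, (M x).IsSymm) (he : (M e).PosDef) (hp : ∀ x, eval x p = (M x).det)
    (hD : ∀ a ∈ D, a ∈ hypCone p e) : RG p e D := by
  let A : (Fin n → ℝ) →ₗ[ℝ] (Fin (m * m) → ℝ) := vecE ∘ₗ M
  have hA : ∀ x, A x = vecE (M x) := fun x => rfl
  have hpA : ∀ x, eval x p = eval (A x) (detP m) := by
    intro x
    rw [hp, hA, eval_detP, symM_vecE (hs x)]
  have h1 : DetR {y | ∃ u : Fin m → ℝ, symM y = vecMulVec u u} (detP m) (A e) := by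
    refine ⟨m, 1, symM, one_pos, symM_symm, ?_, fun y => ?_, fun y hy => hy⟩
    · rw [hA, symM_vecE (hs e)]
      exact he
    · rw [one_mul, eval_detP]
  refine ⟨m * m, detP m, A, hpA, h1.hs.1, fun a ha => ?_⟩
  obtain ⟨l, hl⟩ := psd_list (psd_of_mem M hs he hp (hD a ha))
  refine ⟨(l.map fun u => vecMulVec u u).map vecE, ?_, ?_⟩
  · intro y hy
    rw [List.map_map] at hy
    obtain ⟨u, _, rfl⟩ := List.mem_map.1 hy
    have hmem : vecE (vecMulVec u u) ∈ {y : Fin (m * m) → ℝ | ∃ u : Fin m → ℝ,
        symM y = vecMulVec u u} := by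
      refine ⟨u, symM_vecE ?_⟩
      ext i j
      rw [transpose_apply, vecMulVec_apply, vecMulVec_apply, mul_comm]
    exact ⟨h1.hs.2 _ hmem, (h1.sq_pd hmem).1⟩
  · rw [hA, ← hl, map_list_sum]

end Vale.Agent.P256.Mx
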