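import Vale.Agent.P256.H186.Mix7

/-! Hyperbolic quadratic forms. -/

set_option linter.all false

namespace Vale.Agent.P256.Mx

open MvPolynomial Matrix

variable {n m : ℕ} {p : MvPolynomial (Fin n) ℝ} {e v : Fin n → ℝ}

/-! ### the Lorentz form -/

/-- `y₀² - y₁² - ... - y_m²` -/
noncomputable def lz (m : ℕ) : MvPolynomial (Fin (m + 1)) ℝ := X 0 ^ 2 - ∑ i : Fin m, X i.succ ^ 2

theorem eval_lz (y : Fin (m + 1) → ℝ) : eval y (lz m) = y 0 ^ 2 - ∑ i : Fin m, y i.succ ^ 2 := by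
  rw [lz, map_sub, map_pow, eval_X, map_sum]
  congr 1
  exact Finset.sum_congr rfl fun i _ => by rw [map_pow, eval_X]

theorem lz_homog : (lz m).IsHomogeneous 2 := by
  have h1 : ∀ i : Fin (m + 1), (X i ^ 2 : MvPolynomial (Fin (m + 1)) ℝ).IsHomogeneous 2 := by
    intro i
    have := (isHomogeneous_X ℝ i).pow 2
    rwa [one_mul] at this
  exact (h1 0).sub (IsHomogeneous.sum _ _ _ fun i _ => h1 i.succ)

theorem hs_X : HS (X 0 : MvPolynomial (Fin 1) ℝ) (fun _ => 1) := by
  have h1 : IsHyperbolic (X 0 : MvPolynomial (Fin 1) ℝ) (fun _ => 1) := by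
    refine ⟨⟨1, isHomogeneous_X ℝ 0⟩, by rw [eval_X]; exact one_pos, fun x t ht => ?_⟩
    rw [aeval_X] at ht
    have h2 : t = ((x 0 : ℝ) : ℂ) := by
      push_cast at ht
      linear_combination ht
    rw [h2]
    exact Complex.ofReal_im _
  exact ⟨h1, shad_one h1 (isHomogeneous_X ℝ 0)⟩

theorem K_X : hypCone (X 0 : MvPolynomial (Fin 1) ℝ) (fun _ => 1) = {x | 0 ≤ x 0} := by
  ext x
  simp only [hypCone, Set.mem_ofPred_eq, eval_X, Pi.sub_apply, Pi.smul_apply, smul_eq_mul,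
    mul_one]
  constructor
  · intro h
    exact h (x 0) (sub_self _)
  · intro h t ht
    rw [sub_eq_zero.1 ht]
    exact h

/-- the axis of the Lorentz cone -/
def le0 (m : ℕ) : Fin (m + 1) → ℝ := cn 1 0

theorem hs_lz : HS (lz m) (le0 m) := by
  let r : (Fin (m + 1) → ℝ) →ₗ[ℝ] ℝ := LinearMap.proj 0
  let Y : (Fin (m + 1) → ℝ) →ₗ[ℝ] (Fin 1 → ℝ) :=
    { toFun := fun y _ => y 0
      map_add' := fun _ _ => rfl
      map_smul' := fun _ _ => rfl }
  let B : (Fin (m + 1) → ℝ) →ₗ[ℝ] (Fin (m + 1) → ℝ) →ₗ[ℝ] (Fin 1 → ℝ) :=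
    LinearMap.mk₂ ℝ (fun y y' _ => ∑ i : Fin m, y i.succ * y' i.succ)
      (fun x x' y => by
        funext j
        simp only [Pi.add_apply, add_mul, Finset.sum_add_distrib])
      (fun c x y => by
        funext j
        simp only [Pi.smul_apply, smul_eq_mul, mul_assoc, Finset.mul_sum])
      (fun x y y' => by
        funext j
        simp only [Pi.add_apply, mul_add, Finset.sum_add_distrib])
      (fun c x y => by
        funext j
        simp only [Pi.smul_apply, smul_eq_mul, Finset.mul_sum]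
        exact Finset.sum_congr rfl fun i _ => by ring)
  have hB : ∀ y y' j, B y y' j = ∑ i : Fin m, y i.succ * y' i.succ := fun _ _ _ => rfl
  have h1 : ∀ y, B y y ∈ hypCone (X 0 : MvPolynomial (Fin 1) ℝ) (fun _ => 1) := by
    intro y
    rw [K_X, Set.mem_ofPred_eq, hB]
    exact Finset.sum_nonneg fun i _ => mul_self_nonneg _
  have h2 : ∀ y, eval y (lz m) = eval (r y • Y y - B y y) (X 0 : MvPolynomial (Fin 1) ℝ) := by
    intro y
    rw [eval_lz, eval_X, Pi.sub_apply, hB]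
    show _ = y 0 * y 0 - _
    rw [sq]
    congr 1
    exact Finset.sum_congr rfl fun i _ => sq _
  have h3 : r (le0 m) = 1 := rfl
  have h4 : Y (le0 m) = fun _ => 1 := rfl
  have h5 : ∀ y, B (le0 m) y + B y (le0 m) = 0 := by
    intro y
    funext j
    rw [Pi.add_apply, hB, hB, Pi.zero_apply]
    have e1 : ∀ i : Fin m, le0 m i.succ = 0 := fun _ => rfl
    simp [e1]
  exact ⟨quad_hyp hs_X.1 h1 h2 h3 h4 h5, quad_gshad hs_X.1 hs_X.2 h1 h2 h3 h4 h5⟩

theorem lz_open {c : ℝ} (hc : 0 < c) : InOpen (lz m) (le0 m) (c • le0 m) := by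
  intro t ht
  have h1 : c • le0 m + t • le0 m = (c + t) • le0 m := by module
  rw [h1, eval_smul' lz_homog]
  have h2 := (hs_lz (m := m)).1.2.1
  have h3 : 0 < c + t := by linarith
  positivity

theorem lz_null {u : Fin (m + 1) → ℝ} (h0 : 0 ≤ u 0) (h1 : u 0 ^ 2 = ∑ i : Fin m, u i.succ ^ 2)
    {c : ℝ} (hc : 0 < c) : RankOne (lz m) (c • le0 m) u := by
  refine ⟨?_, ?_⟩
  · rw [K_eq hs_lz.1 (lz_open hc), mem_hypCone_iff lz_homog]
    intro t ht
    rw [eval_lz]
    have e1 : (u + t • le0 m) 0 = u 0 + t := by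
      show u 0 + t * 1 = _
      ring
    have e2 : ∀ i : Fin m, (u + t • le0 m) i.succ = u i.succ := by
      intro i
      show u i.succ + t * 0 = _
      ring
    simp only [e1, e2]
    rw [← h1]
    have h2 := mul_nonneg h0 ht.le
    have h3 : 0 < (u 0 + t) ^ 2 - u 0 ^ 2 := by nlinarith
    exact h3.ne'
  · have key : ∀ (y : Fin (m + 1) → ℝ) (τ : ℝ), ∑ i : Fin m, (y i.succ + τ * u i.succ) ^ 2 =
        ∑ i : Fin m, y i.succ ^ 2 + 2 * τ * ∑ i : Fin m, y i.succ * u i.succ +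
          τ ^ 2 * ∑ i : Fin m, u i.succ ^ 2 := by
      intro y τ
      rw [Finset.mul_sum, Finset.mul_sum, ← Finset.sum_add_distrib, ← Finset.sum_add_distrib]
      exact Finset.sum_congr rfl fun i _ => by ring
    have key' : ∀ (y : Fin (m + 1) → ℝ) (τ : ℝ),
        ∑ i : Fin m, (y i.succ + τ * u i.succ) * u i.succ =
        ∑ i : Fin m, y i.succ * u i.succ + τ * ∑ i : Fin m, u i.succ ^ 2 := by
      intro y τ
      rw [Finset.mul_sum, ← Finset.sum_add_distrib]
      exact Finset.sum_congr rfl fun i _ => by ring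
    refine sq_zero_of_affine
      (f := fun y => 2 * (y 0 * u 0 - ∑ i : Fin m, y i.succ * u i.succ)) (fun y τ => ?_)
      (fun y τ => ?_)
    · rw [eval_lz, eval_lz]
      simp only [Pi.add_apply, Pi.smul_apply, smul_eq_mul]
      rw [key, ← h1]
      ring
    · simp only [Pi.add_apply, Pi.smul_apply, smul_eq_mul]
      rw [key', ← h1]
      ring

theorem lz_list {y : Fin (m + 2) → ℝ} (h0 : 0 ≤ y 0)
    (h1 : ∑ i : Fin (m + 1), y i.succ ^ 2 ≤ y 0 ^ 2) {c : ℝ} (hc : 0 < c) :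
    ∃ l : List (Fin (m + 2) → ℝ), (∀ u ∈ l, RankOne (lz (m + 1)) (c • le0 (m + 1)) u) ∧
      l.sum = y := by
  obtain ⟨ρ, d, hρ, hρ1, hd, hyd⟩ : ∃ (ρ : ℝ) (d : Fin (m + 1) → ℝ), 0 ≤ ρ ∧ ρ ≤ y 0 ∧
      ∑ i, d i ^ 2 = 1 ∧ ∀ i : Fin (m + 1), y i.succ = ρ * d i := by
    set S := ∑ i : Fin (m + 1), y i.succ ^ 2 with hS
    have hS0 : 0 ≤ S := Finset.sum_nonneg fun i _ => sq_nonneg _
    rcases hS0.eq_or_lt with h | h
    · refine ⟨0, Pi.single 0 1, le_rfl, h0, ?_, fun i => ?_⟩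
      · rw [Fin.sum_univ_succ]
        simp
      · have h2 := (Finset.sum_eq_zero_iff_of_nonneg
          (fun i _ => sq_nonneg (y (Fin.succ i)))).1 (hS ▸ h.symm) i (Finset.mem_univ i)
        rw [zero_mul]
        exact pow_eq_zero_iff (two_ne_zero) |>.1 h2
    · have h2 : 0 < Real.sqrt S := Real.sqrt_pos.2 h
      have h3 : Real.sqrt S ^ 2 = S := Real.sq_sqrt h.le
      refine ⟨Real.sqrt S, fun i => y i.succ / Real.sqrt S, h2.le, ?_, ?_, fun i => ?_⟩
      · exact Real.sqrt_le_iff.2 ⟨h0, h1⟩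
      · have h4 : ∀ i : Fin (m + 1), (y i.succ / Real.sqrt S) ^ 2 = y i.succ ^ 2 / S := by
          intro i
          rw [div_pow, h3]
        simp only [h4]
        rw [← Finset.sum_div, ← hS, div_self h.ne']
      · rw [mul_div_cancel₀ _ h2.ne']
  refine ⟨[cn ((y 0 + ρ) / 2) (((y 0 + ρ) / 2) • d), cn ((y 0 - ρ) / 2) ((-((y 0 - ρ) / 2)) • d)],
    ?_, ?_⟩
  · intro u hu
    rcases List.mem_cons.1 hu with rfl | hu
    · refine lz_null (by rw [cn_zero]; linarith) ?_ hc
      have e1 : ∀ i : Fin (m + 1), (cn ((y 0 + ρ) / 2) (((y 0 + ρ) / 2) • d) :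
          Fin (m + 2) → ℝ) i.succ = (y 0 + ρ) / 2 * d i := fun _ => rfl
      simp only [e1, cn_zero, mul_pow]
      rw [← Finset.mul_sum, hd, mul_one]
    · rw [List.mem_singleton] at hu
      rw [hu]
      refine lz_null (by rw [cn_zero]; linarith) ?_ hc
      have e1 : ∀ i : Fin (m + 1), (cn ((y 0 - ρ) / 2) ((-((y 0 - ρ) / 2)) • d) :
          Fin (m + 2) → ℝ) i.succ = -((y 0 - ρ) / 2) * d i := fun _ => rfl
      simp only [e1, cn_zero, mul_pow]
      rw [← Finset.mul_sum, hd, mul_one, neg_sq]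
  · rw [List.sum_cons, List.sum_singleton]
    funext i
    refine Fin.cases ?_ (fun j => ?_) i
    · show (y 0 + ρ) / 2 + (y 0 - ρ) / 2 = y 0
      ring
    · show (y 0 + ρ) / 2 * d j + -((y 0 - ρ) / 2) * d j = y j.succ
      rw [hyd]
      ring

theorem lz_mem {y : Fin (m + 1) → ℝ} (hy : y ∈ hypCone (lz m) (le0 m)) :
    0 ≤ y 0 ∧ ∑ i : Fin m, y i.succ ^ 2 ≤ y 0 ^ 2 := by
  have h1 := K_eval_nonneg hs_lz.1 hy
  rw [eval_lz] at h1
  refine ⟨?_, by linarith⟩
  by_contra h2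
  push Not at h2
  have h3 := (K_eval_ge hs_lz.1 lz_homog hy (by linarith : (0 : ℝ) ≤ -y 0) le_rfl).2.2
  have h4 := mul_pos (hs_lz (m := m)).1.2.1 (pow_pos (by linarith : (0 : ℝ) < -y 0) 2)
  rw [eval_lz (y := y + (-y 0) • le0 m)] at h3
  have e1 : (y + (-y 0) • le0 m) 0 = 0 := by
    show y 0 + (-y 0) * 1 = 0
    ring
  have h5 : 0 ≤ ∑ i : Fin m, (y + (-y 0) • le0 m) i.succ ^ 2 :=
    Finset.sum_nonneg fun i _ => sq_nonneg _
  rw [e1] at h3
  linarith [h3, h4, h5]

/-! ### quadratic forms -/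

/-- hyperbolic quadratic forms -/
theorem RG.quad (hp : IsHyperbolic p e) (hd : p.IsHomogeneous 2) {D : Set (Fin n → ℝ)}
    (hD : ∀ a ∈ D, a ∈ hypCone p e) : RG p e D := by
  -- the bilinear form
  let b : (Fin n → ℝ) →ₗ[ℝ] (Fin n → ℝ) →ₗ[ℝ] ℝ :=
    LinearMap.mk₂ ℝ (fun x y => 2⁻¹ * dd p x y)
      (fun x x' y => by
        rw [dd_symm_two hd (x + x'), dd_symm_two hd x, dd_symm_two hd x', dd_add]; ring)
      (fun c x y => by
        rw [dd_symm_two hd (c • x), dd_symm_two hd x, dd_smul, smul_eq_mul]; ring)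
      (fun x y y' => by rw [dd_add]; ring)
      (fun c x y => by rw [dd_smul, smul_eq_mul]; ring)
  have hb : ∀ x y, b x y = 2⁻¹ * dd p x y := fun _ _ => rfl
  have hbs : ∀ x y, b x y = b y x := fun x y => by rw [hb, hb, dd_symm_two hd]
  have hbp : ∀ x, eval x p = b x x := by
    intro x
    rw [hb, dd_euler hd]
    push_cast
    ring
  have hpe : 0 < b e e := by rw [← hbp]; exact hp.2.1
  have hdisc : ∀ x, b x x * b e e ≤ b x e ^ 2 := by
    intro x
    have h1 := hp.splits x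
    have h2 := line_leading hd x e hp.2.1.ne'
    obtain ⟨t, ht⟩ := h1.exists_eval_eq_zero (by
      intro h3
      have h4 := Polynomial.natDegree_eq_of_degree_eq_some (n := 0) (by rw [h3]; rfl)
      omega)
    rw [eval_line, hbp] at ht
    simp only [map_add, map_smul, LinearMap.add_apply, LinearMap.smul_apply, smul_eq_mul] at ht
    rw [hbs e x] at ht
    nlinarith [sq_nonneg (t * b e e + b x e)]
  set c := Real.sqrt (b e e) with hc
  have hc0 : 0 < c := Real.sqrt_pos.2 hpe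
  have hc2 : c ^ 2 = b e e := Real.sq_sqrt hpe.le
  -- the negative part
  let N : Matrix (Fin n) (Fin n) ℝ := Matrix.of fun i j =>
    b (Pi.single i 1) e * b (Pi.single j 1) e / b e e - b (Pi.single i 1) (Pi.single j 1)
  have hN : ∀ x : Fin n → ℝ, x ⬝ᵥ (N *ᵥ x) = b x e ^ 2 / b e e - b x x := by
    intro x
    have e1 : b x e = ∑ i, x i * b (Pi.single i 1) e := by
      have := lin_eq_sum (b.flip e) x
      simpa [LinearMap.flip_apply, smul_eq_mul] using this
    have e2 : b x x = ∑ i, ∑ j, (x i * x j) * b (Pi.single i 1) (Pi.single j 1) := by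
      have := bilin_eq_sum b x x
      simpa [smul_eq_mul] using this
    rw [e1, e2]
    simp only [dotProduct, mulVec, N, Matrix.of_apply, Finset.mul_sum]
    rw [sq, Finset.sum_mul_sum, Finset.sum_div, ← Finset.sum_sub_distrib]
    refine Finset.sum_congr rfl fun i _ => ?_
    rw [Finset.sum_div, ← Finset.sum_sub_distrib]
    exact Finset.sum_congr rfl fun j _ => by ring
  have hNs : N.IsSymm := by
    ext i j
    simp only [N, Matrix.transpose_apply, Matrix.of_apply]
    rw [hbs (Pi.single j 1) (Pi.single i 1)]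
    ring
  have hNpsd : N.PosSemidef := by
    rw [Matrix.posSemidef_iff_dotProduct_mulVec]
    refine ⟨by rw [Matrix.IsHermitian, conjTranspose_eq_transpose_of_trivial]; exact hNs,
      fun x => ?_⟩
    rw [star_trivial, hN, sub_nonneg, le_div_iff₀ hpe]
    exact hdisc x
  obtain ⟨B, hB⟩ : ∃ B : Matrix (Fin n) (Fin n) ℝ, N = B.transpose * B := by
    open scoped MatrixOrder Matrix.Norms.L2Operator in
    obtain ⟨B, hB⟩ := CStarAlgebra.nonneg_iff_eq_star_mul_self.mp hNpsd.nonneg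
    refine ⟨B, ?_⟩
    rw [hB, Matrix.star_eq_conjTranspose, Matrix.conjTranspose_eq_transpose_of_trivial]
  have hBN : ∀ x : Fin n → ℝ, ∑ k, (B *ᵥ x) k ^ 2 = b x e ^ 2 / b e e - b x x := by
    intro x
    rw [← hN, hB, ← mulVec_mulVec, dotProduct_mulVec, vecMul_transpose]
    exact Finset.sum_congr rfl fun i _ => sq _
  let A : (Fin n → ℝ) →ₗ[ℝ] (Fin (n + 1 + 1) → ℝ) :=
    { toFun := fun x => cn (b x e / c) (cn 0 (B *ᵥ x))
      map_add' := fun x y => by
        funext i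
        refine Fin.cases ?_ (fun j => Fin.cases ?_ (fun k => ?_) j) i
        · show b (x + y) e / c = b x e / c + b y e / c
          rw [map_add, LinearMap.add_apply, add_div]
        · show (0 : ℝ) = 0 + 0
          ring
        · show (B *ᵥ (x + y)) k = (B *ᵥ x) k + (B *ᵥ y) k
          rw [mulVec_add]; rfl
      map_smul' := fun r x => by
        funext i
        refine Fin.cases ?_ (fun j => Fin.cases ?_ (fun k => ?_) j) i
        · show b (r • x) e / c = r * (b x e / c)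
          rw [map_smul, LinearMap.smul_apply, smul_eq_mul]; ring
        · show (0 : ℝ) = r * 0
          ring
        · show (B *ᵥ (r • x)) k = r * (B *ᵥ x) k
          rw [mulVec_smul]; rfl }
  have hA0 : ∀ x, A x 0 = b x e / c := fun _ => rfl
  have hA1 : ∀ x, ∑ i : Fin (n + 1), A x i.succ ^ 2 = ∑ k, (B *ᵥ x) k ^ 2 := by
    intro x
    rw [Fin.sum_univ_succ]
    have e1 : A x (Fin.succ 0) = 0 := rfl
    rw [e1]
    have e2 : ∀ k : Fin n, A x k.succ.succ = (B *ᵥ x) k := fun _ => rfl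
    simp only [e2]
    ring
  have hpA : ∀ x, eval x p = eval (A x) (lz (n + 1)) := by
    intro x
    rw [eval_lz, hA0, hA1, hBN, hbp, div_pow, hc2]
    ring
  have hAe : A e = c • le0 (n + 1) := by
    have h1 := hBN e
    rw [sq, mul_div_assoc, div_self hpe.ne', mul_one, sub_self] at h1
    have h2 : ∀ k, (B *ᵥ e) k = 0 := by
      intro k
      have h3 := (Finset.sum_eq_zero_iff_of_nonneg (fun i _ => sq_nonneg ((B *ᵥ e) i))).1 h1 k
        (Finset.mem_univ k)
      exact pow_eq_zero_iff (two_ne_zero) |>.1 h3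
    funext i
    refine Fin.cases ?_ (fun j => Fin.cases ?_ (fun k => ?_) j) i
    · show b e e / c = c * 1
      rw [← hc2]
      field_simp
    · show (0 : ℝ) = c * 0
      ring
    · show (B *ᵥ e) k = c * 0
      rw [h2]; ring
  refine ⟨n + 1 + 1, lz (n + 1), A, hpA, ?_, fun a ha => ?_⟩
  · rw [hAe]
    exact hs_lz.dir (lz_open hc0)
  · have h1 := hD a ha
    rw [hypCone_pre A hpA, Set.mem_preimage, hAe, K_eq hs_lz.1 (lz_open hc0)] at h1
    obtain ⟨h2, h3⟩ := lz_mem h1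
    rw [hAe]
    exact lz_list h2 h3 hc0

end Vale.Agent.P256.Mx
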