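import Vale.Agent.P256.H186.Mix8

/-! Hermitian determinants. -/

set_option linter.all false

namespace Vale.Agent.P256.Mx

open MvPolynomial Matrix
open scoped ComplexOrder

variable {n m : ℕ} {p : MvPolynomial (Fin n) ℝ} {e v : Fin n → ℝ}

/-! ### the real part of a complex polynomial -/

theorem exists_re {σ : Type*} (P : MvPolynomial σ ℂ) : ∃ q : MvPolynomial σ ℝ,
    (∀ y : σ → ℝ, eval y q = (eval (fun i => (y i : ℂ)) P).re) ∧
      ∀ d, P.IsHomogeneous d → q.IsHomogeneous d := by
  refine ⟨∑ s ∈ P.support, monomial s (P.coeff s).re, fun y => ?_, fun d hd => ?_⟩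
  · rw [map_sum, MvPolynomial.eval_eq, Complex.re_sum]
    refine Finset.sum_congr rfl fun s _ => ?_
    rw [eval_monomial, Finsupp.prod]
    have h1 : (∏ i ∈ s.support, (y i : ℂ) ^ s i) = ((∏ i ∈ s.support, y i ^ s i : ℝ) : ℂ) := by
      push_cast
      rfl
    rw [h1, Complex.re_mul_ofReal]
  · refine IsHomogeneous.sum _ _ _ fun s hs => ?_
    refine isHomogeneous_monomial _ ?_
    have h1 := hd (mem_support_iff.1 hs)
    rw [Finsupp.degree_eq_weight_one]
    exact h1

/-! ### Hermitian matrices as real vectors -/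

/-- the skew symmetric part of the matrix with the given entries -/
noncomputable def skM : (Fin (m * m) → ℝ) →ₗ[ℝ] Matrix (Fin m) (Fin m) ℝ where
  toFun y := Matrix.of fun a b => 2⁻¹ * (y (finProdFinEquiv (a, b)) - y (finProdFinEquiv (b, a)))
  map_add' x y := by
    ext a b
    simp only [Matrix.of_apply, Pi.add_apply, Matrix.add_apply]
    ring
  map_smul' c x := by
    ext a b
    simp only [Matrix.of_apply, Pi.smul_apply, Matrix.smul_apply, smul_eq_mul, RingHom.id_apply]
    ring

theorem skM_skew (y : Fin (m * m) → ℝ) : (skM y)ᵀ = -skM y := by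
  ext a b
  simp only [skM, LinearMap.coe_mk, AddHom.coe_mk, Matrix.of_apply, Matrix.transpose_apply,
    Matrix.neg_apply]
  ring

/-- the Hermitian matrix of a real vector -/
noncomputable def hm : (Fin (m * m) → ℝ) →ₗ[ℝ] Matrix (Fin m) (Fin m) ℂ where
  toFun y := Matrix.of fun a b => (symM y a b : ℂ) + Complex.I * (skM y a b : ℂ)
  map_add' x y := by
    ext a b
    simp only [Matrix.of_apply, Matrix.add_apply, map_add]
    push_cast
    ring
  map_smul' c x := by
    ext a b
    simp only [Matrix.of_apply, Matrix.smul_apply, map_smul, smul_eq_mul, RingHom.id_apply,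
      Complex.real_smul]
    push_cast
    ring

theorem hm_apply (y : Fin (m * m) → ℝ) (a b : Fin m) :
    hm y a b = (symM y a b : ℂ) + Complex.I * (skM y a b : ℂ) := rfl

theorem hm_herm (y : Fin (m * m) → ℝ) : (hm y).IsHermitian := by
  ext a b
  rw [conjTranspose_apply, hm_apply, hm_apply]
  have h1 : symM y b a = symM y a b := (symM_symm y).apply a b
  have h2 : skM y b a = -skM y a b := by
    have := congrFun (congrFun (skM_skew y) a) b
    simpa using this
  rw [h1, h2]
  simp

/-- the real vector of a Hermitian matrix -/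
noncomputable def vecH : Matrix (Fin m) (Fin m) ℂ →ₗ[ℝ] (Fin (m * m) → ℝ) where
  toFun A i := (A (finProdFinEquiv.symm i).1 (finProdFinEquiv.symm i).2).re +
    (A (finProdFinEquiv.symm i).1 (finProdFinEquiv.symm i).2).im
  map_add' A B := by
    funext i
    simp only [Matrix.add_apply, Complex.add_re, Complex.add_im, Pi.add_apply]
    ring
  map_smul' c A := by
    funext i
    simp only [Matrix.smul_apply, Complex.real_smul, Complex.re_ofReal_mul,
      Complex.im_ofReal_mul, Pi.smul_apply, smul_eq_mul, RingHom.id_apply]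
    ring

theorem vecH_apply (A : Matrix (Fin m) (Fin m) ℂ) (a b : Fin m) :
    vecH A (finProdFinEquiv (a, b)) = (A a b).re + (A a b).im := by
  show (A (finProdFinEquiv.symm (finProdFinEquiv (a, b))).1
    (finProdFinEquiv.symm (finProdFinEquiv (a, b))).2).re + _ = _
  rw [Equiv.symm_apply_apply]

theorem hm_vecH {A : Matrix (Fin m) (Fin m) ℂ} (hA : A.IsHermitian) : hm (vecH A) = A := by
  ext a b
  have h1 : A b a = star (A a b) := (hA.apply b a).symm
  rw [hm_apply]
  simp only [symM, skM, LinearMap.coe_mk, AddHom.coe_mk, Matrix.of_apply, vecH_apply, h1]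
  apply Complex.ext
  · simp
    ring
  · simp
    ring

/-! ### the determinant -/

/-- the matrix of linear forms -/
noncomputable def hP (m : ℕ) : MvPolynomial (Fin (m * m)) ℂ :=
  (Matrix.of fun a b : Fin m => C (2⁻¹ : ℂ) *
    (X (finProdFinEquiv (a, b)) + X (finProdFinEquiv (b, a))) + C (Complex.I * 2⁻¹) *
    (X (finProdFinEquiv (a, b)) - X (finProdFinEquiv (b, a)))).det

theorem eval_hP (y : Fin (m * m) → ℝ) : eval (fun i => (y i : ℂ)) (hP m) = (hm y).det := by
  rw [hP, RingHom.map_det]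
  congr 1
  ext a b
  simp [hm_apply, symM, skM]
  ring

theorem hP_homog : (hP m).IsHomogeneous m := by
  rw [hP, Matrix.det_apply]
  refine IsHomogeneous.sum _ _ _ fun σ _ => ?_
  have h : (∏ i : Fin m, (Matrix.of fun a b : Fin m => C (2⁻¹ : ℂ) *
      (X (finProdFinEquiv (a, b)) + X (finProdFinEquiv (b, a))) + C (Complex.I * 2⁻¹) *
      (X (finProdFinEquiv (a, b)) - X (finProdFinEquiv (b, a))) :
      Matrix (Fin m) (Fin m) (MvPolynomial (Fin (m * m)) ℂ)) (σ i) i).IsHomogeneous
      (∑ _i : Fin m, 1) := by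
    refine IsHomogeneous.prod _ _ _ fun i _ => ?_
    have h1 := (isHomogeneous_C (Fin (m * m)) (2⁻¹ : ℂ)).mul
      ((isHomogeneous_X ℂ (finProdFinEquiv (σ i, i))).add
        (isHomogeneous_X ℂ (finProdFinEquiv (i, σ i))))
    have h2 := (isHomogeneous_C (Fin (m * m)) (Complex.I * 2⁻¹ : ℂ)).mul
      ((isHomogeneous_X ℂ (finProdFinEquiv (σ i, i))).sub
        (isHomogeneous_X ℂ (finProdFinEquiv (i, σ i))))
    rw [zero_add] at h1 h2
    exact h1.add h2
  simp only [Finset.sum_const, Finset.card_univ, Fintype.card_fin, smul_eq_mul, mul_one] at h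
  rcases Int.units_eq_one_or (Equiv.Perm.sign σ) with h1 | h1
  · rw [h1, one_smul]; exact h
  · rw [h1, Units.neg_smul, one_smul]; exact h.neg

/-- the determinant of Hermitian matrices as a real polynomial -/
noncomputable def hQ (m : ℕ) : MvPolynomial (Fin (m * m)) ℝ := (exists_re (hP m)).choose

theorem eval_hQ (y : Fin (m * m) → ℝ) : eval y (hQ m) = (hm y).det.re := by
  rw [← eval_hP]
  exact (exists_re (hP m)).choose_spec.1 y

theorem hQ_homog : (hQ m).IsHomogeneous m := (exists_re (hP m)).choose_spec.2 m hP_homog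

theorem det_real (y : Fin (m * m) → ℝ) : (hm y).det = ((eval y (hQ m) : ℝ) : ℂ) := by
  have h1 : star (hm y).det = (hm y).det := by
    rw [← det_conjTranspose, (hm_herm y).eq]
  have h2 := Complex.conj_eq_iff_re.1 h1
  rw [eval_hQ, h2]

/-- the real form -/
noncomputable def rM : (Fin (m * m) → ℝ) →ₗ[ℝ] Matrix (Fin (m + m)) (Fin (m + m)) ℝ where
  toFun y := (fromBlocks (symM y) (-skM y) (skM y) (symM y)).submatrix finSumFinEquiv.symm
    finSumFinEquiv.symm
  map_add' x y := by
    rw [map_add, map_add, neg_add, ← fromBlocks_add]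
    rfl
  map_smul' c x := by
    rw [map_smul, map_smul, ← smul_neg, ← fromBlocks_smul]
    rfl

theorem rM_apply (y : Fin (m * m) → ℝ) : rM y =
    (fromBlocks (symM y) (-skM y) (skM y) (symM y)).submatrix finSumFinEquiv.symm
      finSumFinEquiv.symm := rfl

theorem rM_symm (y : Fin (m * m) → ℝ) : (rM y).IsSymm := by
  rw [rM_apply, Matrix.IsSymm, transpose_submatrix, fromBlocks_transpose, (symM_symm y).eq,
    transpose_neg, skM_skew, neg_neg]

theorem block_det (S T : Matrix (Fin m) (Fin m) ℂ) :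
    (fromBlocks S (-T) T S).det = (S + Complex.I • T).det * (S - Complex.I • T).det := by
  have h1 : (fromBlocks (1 : Matrix (Fin m) (Fin m) ℂ) (Complex.I • 1) 0 1) *
      (fromBlocks S (-T) T S) * (fromBlocks 1 (-(Complex.I • 1)) 0 1) =
      fromBlocks (S + Complex.I • T) 0 T (S - Complex.I • T) := by
    rw [fromBlocks_multiply, fromBlocks_multiply]
    simp only [Matrix.one_mul, Matrix.zero_mul, zero_add, Matrix.mul_one, Matrix.mul_zero,
      add_zero, Matrix.smul_mul, Matrix.mul_neg, Matrix.mul_smul]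
    congr 1
    · rw [smul_add, smul_smul, Complex.I_mul_I, neg_one_smul]
      abel
    · abel
  have h2 := congrArg Matrix.det h1
  rw [det_mul, det_mul, det_fromBlocks_zero₂₁, det_fromBlocks_zero₂₁, det_fromBlocks_zero₁₂] at h2
  simpa using h2

theorem rM_det (y : Fin (m * m) → ℝ) : (rM y).det = (eval y (hQ m)) ^ 2 := by
  have h1 : ((rM y).det : ℂ) = (fromBlocks ((symM y).map (algebraMap ℝ ℂ))
      (-(skM y).map (algebraMap ℝ ℂ)) ((skM y).map (algebraMap ℝ ℂ))
      ((symM y).map (algebraMap ℝ ℂ))).det := by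
    rw [rM_apply, det_submatrix_equiv_self]
    have h2 := RingHom.map_det (algebraMap ℝ ℂ) (fromBlocks (symM y) (-skM y) (skM y) (symM y))
    rw [Complex.coe_algebraMap] at h2
    rw [h2]
    congr 1
    ext a b
    rcases a with a | a <;> rcases b with b | b <;> simp
  rw [block_det] at h1
  have h3 : (symM y).map (algebraMap ℝ ℂ) + Complex.I • (skM y).map (algebraMap ℝ ℂ) = hm y := by
    ext a b
    simp [hm_apply]
  have h4 : (symM y).map (algebraMap ℝ ℂ) - Complex.I • (skM y).map (algebraMap ℝ ℂ) =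
      (hm y)ᵀ := by
    ext a b
    rw [transpose_apply, hm_apply]
    have e1 : symM y b a = symM y a b := (symM_symm y).apply a b
    have e2 : skM y b a = -skM y a b := by
      have := congrFun (congrFun (skM_skew y) a) b
      simpa using this
    rw [e1, e2]
    simp
    ring
  rw [h3, h4, det_transpose, det_real] at h1
  have h5 : (((rM y).det : ℝ) : ℂ) = (((eval y (hQ m)) ^ 2 : ℝ) : ℂ) := by
    rw [h1]
    push_cast
    ring
  exact_mod_cast h5

/-- the identity matrix -/
noncomputable def yI (m : ℕ) : Fin (m * m) → ℝ := vecH (1 : Matrix (Fin m) (Fin m) ℂ)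

theorem hm_yI : hm (yI m) = 1 := hm_vecH isHermitian_one

theorem rM_yI : rM (yI m) = 1 := by
  have h0 := hm_yI (m := m)
  have h1 : symM (yI m) = 1 := by
    ext a b
    have := congrArg Complex.re (congrFun (congrFun h0 a) b)
    rw [hm_apply] at this
    by_cases hab : a = b
    · subst hab
      simpa using this
    · rw [Matrix.one_apply_ne hab] at this ⊢
      simpa using this
  have h2 : skM (yI m) = 0 := by
    ext a b
    have := congrArg Complex.im (congrFun (congrFun h0 a) b)
    rw [hm_apply] at this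
    by_cases hab : a = b
    · subst hab
      simpa using this
    · rw [Matrix.one_apply_ne hab] at this
      simpa using this
  rw [rM_apply, h1, h2, neg_zero, fromBlocks_one, submatrix_one_equiv]

theorem hs_hQ : HS (hQ m) (yI m) := by
  have h1 : HS ((hQ m) ^ 2) (yI m) := by
    refine det_hyp_shad rM rM_symm ?_ fun y => ?_
    · rw [rM_yI]
      exact Matrix.PosDef.one
    · rw [map_pow, rM_det]
  refine ⟨⟨⟨m, hQ_homog⟩, ?_, fun x t ht => h1.1.2.2 x t ?_⟩, ?_⟩
  · rw [eval_hQ, hm_yI, det_one]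
    simp
  · rw [map_pow, ht]
    simp
  · have h2 : hypCone (hQ m) (yI m) = hypCone ((hQ m) ^ 2) (yI m) := by
      ext x
      simp only [hypCone, Set.mem_ofPred_eq, map_pow]
      constructor
      · intro h t ht
        exact h t (pow_eq_zero_iff two_ne_zero |>.1 ht)
      · intro h t ht
        exact h t (by rw [ht]; simp)
    rw [h2]
    exact h1.2

theorem hQ_ne {y : Fin (m * m) → ℝ} (h : (hm y).PosDef) : eval y (hQ m) ≠ 0 := by
  have h1 := h.det_pos
  rw [det_real] at h1
  intro h2
  rw [h2] at h1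
  simp at h1

theorem hQ_open {y : Fin (m * m) → ℝ} (h : (hm y).PosDef) : InOpen (hQ m) (yI m) y := by
  intro t ht
  refine hQ_ne ?_
  rw [map_add, map_smul, hm_yI]
  refine h.add_posSemidef ?_
  have h1 : (t • (1 : Matrix (Fin m) (Fin m) ℂ)) = ((t : ℂ)) • (1 : Matrix (Fin m) (Fin m) ℂ) := by
    ext a b
    simp
  rw [h1]
  exact Matrix.PosSemidef.one.smul (by exact_mod_cast ht)

theorem psd_of_K {y : Fin (m * m) → ℝ} (h : y ∈ hypCone (hQ m) (yI m)) : (hm y).PosSemidef := by
  rw [(hm_herm y).posSemidef_iff_eigenvalues_nonneg]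
  intro i
  refine h _ ?_
  rw [eval_hQ, map_sub, map_smul, hm_yI]
  have h1 := congrArg (Polynomial.eval ((hm_herm y).eigenvalues i : ℂ)) (hm_herm y).charpoly_eq
  rw [Matrix.eval_charpoly, Polynomial.eval_prod] at h1
  have h2 : ((hm_herm y).eigenvalues i • (1 : Matrix (Fin m) (Fin m) ℂ) - hm y) =
      Matrix.scalar (Fin m) ((hm_herm y).eigenvalues i : ℂ) - hm y := by
    congr 1
    ext a b
    simp [Matrix.scalar_apply, Matrix.diagonal_apply, Matrix.one_apply]
  rw [h2, h1, Finset.prod_eq_zero (Finset.mem_univ i) (by simp)]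
  rfl

/-! ### rank one directions -/

theorem corner' {R : Type*} [CommRing R] {k : ℕ} (N : Matrix (Fin (k + 1)) (Fin (k + 1)) R)
    (τ : R) (E : Fin (k + 1) → R) (h0 : E 0 = 1) (h1 : ∀ j : Fin k, E j.succ = 0) :
    (N + τ • vecMulVec E E).det = N.det + τ * (N.submatrix Fin.succ Fin.succ).det := by
  rw [det_succ_row_zero, det_succ_row_zero N, Fin.sum_univ_succ, Fin.sum_univ_succ]
  have k1 : ∀ j : Fin (k + 1), (N + τ • vecMulVec E E).submatrix
      Fin.succ j.succAbove = N.submatrix Fin.succ j.succAbove := by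
    intro j
    ext a b
    rw [submatrix_apply, submatrix_apply, Matrix.add_apply, Matrix.smul_apply, vecMulVec_apply,
      h1, zero_mul, smul_zero, add_zero]
  have k2 : (N + τ • vecMulVec E E) 0 0 = N 0 0 + τ := by
    rw [Matrix.add_apply, Matrix.smul_apply, vecMulVec_apply, h0, smul_eq_mul, mul_one,
      mul_one]
  have k3 : ∀ j : Fin k, (N + τ • vecMulVec E E) 0 j.succ = N 0 j.succ := by
    intro j
    rw [Matrix.add_apply, Matrix.smul_apply, vecMulVec_apply, h1, mul_zero, smul_zero,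
      add_zero]
  have k4 : (Fin.succAbove (0 : Fin (k + 1)) : Fin k → Fin (k + 1)) = Fin.succ := by
    funext j
    exact Fin.zero_succAbove j
  have k5 := k1 0
  rw [k4] at k5
  simp only [k1, k2, k3, k4, k5, Fin.val_zero, pow_zero, one_mul]
  ring

theorem exists_frameC {k : ℕ} {u : Fin (k + 1) → ℂ} (hu : u ≠ 0) :
    ∃ G : Matrix (Fin (k + 1)) (Fin (k + 1)) ℂ, IsUnit G ∧ G *ᵥ u = Pi.single 0 1 := by
  have h0 : (Pi.single 0 1 : Fin (k + 1) → ℂ) ≠ 0 := by
    intro h
    have := congrFun h 0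
    simp at this
  obtain ⟨A, hA⟩ := SeparatingDual.exists_continuousLinearEquiv_apply_eq (R := ℂ) hu h0
  refine ⟨LinearMap.toMatrix' A.toLinearEquiv.toLinearMap, ?_, ?_⟩
  · have h1 : LinearMap.toMatrix' A.toLinearEquiv.toLinearMap *
        LinearMap.toMatrix' A.toLinearEquiv.symm.toLinearMap = 1 := by
      rw [← LinearMap.toMatrix'_comp, LinearEquiv.comp_coe, LinearEquiv.symm_trans_self]
      exact LinearMap.toMatrix'_id
    exact IsUnit.of_mul_eq_one _ h1
  · rw [LinearMap.toMatrix'_mulVec]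
    exact hA

theorem herm_rank_one (u : Fin m → ℂ) : (vecMulVec u (star u)).IsHermitian :=
  (posSemidef_vecMulVec_self_star u).1

theorem hQ_sq (u : Fin m → ℂ) : polarDeriv (vecH (vecMulVec u (star u)))
    (polarDeriv (vecH (vecMulVec u (star u))) (hQ m)) = 0 := by
  by_cases hu0 : u = 0
  · rw [hu0, zero_vecMulVec, map_zero, pd_zero_dir]
  obtain ⟨k, rfl⟩ : ∃ k, m = k + 1 := by
    rcases m with _ | k
    · exact absurd (Subsingleton.elim u 0) hu0
    · exact ⟨k, rfl⟩
  obtain ⟨G, hG, hGu⟩ := exists_frameC hu0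
  set E : Fin (k + 1) → ℂ := Pi.single 0 1 with hE
  have hE0 : E 0 = 1 := by simp [hE]
  have hE1 : ∀ j : Fin k, E j.succ = 0 := by intro j; simp [hE]
  have hEs : star E = E := by
    funext j
    refine Fin.cases ?_ (fun i => ?_) j
    · rw [Pi.star_apply, hE0]; simp
    · rw [Pi.star_apply, hE1]; simp
  have hGd : G.det ≠ 0 := ((Matrix.isUnit_iff_isUnit_det G).1 hG).ne_zero
  have hκ : 0 < Complex.normSq G.det := Complex.normSq_pos.2 hGd
  set w := vecH (vecMulVec u (star u)) with hw
  have hmw : hm w = vecMulVec u (star u) := hm_vecH (herm_rank_one u)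
  have hNw : G * hm w * Gᴴ = vecMulVec E E := by
    rw [hmw, mul_vecMulVec, vecMulVec_mul, hGu, ← star_mulVec, hGu, hEs]
  have hstep : ∀ (y : Fin ((k + 1) * (k + 1)) → ℝ) (τ : ℝ), G * hm (y + τ • w) * Gᴴ =
      G * hm y * Gᴴ + (τ : ℂ) • vecMulVec E E := by
    intro y τ
    rw [map_add, map_smul, Matrix.mul_add, Matrix.add_mul, ← hNw]
    congr 1
    have h1 : τ • hm w = (τ : ℂ) • hm w := by
      ext a b
      simp
    rw [h1, Matrix.mul_smul, Matrix.smul_mul]
  have hdet : ∀ y : Fin ((k + 1) * (k + 1)) → ℝ, (G * hm y * Gᴴ).det =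
      ((Complex.normSq G.det * eval y (hQ (k + 1)) : ℝ) : ℂ) := by
    intro y
    rw [det_mul, det_mul, det_conjTranspose, det_real]
    push_cast
    rw [← Complex.mul_conj]
    simp only [RCLike.star_def]
    ring
  refine sq_zero_of_affine (f := fun y => ((G * hm y * Gᴴ).submatrix Fin.succ
    Fin.succ).det.re / Complex.normSq G.det) (fun y τ => ?_) (fun y τ => ?_)
  · have h1 := hdet (y + τ • w)
    rw [hstep, corner' _ _ E hE0 hE1, hdet] at h1
    have h2 := congrArg Complex.re h1
    simp only [Complex.add_re, Complex.ofReal_re, Complex.re_ofReal_mul] at h2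
    field_simp
    linarith
  · rw [hstep]
    congr 3
    ext a b
    rw [submatrix_apply, submatrix_apply, Matrix.add_apply, Matrix.smul_apply, vecMulVec_apply,
      hE1, zero_mul, smul_zero, add_zero]

theorem hQ_mem (u : Fin m → ℂ) : vecH (vecMulVec u (star u)) ∈ hypCone (hQ m) (yI m) := by
  rw [mem_hypCone_iff hQ_homog]
  intro t ht
  refine hQ_ne ?_
  rw [map_add, map_smul, hm_yI, hm_vecH (herm_rank_one u), add_comm]
  have h1 : (t • (1 : Matrix (Fin m) (Fin m) ℂ)) = ((t : ℂ)) • (1 : Matrix (Fin m) (Fin m) ℂ) := by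
    ext a b
    simp
  rw [h1]
  exact (Matrix.PosDef.one.smul (by exact_mod_cast ht)).add_posSemidef
    (posSemidef_vecMulVec_self_star u)

theorem psd_listC {S : Matrix (Fin m) (Fin m) ℂ} (hS : S.PosSemidef) :
    ∃ l : List (Fin m → ℂ), (l.map fun u => vecMulVec u (star u)).sum = S := by
  obtain ⟨B, hB⟩ : ∃ B : Matrix (Fin m) (Fin m) ℂ, S = Bᴴ * B := by
    open scoped MatrixOrder Matrix.Norms.L2Operator in
    obtain ⟨B, hB⟩ := CStarAlgebra.nonneg_iff_eq_star_mul_self.mp hS.nonneg
    exact ⟨B, hB⟩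
  refine ⟨List.ofFn fun k => star (B k), ?_⟩
  rw [List.map_ofFn, List.sum_ofFn, hB]
  ext i j
  rw [Matrix.sum_apply, Matrix.mul_apply]
  refine Finset.sum_congr rfl fun k _ => ?_
  simp only [Function.comp_apply, vecMulVec_apply, star_star, Pi.star_apply,
    conjTranspose_apply]

/-- definite Hermitian determinants -/
theorem RG.herm {D : Set (Fin n → ℝ)} (M : (Fin n → ℝ) →ₗ[ℝ] Matrix (Fin m) (Fin m) ℂ)
    (hs : ∀ x, (M x).IsHermitian) (he : (M e).PosDef)
    (hp : ∀ x, ((eval x p : ℝ) : ℂ) = (M x).det) (hD : ∀ a ∈ D, a ∈ hypCone p e) :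
    RG p e D := by
  let A : (Fin n → ℝ) →ₗ[ℝ] (Fin (m * m) → ℝ) := vecH ∘ₗ M
  have hA : ∀ x, A x = vecH (M x) := fun x => rfl
  have hmA : ∀ x, hm (A x) = M x := fun x => hm_vecH (hs x)
  have hpA : ∀ x, eval x p = eval (A x) (hQ m) := by
    intro x
    rw [eval_hQ, hmA, ← hp, Complex.ofReal_re]
  have hopen : InOpen (hQ m) (yI m) (A e) := hQ_open (by rw [hmA]; exact he)
  refine ⟨m * m, hQ m, A, hpA, hs_hQ.dir hopen, fun a ha => ?_⟩
  have h1 := hD a ha
  rw [hypCone_pre A hpA, Set.mem_preimage, K_eq hs_hQ.1 hopen] at h1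
  have h2 := psd_of_K h1
  rw [hmA] at h2
  obtain ⟨l, hl⟩ := psd_listC h2
  refine ⟨(l.map fun u => vecMulVec u (star u)).map vecH, ?_, ?_⟩
  · intro y hy
    rw [List.map_map] at hy
    obtain ⟨u, _, rfl⟩ := List.mem_map.1 hy
    refine ⟨?_, hQ_sq u⟩
    rw [K_eq hs_hQ.1 hopen]
    exact hQ_mem u
  · rw [hA, ← hl, map_list_sum]

end Vale.Agent.P256.Mx
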