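import Vale.Agent.P256.H186.LocPenK
import Vale.Agent.P256.H326.Gen
import Vale.Agent.P256.H326.ConicSos

/-! Cones whose boundary points are ordinary, on a clean curved stratum, or have a local pencil,
strict with Nash entries or linear. -/

set_option linter.all false

namespace Vale.Agent.P256.H186

open MvPolynomial Filter Topology Matrix Vale.Agent.P256 Vale.Agent.P256.H326
  Vale.Agent.P256.H387

variable {n : ℕ} {p : MvPolynomial (Fin n) ℝ} {e z : Fin n → ℝ}

theorem locHyp_of (h : OrdinaryAt p e z) : LocHyp p e z :=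
  fun v hv hv0 hvz => h v hv hv0 (not_span_iff.1 hvz)

/-- clean points in terms of the internal structure -/
theorem stratAt_of (hp : IsHyperbolic p e) (hz : z ∈ hypCone p e) (hz0 : eval z p = 0)
    (hs : dd p z e = 0) (h : CleanAt p e z) : ∃ m, StratAt p e z (m + 1) := by
  have h' : CleanStratum p e z := by
    obtain ⟨a1, a2, a3, a4, a5⟩ := h
    refine ⟨fun v hv hv0 hvL => a1 v hv hv0 fun h5 => hvL (h5 : v ∈ lineality _), ?_, ?_, ?_, ?_⟩
    · obtain ⟨u, w, h5⟩ := a2
      exact codim_of ⟨u, w, fun a b hab => h5 a b hab⟩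
    · intro U hU
      filter_upwards [a3 U hU] with x hx
      obtain ⟨y, hy, hy1, hy2⟩ := hx
      exact ⟨y, hy, fun l hl => hy1 l hl, hy2⟩
    · intro v hv hvz
      exact a4 v hv (not_span_iff.1 hvz)
    · intro y hy hyz
      exact a5 y hy (not_span_iff.1 hyz)
  have hs' := hs.symm
  obtain ⟨m, hm, he⟩ := exists_mult hp hz
  have hp0 : part p z m ≠ 0 := by
    intro h
    rw [h, map_zero] at he
    exact lt_irrefl _ he
  have hmu := mult_eq hm hp0
  have hle := localization_eq hm hp0
  have hm2 : 2 ≤ m := by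
    by_contra hlt
    push Not at hlt
    have hcase : m = 0 ∨ m = 1 := by omega
    rcases hcase with h | h
    · subst h
      rw [← coeff_line, Polynomial.coeff_zero_eq_eval_zero, eval_line, zero_smul, add_zero,
        hz0] at he
      exact lt_irrefl _ he
    · subst h
      have h2 := Polynomial.coeff_derivative (line p z e) 0
      rw [Polynomial.coeff_zero_eq_eval_zero, eval_derivative_line, zero_smul, add_zero, ← hs',
        coeff_line] at h2
      simp only [zero_add, Nat.cast_zero, mul_one] at h2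
      rw [← h2] at he
      exact lt_irrefl _ he
  have hq := part_hyp hp hm he
  obtain ⟨a1, a2, a3, a4, a5⟩ := h'
  rw [hle, lineality_eq] at a1 a2 a3 a4
  rw [hmu] at a3 a4
  obtain ⟨m', rfl⟩ : ∃ m', m = m' + 1 := ⟨m - 1, by omega⟩
  refine ⟨m', hm2, hm, he, fun v hv hv0 hvL => dd_e_pos hq hv hv0 (a1 v hv hv0 hvL), ?_, a4, a5,
    a2⟩
  intro U hU
  filter_upwards [a3 U hU] with x hx
  obtain ⟨y, hy, hy1, hy2⟩ := hx
  exact ⟨y, hy, hy1, vanish_of_le_mult hy2⟩

/-- all nonzero boundary points are ordinary, clean, or have a local pencil -/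
theorem ultraSos_of (hp : IsHyperbolic p e)
    (hloc : ∀ z ∈ hypCone p e, z ≠ 0 → eval z p = 0 →
      OrdinaryAt p e z ∨ CleanAt p e z ∨ PencilAt p e z ∨ SpecAt p e z) : UltraSos p e := by
  intro z hz U V hU hV sU sV
  have hz0 : z ≠ 0 := by
    rintro rfl
    have := hz.2.2
    simp at this
  rcases (K_dd_nonneg hp hz.1 hz.2.1 ((e_inOpen hp).mem hp)).lt_or_eq with hs | hs
  · exact smooth_sosF hp hz.2.1 hs U hU hV
      (by filter_upwards [sU] with y hy using ⟨hy.1.1, hy.1.2.1⟩)
      (by filter_upwards [sV] with y hy using hy.1.2.1)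
  · have hne : ∀ y ∈ smT p e, y ≠ z := by
      rintro y hy rfl
      have h1 := hy.2
      rw [← hs] at h1
      exact lt_irrefl _ h1
    rcases hloc z hz.1 hz0 hz.2.1 with h | h | h | h
    · obtain ⟨m, hS⟩ := singAt_of hp hz.1 hz.2.1 hs.symm (locHyp_of h)
      exact conic_sosF hp hz hS U V hU hV
        (by filter_upwards [sU] with y hy using ⟨hy.1, hne y hy⟩)
        (by filter_upwards [sV] with y hy using ⟨hy.1, hne y hy⟩)
    · obtain ⟨m, hS⟩ := stratAt_of hp hz.1 hz.2.1 hs.symm h
      obtain ⟨W, hW, s⟩ := near_strat hp hz hS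
      refine ⟨W ∩ smT p e, inter_mem (hU hW) sU, W ∩ smT p e, inter_mem (hV hW) sV, ?_⟩
      exact s.mono (fun x hx => ⟨hx.1, hx.2⟩) (fun x hx => ⟨hx.1, hx.2.1⟩)
    · exact pencil_sosF hp hz h U V hU hV sU sV
    · exact spec_sosF hp hz h U V hU hV sU sV

theorem union_shadow (hp : IsHyperbolic p e) (hirr : Irreducible p)
    (hpt : ∀ x ∈ hypCone p e, -x ∈ hypCone p e → x = 0)
    (hloc : ∀ z ∈ hypCone p e, z ≠ 0 → eval z p = 0 →
      OrdinaryAt p e z ∨ CleanAt p e z ∨ PencilAt p e z ∨ SpecAt p e z) :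
    IsSpectrahedralShadow (hypCone p e) := by
  by_cases hn : n ≤ 4
  · exact H201.shadow_le_four hn hp
  · exact shadow_of_ultra (by omega) hp hpt hirr (ultraSos_of hp hloc)

end Vale.Agent.P256.H186
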